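import Mathlib

open MeasureTheory Set

namespace P243

/-- The planar linear map with matrix `!![a, b; c, d]`. -/
noncomputable def lin2 (a b c d : ℝ) : ℝ × ℝ →ₗ[ℝ] ℝ × ℝ :=
  Matrix.toLin (Module.Basis.finTwoProd ℝ) (Module.Basis.finTwoProd ℝ) !![a, b; c, d]

theorem lin2_apply (a b c d : ℝ) (p : ℝ × ℝ) :
    lin2 a b c d p = (a * p.1 + b * p.2, c * p.1 + d * p.2) := by
  unfold lin2
  rw [Matrix.toLin_finTwoProd]
  simp

theorem det_lin2 (a b c d : ℝ) : LinearMap.det (lin2 a b c d) = a * d - b * c := by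
  unfold lin2
  rw [LinearMap.det_toLin, Matrix.det_fin_two]
  simp

/-- The area of the image of a planar set under `lin2`. -/
theorem volume_image_lin2 (a b c d : ℝ) (s : Set (ℝ × ℝ)) :
    volume (lin2 a b c d '' s) = ENNReal.ofReal |a * d - b * c| * volume s := by
  have h := Measure.addHaar_image_linearMap (volume : Measure (ℝ × ℝ)) (lin2 a b c d) s
  rw [det_lin2] at h
  exact h

/-- The area of a translate. -/
theorem volume_image_add (o : ℝ × ℝ) (s : Set (ℝ × ℝ)) :
    volume ((fun p => o + p) '' s) = volume s := by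
  have := measure_preimage_add (volume : Measure (ℝ × ℝ)) (-o) s
  rw [← this]
  congr 1
  ext p
  constructor
  · rintro ⟨q, hq, rfl⟩
    simpa using hq
  · intro hp
    exact ⟨-o + p, hp, by simp⟩

/-- Right half of a normalized quadrilateral. -/
theorem half_quad (w u v : ℝ) (hw : 0 ≤ w) (hu : 0 ≤ u) (hv : 0 ≤ v) (huv : u + v = 1)
    {K : Set (ℝ × ℝ)} (hK : Convex ℝ K) (h1 : (w, (0:ℝ)) ∈ K) (h2 : ((0:ℝ), u) ∈ K)
    (h3 : ((0:ℝ), -v) ∈ K) :
    ENNReal.ofReal (w / 2) ≤ volume (K ∩ {p | 0 < p.1}) := by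
  have hreg : volume (regionBetween (fun a => -v * (1 - a / w)) (fun a => u * (1 - a / w))
      (Ioo 0 w)) = ENNReal.ofReal (w / 2) := by
    have h := volume_regionBetween_eq_integral (μ := (volume : Measure ℝ))
      (f := fun a => -v * (1 - a / w)) (g := fun a => u * (1 - a / w)) (s := Ioo 0 w)
      (((by fun_prop : Continuous fun a : ℝ => -v * (1 - a / w)).integrableOn_Icc
        (a := 0) (b := w)).mono_set Ioo_subset_Icc_self)
      (((by fun_prop : Continuous fun a : ℝ => u * (1 - a / w)).integrableOn_Icc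
        (a := 0) (b := w)).mono_set Ioo_subset_Icc_self)
      measurableSet_Ioo (by
        intro x hx
        have hw' : 0 < w := hx.1.trans hx.2
        have : 0 ≤ 1 - x / w := by
          rw [sub_nonneg, div_le_one hw']; exact hx.2.le
        show -v * (1 - x / w) ≤ u * (1 - x / w)
        nlinarith)
    rw [← Measure.volume_eq_prod] at h
    rw [h]
    congr 1
    have h4 : ∀ y : ℝ, ((fun a => u * (1 - a / w)) - fun a => -v * (1 - a / w)) y
        = 1 - w⁻¹ * y := by
      intro y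
      show u * (1 - y / w) - -v * (1 - y / w) = 1 - w⁻¹ * y
      have : u * (1 - y / w) - -v * (1 - y / w) = (u + v) * (1 - y / w) := by ring
      rw [this, huv]; ring
    simp_rw [h4]
    rw [← integral_Ioc_eq_integral_Ioo, ← intervalIntegral.integral_of_le hw]
    rw [intervalIntegral.integral_sub (by simp) (by
      apply Continuous.intervalIntegrable; fun_prop)]
    rw [intervalIntegral.integral_const_mul, integral_id]
    rcases eq_or_lt_of_le hw with h | h
    · rw [← h]; simp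
    · simp
      field_simp
      ring
  rw [← hreg]
  apply measure_mono
  rintro ⟨a, b⟩ ⟨⟨ha0, haw⟩, hb1, hb2⟩
  have hw' : 0 < w := ha0.trans haw
  refine ⟨?_, ha0⟩
  simp only at ha0 haw hb1 hb2
  have hl : 0 < 1 - a / w := by rw [sub_pos, div_lt_one hw']; exact haw
  -- the point on the vertical diagonal
  set l : ℝ := 1 - a / w with hldef
  have hb1' : -v < b / l := by rw [lt_div_iff₀ hl]; linarith
  have hb2' : b / l < u := by rw [div_lt_iff₀ hl]; linarith
  have hmem : ((0:ℝ), b / l) ∈ K := by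
    have hc := hK h3 h2 (a := u - b / l) (b := b / l + v) (by linarith) (by linarith)
      (by linarith)
    have : (u - b / l) • ((0:ℝ), -v) + (b / l + v) • ((0:ℝ), u) = ((0:ℝ), b / l) := by
      ext
      · simp
      · simp only [Prod.smul_mk, smul_eq_mul, Prod.mk_add_mk]
        have hu' : u = 1 - v := by linarith
        rw [hu']; ring
    rwa [this] at hc
  have hc := hK h1 hmem (a := a / w) (b := l) (by positivity) hl.le (by rw [hldef]; ring)
  have : (a / w) • (w, (0:ℝ)) + l • ((0:ℝ), b / l) = (a, b) := by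
    ext
    · simp; field_simp
    · simp; field_simp
  rwa [this] at hc

/-- A convex set containing two crossing unit segments of the coordinate axes has area at
least `1/2`. -/
theorem norm_quad (s t : ℝ) (hs0 : 0 ≤ s) (hs1 : s ≤ 1) (ht0 : 0 ≤ t) (ht1 : t ≤ 1)
    {K : Set (ℝ × ℝ)} (hK : Convex ℝ K) (h1 : (1 - s, (0:ℝ)) ∈ K) (h2 : (-s, (0:ℝ)) ∈ K)
    (h3 : ((0:ℝ), 1 - t) ∈ K) (h4 : ((0:ℝ), -t) ∈ K) :
    ENNReal.ofReal (1 / 2) ≤ volume K := by
  have hA := half_quad (1 - s) (1 - t) t (by linarith) (by linarith) ht0 (by ring) hK h1 h3 h4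
  -- reflect
  have hB : ENNReal.ofReal (s / 2) ≤ volume (K ∩ {p | p.1 < 0}) := by
    have hK' : Convex ℝ ((lin2 (-1) 0 0 1) ⁻¹' K) := hK.linear_preimage _
    have h := half_quad s (1 - t) t hs0 (by linarith) ht0 (by ring) hK'
      (by show lin2 (-1) 0 0 1 _ ∈ K; rw [lin2_apply]; simpa using h2)
      (by show lin2 (-1) 0 0 1 _ ∈ K; rw [lin2_apply]; simpa using h3)
      (by show lin2 (-1) 0 0 1 _ ∈ K; rw [lin2_apply]; simpa using h4)
    have h5 : volume (lin2 (-1) 0 0 1 '' ((lin2 (-1) 0 0 1) ⁻¹' K ∩ {p | 0 < p.1}))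
        = volume ((lin2 (-1) 0 0 1) ⁻¹' K ∩ {p | 0 < p.1}) := by
      rw [volume_image_lin2]; simp
    rw [← h5] at h
    refine h.trans (measure_mono ?_)
    rintro _ ⟨p, ⟨hp1, hp2⟩, rfl⟩
    refine ⟨hp1, ?_⟩
    show (lin2 (-1) 0 0 1 p).1 < 0
    rw [lin2_apply]
    simpa using hp2
  have hdisj : Disjoint (K ∩ {p : ℝ × ℝ | 0 < p.1}) (K ∩ {p : ℝ × ℝ | p.1 < 0}) := by
    rw [Set.disjoint_left]
    rintro p ⟨-, h1⟩ ⟨-, h2⟩
    have h1' : 0 < p.1 := h1
    have h2' : p.1 < 0 := h2
    exact lt_asymm h1' h2'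
  have hmeas : NullMeasurableSet (K ∩ {p : ℝ × ℝ | p.1 < 0}) volume :=
    (hK.nullMeasurableSet (μ := (volume : Measure (ℝ × ℝ)))).inter
      (measurableSet_lt measurable_fst measurable_const).nullMeasurableSet
  calc ENNReal.ofReal (1 / 2) = ENNReal.ofReal ((1 - s) / 2) + ENNReal.ofReal (s / 2) := by
        rw [← ENNReal.ofReal_add (by linarith) (by linarith)]; congr 1; ring
    _ ≤ volume (K ∩ {p | 0 < p.1}) + volume (K ∩ {p | p.1 < 0}) := add_le_add hA hB
    _ = volume ((K ∩ {p | 0 < p.1}) ∪ (K ∩ {p | p.1 < 0})) :=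
        (measure_union₀ hmeas hdisj.aedisjoint).symm
    _ ≤ volume K := measure_mono (union_subset inter_subset_left inter_subset_left)

/-- **Quadrilateral area bound.**  A convex planar set which contains the four points
`o + (1 - s) e`, `o - s e`, `o + (1 - t) f`, `o - t f` (with `s, t ∈ [0,1]`, that is, the end points
of two crossing segments with difference vectors `e` and `f`) has area at least
`|det (e, f)| / 2`. -/
theorem quad_area (o e f : ℝ × ℝ) (s t : ℝ) (hs0 : 0 ≤ s) (hs1 : s ≤ 1) (ht0 : 0 ≤ t)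
    (ht1 : t ≤ 1) {K : Set (ℝ × ℝ)} (hK : Convex ℝ K)
    (h1 : o + (1 - s) • e ∈ K) (h2 : o - s • e ∈ K)
    (h3 : o + (1 - t) • f ∈ K) (h4 : o - t • f ∈ K) :
    ENNReal.ofReal (|e.1 * f.2 - f.1 * e.2| / 2) ≤ volume K := by
  let K1 : Set (ℝ × ℝ) := (fun p => o + p) ⁻¹' K
  have hK1 : Convex ℝ K1 := by
    have := hK.translate_preimage_right o
    exact this
  let K2 : Set (ℝ × ℝ) := lin2 e.1 f.1 e.2 f.2 ⁻¹' K1
  have hK2 : Convex ℝ K2 := hK1.linear_preimage _
  have h := norm_quad s t hs0 hs1 ht0 ht1 hK2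
    (by
      show o + lin2 e.1 f.1 e.2 f.2 _ ∈ K
      rw [lin2_apply]
      convert h1 using 2
      ext <;> simp [mul_comm])
    (by
      show o + lin2 e.1 f.1 e.2 f.2 _ ∈ K
      rw [lin2_apply]
      convert h2 using 1
      ext <;> simp [mul_comm, sub_eq_add_neg])
    (by
      show o + lin2 e.1 f.1 e.2 f.2 _ ∈ K
      rw [lin2_apply]
      convert h3 using 2
      ext <;> simp [mul_comm])
    (by
      show o + lin2 e.1 f.1 e.2 f.2 _ ∈ K
      rw [lin2_apply]
      convert h4 using 1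
      ext <;> simp [mul_comm, sub_eq_add_neg])
  calc ENNReal.ofReal (|e.1 * f.2 - f.1 * e.2| / 2)
      = ENNReal.ofReal |e.1 * f.2 - f.1 * e.2| * ENNReal.ofReal (1 / 2) := by
        rw [← ENNReal.ofReal_mul (abs_nonneg _)]; congr 1; ring
    _ ≤ ENNReal.ofReal |e.1 * f.2 - f.1 * e.2| * volume K2 := by gcongr
    _ = volume (lin2 e.1 f.1 e.2 f.2 '' K2) := (volume_image_lin2 _ _ _ _ _).symm
    _ ≤ volume K1 := measure_mono (image_preimage_subset _ _)
    _ = volume ((fun p => o + p) '' K1) := (volume_image_add o K1).symm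
    _ ≤ volume K := measure_mono (image_preimage_subset _ _)

end P243
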