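import Vale.Agent.P243.EuclidCyl

open MeasureTheory

namespace P243

/-- `CovA S c`: the set `S` is covered by finitely many cylinders of total base area at most
`c`. -/
def CovA (S : Set E3) (c : ℝ) : Prop :=
  ∃ (m : ℕ) (C : Fin m → Cylinder), S ⊆ ⋃ i, (C i).body ∧ ∑ i, (C i).baseArea ≤ c

theorem CovA.mono {S S' : Set E3} {c c' : ℝ} (h : CovA S c) (hS : S' ⊆ S) (hc : c ≤ c') :
    CovA S' c' := by
  obtain ⟨m, C, h1, h2⟩ := h
  exact ⟨m, C, hS.trans h1, h2.trans hc⟩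

theorem CovA.empty : CovA ∅ 0 :=
  ⟨0, Fin.elim0, Set.empty_subset _, by simp⟩

theorem CovA.single {S : Set E3} (C : Cylinder) (hS : S ⊆ C.body) {c : ℝ}
    (hc : C.baseArea ≤ c) : CovA S c :=
  ⟨1, fun _ => C, fun _ hx => Set.mem_iUnion.2 ⟨0, hS hx⟩, by simpa using hc⟩

theorem CovA.union {S S' : Set E3} {c c' : ℝ} (h : CovA S c) (h' : CovA S' c') :
    CovA (S ∪ S') (c + c') := by
  obtain ⟨m, C, h1, h2⟩ := h
  obtain ⟨m', C', h1', h2'⟩ := h'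
  refine ⟨m + m', Fin.append C C', ?_, ?_⟩
  · rintro x (hx | hx)
    · obtain ⟨i, hi⟩ := Set.mem_iUnion.1 (h1 hx)
      exact Set.mem_iUnion.2 ⟨Fin.castAdd m' i, by rwa [Fin.append_left]⟩
    · obtain ⟨i, hi⟩ := Set.mem_iUnion.1 (h1' hx)
      exact Set.mem_iUnion.2 ⟨Fin.natAdd m i, by rwa [Fin.append_right]⟩
  · rw [Fin.sum_univ_add]
    simp only [Fin.append_left, Fin.append_right]
    exact add_le_add h2 h2'

theorem CovA.finset_union {ι : Type*} (s : Finset ι) (S : ι → Set E3) (c : ι → ℝ)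
    (h : ∀ i ∈ s, CovA (S i) (c i)) : CovA (⋃ i ∈ s, S i) (∑ i ∈ s, c i) := by
  classical
  induction s using Finset.induction_on with
  | empty => simpa using CovA.empty
  | insert a s ha ih =>
    rw [Finset.sum_insert ha, Finset.set_biUnion_insert]
    exact (h a (Finset.mem_insert_self _ _)).union
      (ih fun i hi => h i (Finset.mem_insert_of_mem hi))

theorem inner_coord (x y : E3) : (inner ℝ x y) = x 0 * y 0 + x 1 * y 1 + x 2 * y 2 := by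
  simp [PiLp.inner_apply, Fin.sum_univ_three]
  ring

/-- The building block for coverings: a planar set pulled back along two linear functionals. -/
theorem CovA.of_functionals (a0 a1 a2 b0 b1 b2 : ℝ)
    (hG : 0 < (a0 ^ 2 + a1 ^ 2 + a2 ^ 2) * (b0 ^ 2 + b1 ^ 2 + b2 ^ 2)
      - (a0 * b0 + a1 * b1 + a2 * b2) ^ 2)
    (S : Set (ℝ × ℝ)) (hS : MeasurableSet S) {s : ℝ} (hs : 0 ≤ s)
    (hvol : volume S ≤ ENNReal.ofReal s) :
    CovA {x : E3 | (a0 * x 0 + a1 * x 1 + a2 * x 2, b0 * x 0 + b1 * x 1 + b2 * x 2) ∈ S}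
      (s / √((a0 ^ 2 + a1 ^ 2 + a2 ^ 2) * (b0 ^ 2 + b1 ^ 2 + b2 ^ 2)
        - (a0 * b0 + a1 * b1 + a2 * b2) ^ 2)) := by
  have e : (inner ℝ ((!₂[a0, a1, a2] : E3)) (!₂[a0, a1, a2])) * (inner ℝ ((!₂[b0, b1, b2] : E3)) (!₂[b0, b1, b2]))
      - (inner ℝ ((!₂[a0, a1, a2] : E3)) (!₂[b0, b1, b2])) ^ 2
      = (a0 ^ 2 + a1 ^ 2 + a2 ^ 2) * (b0 ^ 2 + b1 ^ 2 + b2 ^ 2)
      - (a0 * b0 + a1 * b1 + a2 * b2) ^ 2 := by
    simp only [inner_coord]
    simp
    ring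
  obtain ⟨C, -, -, hC1, hC2⟩ := exists_cylinder_gram !₂[a0, a1, a2] !₂[b0, b1, b2]
    (by rw [e]; exact hG) S hS (ne_top_of_le_ne_top ENNReal.ofReal_ne_top hvol)
  rw [e] at hC2
  refine CovA.single C ?_ ?_
  · rw [hC1]
    intro x hx
    show ((inner ℝ ((!₂[a0, a1, a2] : E3)) x), (inner ℝ ((!₂[b0, b1, b2] : E3)) x)) ∈ S
    simp only [inner_coord]
    simpa using hx
  · rw [hC2]
    have h1 : (volume S).toReal ≤ s := ENNReal.toReal_le_of_le_ofReal hs hvol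
    gcongr

end P243
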