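import Vale.Agent.P243.Tetra

open MeasureTheory

namespace P243

theorem mem_tetra_iff (x : E3) : x ∈ tetra ↔
    x 0 + x 1 - x 2 ≤ 1 ∧ -x 0 - x 1 - x 2 ≤ 1 ∧ x 0 - x 1 + x 2 ≤ 1 ∧ -x 0 + x 1 + x 2 ≤ 1 := by
  constructor
  · intro hx
    let l : (Fin 4 → ℝ × ℝ × ℝ) := ![(1, 1, -1), (-1, -1, -1), (1, -1, 1), (-1, 1, 1)]
    let φ : ℝ × ℝ × ℝ → (E3 →ₗ[ℝ] ℝ) := fun c =>
      c.1 • (EuclideanSpace.proj 0 : E3 →L[ℝ] ℝ).toLinearMap
        + c.2.1 • (EuclideanSpace.proj 1 : E3 →L[ℝ] ℝ).toLinearMap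
        + c.2.2 • (EuclideanSpace.proj 2 : E3 →L[ℝ] ℝ).toLinearMap
    have hφ : ∀ c : ℝ × ℝ × ℝ, ∀ y : E3, φ c y = c.1 * y 0 + c.2.1 * y 1 + c.2.2 * y 2 := by
      intro c y
      simp [φ]
    have key : ∀ c : ℝ × ℝ × ℝ, (∀ v ∈ ({!₂[1, 1, 1], !₂[1, -1, -1], !₂[-1, 1, -1],
        !₂[-1, -1, 1]} : Set E3), φ c v ≤ 1) → φ c x ≤ 1 := by
      intro c hc
      have hconv : Convex ℝ {y : E3 | φ c y ≤ 1} := convex_halfSpace_le (φ c).isLinear 1
      exact (convexHull_min (fun v hv => hc v hv) hconv) hx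
    have k1 := key (1, 1, -1) (by
      intro v hv; rw [hφ]
      simp only [Set.mem_insert_iff, Set.mem_singleton_iff] at hv
      rcases hv with rfl | rfl | rfl | rfl <;> simp <;> norm_num)
    have k2 := key (-1, -1, -1) (by
      intro v hv; rw [hφ]
      simp only [Set.mem_insert_iff, Set.mem_singleton_iff] at hv
      rcases hv with rfl | rfl | rfl | rfl <;> simp <;> norm_num)
    have k3 := key (1, -1, 1) (by
      intro v hv; rw [hφ]
      simp only [Set.mem_insert_iff, Set.mem_singleton_iff] at hv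
      rcases hv with rfl | rfl | rfl | rfl <;> simp <;> norm_num)
    have k4 := key (-1, 1, 1) (by
      intro v hv; rw [hφ]
      simp only [Set.mem_insert_iff, Set.mem_singleton_iff] at hv
      rcases hv with rfl | rfl | rfl | rfl <;> simp <;> norm_num)
    rw [hφ] at k1 k2 k3 k4
    simp only at k1 k2 k3 k4
    refine ⟨by linarith, by linarith, by linarith, by linarith⟩
  · rintro ⟨h1, h2, h3, h4⟩
    let w : Fin 4 → ℝ := ![(1 + x 0 + x 1 + x 2) / 4, (1 + x 0 - x 1 - x 2) / 4,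
      (1 - x 0 + x 1 - x 2) / 4, (1 - x 0 - x 1 + x 2) / 4]
    let v : Fin 4 → E3 := ![!₂[1, 1, 1], !₂[1, -1, -1], !₂[-1, 1, -1], !₂[-1, -1, 1]]
    have hw : ∀ i ∈ (Finset.univ : Finset (Fin 4)), 0 ≤ w i := by
      intro i _
      fin_cases i <;> simp [w] <;> linarith
    have hw1 : ∑ i, w i = 1 := by
      rw [Fin.sum_univ_four]; simp [w]; ring
    have hv : ∀ i ∈ (Finset.univ : Finset (Fin 4)), v i ∈ tetra := by
      intro i _
      fin_cases i
      · exact vA
      · exact vB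
      · exact vC
      · exact vD
    have hsum := (convex_convexHull ℝ _).sum_mem hw hw1 hv
    have hx : ∑ i, w i • v i = x := by
      rw [Fin.sum_univ_four]
      ext i
      fin_cases i <;> simp [w, v] <;> ring
    rwa [hx] at hsum

/-- The tetrahedron is a convex body. -/
theorem isConvexBody_tetra : IsConvexBody tetra where
  convex := convex_convexHull ℝ _
  isCompact := (Set.toFinite _).isCompact_convexHull ℝ
  nonempty_interior := by
    let U : Set E3 := {x | x 0 + x 1 - x 2 < 1} ∩ {x | -x 0 - x 1 - x 2 < 1} ∩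
      ({x | x 0 - x 1 + x 2 < 1} ∩ {x | -x 0 + x 1 + x 2 < 1})
    have hc : ∀ i : Fin 3, Continuous fun x : E3 => x i := fun i => by fun_prop
    have hU : IsOpen U := by
      refine ((isOpen_lt ?_ continuous_const).inter (isOpen_lt ?_ continuous_const)).inter
        ((isOpen_lt ?_ continuous_const).inter (isOpen_lt ?_ continuous_const)) <;> fun_prop
    refine ⟨0, mem_interior.2 ⟨U, ?_, hU, ?_⟩⟩
    · rintro x ⟨⟨h1, h2⟩, h3, h4⟩
      exact (mem_tetra_iff x).2 ⟨le_of_lt h1, le_of_lt h2, le_of_lt h3, le_of_lt h4⟩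
    · refine ⟨⟨?_, ?_⟩, ?_, ?_⟩ <;> simp

/-- In real form: all shadows of the tetrahedron have area at least `2√2`. -/
theorem shadowArea_tetra_ge (u : E3) (hu : ‖u‖ = 1) : 2 * √2 ≤ shadowArea u tetra := by
  have hfin : volume (shadow u tetra) ≠ ⊤ := by
    have hcomp : IsCompact (shadow u tetra) :=
      isConvexBody_tetra.isCompact.image (perp u).orthogonalProjectionOnto.continuous
    exact hcomp.measure_lt_top.ne
  exact (ENNReal.ofReal_le_iff_le_toReal hfin).1 (shadow_tetra_ge u hu)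

end P243
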