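import Vale.Agent.P243.Statement
import Vale.Agent.P243.CovA
import Vale.Agent.P243.TetraBody

open MeasureTheory

namespace P243

/-- Translation of a cylinder to the general definition. -/
noncomputable def toBang (C : Cylinder) : Bang.Cylinder E3 where
  axis := C.axis
  norm_axis := C.norm_axis
  base := C.base
  measurable_base := C.measurable_base
  finite_base := lt_top_iff_ne_top.2 C.finite_base

theorem toBang_body (C : Cylinder) : (toBang C).body = C.body := rfl

theorem area_toBang (C : Cylinder) :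
    Bang.area (toBang C).axis (toBang C).base = ENNReal.ofReal C.baseArea :=
  (ENNReal.ofReal_toReal C.finite_base).symm

theorem isConvexBody_bang : Bang.IsConvexBody tetra :=
  ⟨isConvexBody_tetra.isCompact, isConvexBody_tetra.convex, isConvexBody_tetra.nonempty_interior⟩

theorem le_area_shadow (u : E3) (hu : ‖u‖ = 1) :
    ENNReal.ofReal (2 * √2) ≤ Bang.area u (Bang.shadow u tetra) :=
  shadow_tetra_ge u hu

theorem le_minShadow_bang : ENNReal.ofReal (2 * √2) ≤ Bang.minShadow tetra :=
  le_iInf fun u => le_area_shadow u.1 u.2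

theorem totalArea_bang {m : ℕ} (C : Fin m → Cylinder) :
    Bang.totalArea (fun i => toBang (C i)) = ENNReal.ofReal (∑ i, (C i).baseArea) := by
  unfold Bang.totalArea
  rw [ENNReal.ofReal_sum_of_nonneg (f := fun i => (C i).baseArea)
    (fun i _ => ENNReal.toReal_nonneg)]
  exact Finset.sum_congr rfl fun i _ => area_toBang (C i)

theorem relArea_bang_le {m : ℕ} (C : Fin m → Cylinder) :
    Bang.relArea (fun i => toBang (C i)) tetra
      ≤ Bang.totalArea (fun i => toBang (C i)) / ENNReal.ofReal (2 * √2) := by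
  unfold Bang.relArea Bang.totalArea
  rw [ENNReal.div_eq_inv_mul, Finset.mul_sum]
  refine Finset.sum_le_sum fun i _ => ?_
  rw [ENNReal.div_eq_inv_mul]
  gcongr
  exact le_area_shadow _ (C i).norm_axis

/-- A covering of the tetrahedron of total base area less than `√2` disproves the conjectures. -/
theorem exists_bang {c : ℝ} (h : CovA tetra c) (hc : c < √2) :
    ∃ (m : ℕ) (C : Fin m → Bang.Cylinder E3), Bang.IsCovering C tetra ∧
      Bang.totalArea C < 1 / 2 * Bang.minShadow tetra ∧
      Bang.totalArea C / Bang.minShadow tetra < 1 / 2 ∧ Bang.relArea C tetra < 1 / 2 := by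
  obtain ⟨m, C, hC, hsum⟩ := h
  have hs : (0 : ℝ) < √2 := by positivity
  have h2 : ENNReal.ofReal (2 * √2) = 2 * ENNReal.ofReal √2 := by
    rw [ENNReal.ofReal_mul (by norm_num)]; norm_num
  have hpos : ENNReal.ofReal (2 * √2) ≠ 0 := by
    rw [Ne, ENNReal.ofReal_eq_zero, not_le]; positivity
  have htop : ENNReal.ofReal (2 * √2) ≠ ⊤ := ENNReal.ofReal_ne_top
  have hA : Bang.totalArea (fun i => toBang (C i)) < ENNReal.ofReal √2 := by
    rw [totalArea_bang]
    exact (ENNReal.ofReal_lt_ofReal_iff hs).2 (hsum.trans_lt hc)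
  have hhalf : ENNReal.ofReal √2 = 1 / 2 * ENNReal.ofReal (2 * √2) := by
    rw [h2, ← mul_assoc, ENNReal.div_mul_cancel (by norm_num) (by norm_num), one_mul]
  have hdiv : Bang.totalArea (fun i => toBang (C i)) / ENNReal.ofReal (2 * √2) < 1 / 2 := by
    rw [ENNReal.div_lt_iff (Or.inl hpos) (Or.inl htop)]
    rwa [hhalf] at hA
  refine ⟨m, fun i => toBang (C i), ⟨isConvexBody_bang, ?_⟩, ?_, ?_, ?_⟩
  · exact hC
  · calc Bang.totalArea (fun i => toBang (C i)) < ENNReal.ofReal √2 := hA
      _ = 1 / 2 * ENNReal.ofReal (2 * √2) := hhalf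
      _ ≤ 1 / 2 * Bang.minShadow tetra := by
        gcongr
        exact le_minShadow_bang
  · refine lt_of_le_of_lt ?_ hdiv
    gcongr
    exact le_minShadow_bang
  · exact (relArea_bang_le C).trans_lt hdiv

end P243
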