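import Vale.Agent.P243.Transfer

open MeasureTheory

namespace P243

/-- Version of the transfer lemma with a non-normalized kernel vector. -/
theorem exists_cylinder' (v : E3) (hv : v ≠ 0) (L : E3 →L[ℝ] ℝ × ℝ) (hLv : L v = 0)
    (hL : Function.Surjective L) (S : Set (ℝ × ℝ)) (hS : MeasurableSet S)
    (hfin : volume S ≠ ⊤) :
    ∃ C : Cylinder, C.body = L ⁻¹' S ∧
      ∀ K : Set E3, C.baseArea / shadowArea C.axis K
        = (volume S).toReal / (volume (L '' K)).toReal := by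
  have hn : ‖v‖ ≠ 0 := norm_ne_zero_iff.2 hv
  have hu1 : ‖(‖v‖⁻¹ • v)‖ = 1 := by
    rw [norm_smul, norm_inv, norm_norm, inv_mul_cancel₀ hn]
  obtain ⟨C, -, h2, h3⟩ := exists_cylinder (‖v‖⁻¹ • v) hu1 L (by rw [map_smul, hLv, smul_zero])
    hL S hS hfin
  exact ⟨C, h2, h3⟩

/-- `Cov K S c`: the set `S` is covered by finitely many cylinders whose directionwise relative
area with respect to `K` is at most `c`. -/
def Cov (K S : Set E3) (c : ℝ) : Prop :=
  ∃ (m : ℕ) (C : Fin m → Cylinder), S ⊆ ⋃ i, (C i).body ∧ relArea C K ≤ c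

theorem Cov.mono {K S S' : Set E3} {c c' : ℝ} (h : Cov K S c) (hS : S' ⊆ S) (hc : c ≤ c') :
    Cov K S' c' := by
  obtain ⟨m, C, h1, h2⟩ := h
  exact ⟨m, C, hS.trans h1, h2.trans hc⟩

theorem Cov.empty (K : Set E3) : Cov K ∅ 0 :=
  ⟨0, Fin.elim0, Set.empty_subset _, by simp [relArea]⟩

theorem Cov.single {K S : Set E3} (C : Cylinder) (hS : S ⊆ C.body) {c : ℝ}
    (hc : C.baseArea / shadowArea C.axis K ≤ c) : Cov K S c :=
  ⟨1, fun _ => C, fun x hx => Set.mem_iUnion.2 ⟨0, hS hx⟩, by simpa [relArea] using hc⟩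

theorem Cov.union {K S S' : Set E3} {c c' : ℝ} (h : Cov K S c) (h' : Cov K S' c') :
    Cov K (S ∪ S') (c + c') := by
  obtain ⟨m, C, h1, h2⟩ := h
  obtain ⟨m', C', h1', h2'⟩ := h'
  refine ⟨m + m', Fin.append C C', ?_, ?_⟩
  · rintro x (hx | hx)
    · obtain ⟨i, hi⟩ := Set.mem_iUnion.1 (h1 hx)
      exact Set.mem_iUnion.2 ⟨Fin.castAdd m' i, by rwa [Fin.append_left]⟩
    · obtain ⟨i, hi⟩ := Set.mem_iUnion.1 (h1' hx)
      exact Set.mem_iUnion.2 ⟨Fin.natAdd m i, by rwa [Fin.append_right]⟩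
  · unfold relArea at *
    rw [Fin.sum_univ_add]
    simp only [Fin.append_left, Fin.append_right]
    exact add_le_add h2 h2'

theorem Cov.finset_union {ι : Type*} {K : Set E3} (s : Finset ι) (S : ι → Set E3) (c : ι → ℝ)
    (h : ∀ i ∈ s, Cov K (S i) (c i)) : Cov K (⋃ i ∈ s, S i) (∑ i ∈ s, c i) := by
  classical
  induction s using Finset.induction_on with
  | empty => simpa using Cov.empty K
  | insert a s ha ih =>
    rw [Finset.sum_insert ha, Finset.set_biUnion_insert]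
    exact (h a (Finset.mem_insert_self _ _)).union
      (ih fun i hi => h i (Finset.mem_insert_of_mem hi))

/-- The basic building block: the preimage of a planar set under a linear map. -/
theorem Cov.of_preimage {K : Set E3} (v : E3) (hv : v ≠ 0) (L : E3 →L[ℝ] ℝ × ℝ) (hLv : L v = 0)
    (hL : Function.Surjective L) (S : Set (ℝ × ℝ)) (hS : MeasurableSet S)
    {a d : ℝ} (ha : volume S ≤ ENNReal.ofReal a) (ha0 : 0 ≤ a) (hd : 0 < d)
    (hK : ENNReal.ofReal d ≤ volume (L '' K)) (hKfin : volume (L '' K) ≠ ⊤) :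
    Cov K (L ⁻¹' S) (a / d) := by
  obtain ⟨C, hC1, hC2⟩ := exists_cylinder' v hv L hLv hL S hS
    (ne_top_of_le_ne_top ENNReal.ofReal_ne_top ha)
  refine Cov.single C hC1.ge ?_
  rw [hC2 K]
  have h1 : (volume S).toReal ≤ a := ENNReal.toReal_le_of_le_ofReal ha0 ha
  have h2 : d ≤ (volume (L '' K)).toReal := (ENNReal.ofReal_le_iff_le_toReal hKfin).1 hK
  gcongr

end P243
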