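import Mathlib

/-!
# P243: cylinders in `ℝ³`, their bases, shadows of a convex body, relative area of a covering

Definitions shared by the hand-ins for problem P243.
-/

open MeasureTheory

namespace P243

/-- Euclidean three-space. -/
abbrev E3 : Type := EuclideanSpace ℝ (Fin 3)

/-- The plane `u^⊥` through the origin orthogonal to `u` (a linear subspace of `E3`).  As a
subspace of `E3` it carries the Euclidean structure, and `volume` on it is the planar Lebesgue
measure (Mathlib's `measureSpaceOfInnerProductSpace`). -/
noncomputable abbrev perp (u : E3) : Submodule ℝ E3 := (Submodule.span ℝ {u})ᗮ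

/-- A cylinder `B + ℝ u`: a unit vector `u` together with a Lebesgue measurable base
`B ⊆ u^⊥` of finite planar area. -/
structure Cylinder where
  /-- the direction `u` of the axis -/
  axis : E3
  /-- the direction is a unit vector -/
  norm_axis : ‖axis‖ = 1
  /-- the base `B`, a subset of the plane `u^⊥` -/
  base : Set (perp axis)
  /-- the base is Lebesgue measurable -/
  measurable_base : NullMeasurableSet base volume
  /-- the base has finite area -/
  finite_base : volume base ≠ ⊤

namespace Cylinder

/-- The point set `B + ℝ u` of a cylinder. -/
def body (C : Cylinder) : Set E3 :=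
  {x | ∃ b ∈ C.base, ∃ t : ℝ, x = (b : E3) + t • C.axis}

/-- The planar area `|B|` of the base. -/
noncomputable def baseArea (C : Cylinder) : ℝ := (volume C.base).toReal

end Cylinder

/-- The orthogonal projection `π_{u^⊥} K` of a set `K` onto the plane `u^⊥`. -/
noncomputable def shadow (u : E3) (K : Set E3) : Set (perp u) :=
  (perp u).orthogonalProjectionOnto '' K

/-- The planar area `|π_{u^⊥} K|` of the orthogonal projection of `K` onto `u^⊥`. -/
noncomputable def shadowArea (u : E3) (K : Set E3) : ℝ := (volume (shadow u K)).toReal

/-- A convex body: a compact convex set with nonempty interior. -/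
structure IsConvexBody (K : Set E3) : Prop where
  convex : Convex ℝ K
  isCompact : IsCompact K
  nonempty_interior : (interior K).Nonempty

/-- The directionwise relative area `∑ i, |B_i| / |π_{u_i^⊥} K|` of a finite family of
cylinders. -/
noncomputable def relArea {m : ℕ} (C : Fin m → Cylinder) (K : Set E3) : ℝ :=
  ∑ i, (C i).baseArea / shadowArea (C i).axis K

/-- `A_min(K)`: the smallest area of an orthogonal projection of `K` onto a plane (infimum over
all unit vectors `u`). -/
noncomputable def minShadow (K : Set E3) : ℝ :=
  sInf {a : ℝ | ∃ u : E3, ‖u‖ = 1 ∧ a = shadowArea u K}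

/-- `c₃`: the infimum of `(∑ i, |B_i|) / A_min(K)` over all convex bodies `K` and all finite
coverings of `K` by cylinders. -/
noncomputable def c3 : ℝ :=
  sInf {r : ℝ | ∃ K : Set E3, IsConvexBody K ∧ ∃ (m : ℕ) (C : Fin m → Cylinder),
    K ⊆ ⋃ i, (C i).body ∧ r = (∑ i, (C i).baseArea) / minShadow K}

/-- `r₃`: the infimum of the directionwise relative area over all convex bodies `K` and all
finite coverings of `K` by cylinders. -/
noncomputable def r3 : ℝ :=
  sInf {r : ℝ | ∃ K : Set E3, IsConvexBody K ∧ ∃ (m : ℕ) (C : Fin m → Cylinder),
    K ⊆ ⋃ i, (C i).body ∧ r = relArea C K}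

end P243
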