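import Vale.Agent.P243.ShadowArea

open MeasureTheory

namespace P243

/-- There is a unit vector orthogonal to two given vectors of `ℝ³`. -/
theorem exists_unit_perp (a b : E3) : ∃ u : E3, ‖u‖ = 1 ∧ (inner ℝ a u) = 0 ∧ (inner ℝ b u) = 0 := by
  have h1 := Submodule.finrank_add_finrank_orthogonal (Submodule.span ℝ ({a, b} : Set E3))
  have h2 : Module.finrank ℝ E3 = 3 := by simp
  have h3 : Module.finrank ℝ (Submodule.span ℝ ({a, b} : Set E3)) ≤ 2 := by
    classical
    have h := finrank_span_finset_le_card (R := ℝ) ({a, b} : Finset E3)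
    rw [Finset.coe_pair] at h
    exact h.trans Finset.card_le_two
  rw [h2] at h1
  have h4 : 0 < Module.finrank ℝ (Submodule.span ℝ ({a, b} : Set E3))ᗮ := by omega
  have h5 : Nontrivial (Submodule.span ℝ ({a, b} : Set E3))ᗮ := Module.finrank_pos_iff.1 h4
  obtain ⟨⟨w, hw⟩, hw0⟩ := exists_ne (0 : (Submodule.span ℝ ({a, b} : Set E3))ᗮ)
  have hw1 : w ≠ 0 := fun h => hw0 (Subtype.ext h)
  have hn : ‖w‖ ≠ 0 := norm_ne_zero_iff.2 hw1
  have ha : (inner ℝ a w) = 0 := (Submodule.mem_orthogonal _ _).1 hw a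
    (Submodule.subset_span (by simp))
  have hb : (inner ℝ b w) = 0 := (Submodule.mem_orthogonal _ _).1 hw b
    (Submodule.subset_span (by simp))
  refine ⟨‖w‖⁻¹ • w, ?_, ?_, ?_⟩
  · rw [norm_smul, norm_inv, norm_norm, inv_mul_cancel₀ hn]
  · rw [real_inner_smul_right, ha, mul_zero]
  · rw [real_inner_smul_right, hb, mul_zero]

/-- **Euclidean transfer lemma.**  For linearly independent `a, b ∈ ℝ³` (positive Gram
determinant `G`) and a measurable planar set `S` of finite area, the set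
`{x | ((inner ℝ a x), (inner ℝ b x)) ∈ S}` is (the body of) a cylinder whose base has area `|S| / √G`. -/
theorem exists_cylinder_gram (a b : E3) (hG : 0 < (inner ℝ a a) * (inner ℝ b b) - (inner ℝ a b) ^ 2)
    (S : Set (ℝ × ℝ)) (hS : MeasurableSet S) (hfin : volume S ≠ ⊤) :
    ∃ C : Cylinder, (inner ℝ a C.axis) = 0 ∧ (inner ℝ b C.axis) = 0 ∧
      C.body = {x : E3 | ((inner ℝ a x), (inner ℝ b x)) ∈ S} ∧
      C.baseArea = (volume S).toReal / √((inner ℝ a a) * (inner ℝ b b) - (inner ℝ a b) ^ 2) := by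
  obtain ⟨u, hu, hau, hbu⟩ := exists_unit_perp a b
  obtain ⟨e, f, hpars, Φ, hΦm, hΦ, hΦp⟩ := exists_frame u hu
  have hua : (inner ℝ u a) = 0 := by rw [real_inner_comm]; exact hau
  have hub : (inner ℝ u b) = 0 := by rw [real_inner_comm]; exact hbu
  set D : ℝ := (inner ℝ e a) * (inner ℝ f b) - (inner ℝ f a) * (inner ℝ e b) with hD
  have hgram : D ^ 2 = (inner ℝ a a) * (inner ℝ b b) - (inner ℝ a b) ^ 2 := by
    have h := gram e f u hpars a b
    rw [hua, hub] at h
    rw [hD]
    linarith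
  have hD0 : D ≠ 0 := by
    intro h; rw [h] at hgram; rw [← hgram] at hG; norm_num at hG
  have hlin : ∀ x : E3, lin2 (inner ℝ e a) (inner ℝ f a) (inner ℝ e b) (inner ℝ f b) (Φ ((perp u).orthogonalProjectionOnto x))
      = ((inner ℝ a x), (inner ℝ b x)) := by
    intro x
    rw [hΦp, lin2_apply]
    have h1 := hpars a x
    have h2 := hpars b x
    rw [hua] at h1
    rw [hub] at h2
    ext
    · simp only; linarith
    · simp only; linarith
  have hcont : Continuous (lin2 (inner ℝ e a) (inner ℝ f a) (inner ℝ e b) (inner ℝ f b)) :=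
    LinearMap.continuous_of_finiteDimensional _
  have hvol : volume (Φ ⁻¹' (lin2 (inner ℝ e a) (inner ℝ f a) (inner ℝ e b) (inner ℝ f b) ⁻¹' S))
      = ENNReal.ofReal |D⁻¹| * volume S := by
    rw [hΦm.measure_preimage_equiv]
    have hdet : LinearMap.det (lin2 (inner ℝ e a) (inner ℝ f a) (inner ℝ e b) (inner ℝ f b)) = D := by rw [det_lin2]
    have h := Measure.addHaar_preimage_linearMap (volume : Measure (ℝ × ℝ))
      (f := lin2 (inner ℝ e a) (inner ℝ f a) (inner ℝ e b) (inner ℝ f b)) (by rw [hdet]; exact hD0) S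
    rw [hdet] at h
    exact h
  let C : Cylinder :=
    { axis := u
      norm_axis := hu
      base := Φ ⁻¹' (lin2 (inner ℝ e a) (inner ℝ f a) (inner ℝ e b) (inner ℝ f b) ⁻¹' S)
      measurable_base := (Φ.measurable (hcont.measurable hS)).nullMeasurableSet
      finite_base := by
        rw [hvol]; exact ENNReal.mul_ne_top ENNReal.ofReal_ne_top hfin }
  refine ⟨C, hau, hbu, ?_, ?_⟩
  · ext x
    rw [mem_body_iff]
    show lin2 _ _ _ _ (Φ ((perp u).orthogonalProjectionOnto x)) ∈ S ↔ ((inner ℝ a x), (inner ℝ b x)) ∈ S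
    rw [hlin]
  · show (volume (Φ ⁻¹' (lin2 _ _ _ _ ⁻¹' S))).toReal = _
    rw [hvol, ENNReal.toReal_mul, ENNReal.toReal_ofReal (abs_nonneg _), ← hgram,
      Real.sqrt_sq_eq_abs, abs_inv, div_eq_inv_mul]

end P243
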