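import Vale.Agent.P243.TetraBody
import Vale.Agent.P243.CovA

open MeasureTheory

namespace P243

theorem bddBelow_shadow (K : Set E3) :
    BddBelow {a : ℝ | ∃ u : E3, ‖u‖ = 1 ∧ a = shadowArea u K} :=
  ⟨0, by rintro a ⟨u, -, rfl⟩; exact ENNReal.toReal_nonneg⟩

theorem minShadow_le (K : Set E3) (u : E3) (hu : ‖u‖ = 1) : minShadow K ≤ shadowArea u K :=
  csInf_le (bddBelow_shadow K) ⟨u, hu, rfl⟩

theorem exists_unit : ∃ u : E3, ‖u‖ = 1 := by
  obtain ⟨u, hu, -, -⟩ := exists_unit_perp 0 0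
  exact ⟨u, hu⟩

theorem le_minShadow_tetra : 2 * √2 ≤ minShadow tetra := by
  obtain ⟨u, hu⟩ := exists_unit
  refine le_csInf ⟨_, u, hu, rfl⟩ ?_
  rintro a ⟨v, hv, rfl⟩
  exact shadowArea_tetra_ge v hv

theorem baseArea_nonneg (C : Cylinder) : 0 ≤ C.baseArea := ENNReal.toReal_nonneg

theorem minShadow_nonneg (K : Set E3) : 0 ≤ minShadow K :=
  Real.sInf_nonneg (by rintro a ⟨u, -, rfl⟩; exact ENNReal.toReal_nonneg)

/-- The directionwise relative area is at most `(∑ |B_i|)/A_min`. -/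
theorem relArea_le {m : ℕ} (C : Fin m → Cylinder) (K : Set E3) (hK : 0 < minShadow K) :
    relArea C K ≤ (∑ i, (C i).baseArea) / minShadow K := by
  unfold relArea
  rw [Finset.sum_div]
  refine Finset.sum_le_sum fun i _ => ?_
  have h1 := minShadow_le K (C i).axis (C i).norm_axis
  have h2 := baseArea_nonneg (C i)
  gcongr

theorem c3_le {K : Set E3} (hK : IsConvexBody K) {m : ℕ} (C : Fin m → Cylinder)
    (hC : K ⊆ ⋃ i, (C i).body) : c3 ≤ (∑ i, (C i).baseArea) / minShadow K := by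
  refine csInf_le ⟨0, ?_⟩ ⟨K, hK, m, C, hC, rfl⟩
  rintro r ⟨K', -, m', C', -, rfl⟩
  exact div_nonneg (Finset.sum_nonneg fun i _ => baseArea_nonneg _) (minShadow_nonneg _)

theorem r3_le {K : Set E3} (hK : IsConvexBody K) {m : ℕ} (C : Fin m → Cylinder)
    (hC : K ⊆ ⋃ i, (C i).body) : r3 ≤ relArea C K := by
  refine csInf_le ⟨0, ?_⟩ ⟨K, hK, m, C, hC, rfl⟩
  rintro r ⟨K', -, m', C', -, rfl⟩
  exact Finset.sum_nonneg fun i _ => div_nonneg (baseArea_nonneg _) ENNReal.toReal_nonneg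

/-- Assembly: a covering of the tetrahedron of total base area `c < √2` disproves the half-area
conjecture. -/
theorem final_of_cov {c : ℝ} (h : CovA tetra c) (hc : c < √2) :
    (∃ K : Set E3, IsConvexBody K ∧ ∃ (m : ℕ) (C : Fin m → Cylinder),
      K ⊆ ⋃ i, (C i).body ∧ ∑ i, (C i).baseArea < 1 / 2 * minShadow K ∧
        relArea C K < 1 / 2) ∧ c3 < 1 / 2 ∧ r3 < 1 / 2 := by
  obtain ⟨m, C, hC, hsum⟩ := h
  have h1 := le_minShadow_tetra
  have h2 : 0 < √2 := by positivity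
  have h3 : 0 < minShadow tetra := by linarith
  have h4 : (∑ i, (C i).baseArea) / minShadow tetra < 1 / 2 := by
    rw [div_lt_iff₀ h3]; linarith
  have h5 : relArea C tetra < 1 / 2 := (relArea_le C tetra h3).trans_lt h4
  exact ⟨⟨tetra, isConvexBody_tetra, m, C, hC, by linarith, h5⟩,
    (c3_le isConvexBody_tetra C hC).trans_lt h4, (r3_le isConvexBody_tetra C hC).trans_lt h5⟩

end P243
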