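import Vale.Agent.P243.Transfer
import Vale.Agent.P243.Area

open MeasureTheory

namespace P243

/-- For a unit vector `u` there is an orthonormal frame `e, f` of `u^⊥`, with the associated
planar coordinates on `u^⊥`. -/
theorem exists_frame (u : E3) (hu : ‖u‖ = 1) :
    ∃ e f : E3, (∀ x y : E3, (inner ℝ x y) = (inner ℝ e x) * (inner ℝ e y) + (inner ℝ f x) * (inner ℝ f y) + (inner ℝ u x) * (inner ℝ u y)) ∧
      ∃ Φ : perp u ≃ᵐ ℝ × ℝ, MeasurePreserving Φ volume volume ∧
        (∀ x : perp u, Φ x = ((inner ℝ e ((x : E3))), (inner ℝ f ((x : E3))))) ∧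
        (∀ x : E3, Φ ((perp u).orthogonalProjectionOnto x) = ((inner ℝ e x), (inner ℝ f x))) := by
  have hu0 : u ≠ 0 := by
    intro h; rw [h] at hu; simp at hu
  have hdim : Module.finrank ℝ (perp u) = 2 := by
    have h1 := Submodule.finrank_add_finrank_orthogonal (Submodule.span ℝ {u})
    rw [finrank_span_singleton hu0] at h1
    have h2 : Module.finrank ℝ E3 = 3 := by simp
    rw [h2] at h1
    show Module.finrank ℝ (Submodule.span ℝ {u})ᗮ = 2
    omega
  let b : OrthonormalBasis (Fin 2) ℝ (perp u) :=
    (stdOrthonormalBasis ℝ (perp u)).reindex (finCongr hdim)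
  let e : E3 := (b 0 : E3)
  let f : E3 := (b 1 : E3)
  let Φ : perp u ≃ᵐ ℝ × ℝ :=
    (b.repr.toHomeomorph.toMeasurableEquiv.trans
      (MeasurableEquiv.toLp 2 (Fin 2 → ℝ)).symm).trans MeasurableEquiv.finTwoArrow
  have hΦ : ∀ x : perp u, Φ x = ((inner ℝ e ((x : E3))), (inner ℝ f ((x : E3)))) := by
    intro x
    have h0 : b.repr x 0 = (inner ℝ (b 0) x) := b.repr_apply_apply x 0
    have h1 : b.repr x 1 = (inner ℝ (b 1) x) := b.repr_apply_apply x 1
    show (b.repr x 0, b.repr x 1) = _
    rw [h0, h1]
    rfl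
  have heu : ∀ y : perp u, (inner ℝ u ((y : E3))) = 0 := by
    intro y
    exact (Submodule.mem_orthogonal_singleton_iff_inner_right.1 y.2)
  have hproj : ∀ (g : perp u) (x : E3),
      (inner ℝ ((g : E3)) (((perp u).orthogonalProjectionOnto x : E3))) = (inner ℝ ((g : E3)) x) := by
    intro g x
    obtain ⟨t, ht⟩ := Submodule.mem_span_singleton.1 (sub_proj_mem_span u x)
    have hx : x = ((perp u).orthogonalProjectionOnto x : E3) + t • u := by rw [ht]; abel
    have hgu : (inner ℝ ((g : E3)) u) = 0 := by rw [real_inner_comm]; exact heu g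
    calc (inner ℝ ((g : E3)) (((perp u).orthogonalProjectionOnto x : E3)))
        = (inner ℝ ((g : E3)) (((perp u).orthogonalProjectionOnto x : E3))) + t * (inner ℝ ((g : E3)) u) := by
          rw [hgu]; ring
      _ = (inner ℝ ((g : E3)) (((perp u).orthogonalProjectionOnto x : E3) + t • u)) := by
          rw [inner_add_right, real_inner_smul_right]
      _ = (inner ℝ ((g : E3)) x) := by rw [← hx]
  refine ⟨e, f, ?_, Φ, ?_, hΦ, ?_⟩
  · intro x y
    have hpars : ∀ p q : perp u, (inner ℝ ((p : E3)) ((q : E3)))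
        = (inner ℝ e ((p : E3))) * (inner ℝ e ((q : E3))) + (inner ℝ f ((p : E3))) * (inner ℝ f ((q : E3))) := by
      intro p q
      have h := b.sum_inner_mul_inner p q
      rw [Fin.sum_univ_two] at h
      have h' : (inner ℝ ((p : E3)) ((q : E3))) = (inner ℝ p q) := rfl
      rw [h', ← h]
      have h0 : (inner ℝ p (b 0)) = (inner ℝ e ((p : E3))) := by rw [real_inner_comm]; rfl
      have h1 : (inner ℝ p (b 1)) = (inner ℝ f ((p : E3))) := by rw [real_inner_comm]; rfl
      rw [h0, h1]
      rfl
    obtain ⟨s, hs⟩ := Submodule.mem_span_singleton.1 (sub_proj_mem_span u x)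
    obtain ⟨t, ht⟩ := Submodule.mem_span_singleton.1 (sub_proj_mem_span u y)
    set p := (perp u).orthogonalProjectionOnto x with hp
    set q := (perp u).orthogonalProjectionOnto y with hq
    have hx : x = (p : E3) + s • u := by rw [hs]; abel
    have hy : y = (q : E3) + t • u := by rw [ht]; abel
    have huu : (inner ℝ u u) = 1 := by rw [real_inner_self_eq_norm_sq, hu]; norm_num
    have hpu : (inner ℝ ((p : E3)) u) = 0 := by rw [real_inner_comm]; exact heu p
    have hux : (inner ℝ u x) = s := by
      rw [hx, inner_add_right, real_inner_smul_right, heu p, huu]; ring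
    have huy : (inner ℝ u y) = t := by
      rw [hy, inner_add_right, real_inner_smul_right, heu q, huu]; ring
    have hex : (inner ℝ e x) = (inner ℝ e ((p : E3))) := (hproj (b 0) x).symm
    have hfx : (inner ℝ f x) = (inner ℝ f ((p : E3))) := (hproj (b 1) x).symm
    have hey : (inner ℝ e y) = (inner ℝ e ((q : E3))) := (hproj (b 0) y).symm
    have hfy : (inner ℝ f y) = (inner ℝ f ((q : E3))) := (hproj (b 1) y).symm
    rw [hux, huy, hex, hfx, hey, hfy, ← hpars]
    calc (inner ℝ x y) = (inner ℝ ((p : E3) + s • u) ((q : E3) + t • u)) := by rw [← hx, ← hy]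
      _ = _ := by
        rw [inner_add_left, inner_add_right, inner_add_right, real_inner_smul_left,
          real_inner_smul_left, real_inner_smul_right, real_inner_smul_right, hpu, heu q, huu]
        ring
  · exact (b.measurePreserving_repr.trans
      (PiLp.volume_preserving_ofLp (Fin 2))).trans (volume_preserving_finTwoArrow ℝ)
  · intro x
    rw [hΦ]
    rw [show (inner ℝ e (((perp u).orthogonalProjectionOnto x : E3))) = (inner ℝ e x) from hproj (b 0) x,
      show (inner ℝ f (((perp u).orthogonalProjectionOnto x : E3))) = (inner ℝ f x) from hproj (b 1) x]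

end P243
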