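import Mathlib

open MeasureTheory Set

namespace P243

namespace Half

/-- The planar wedge (a triangle), translated so that its apex is `(-1, 0)`. -/
def wedge (u h Y : ℝ) : Set (ℝ × ℝ) :=
  {z | (0 ≤ 1 + z.1 ∧ 1 + z.1 ≤ Y) ∧ (u * (1 + z.1) ≤ z.2 ∧ z.2 ≤ (u + h) * (1 + z.1))}

theorem measurableSet_wedge (u h Y : ℝ) : MeasurableSet (wedge u h Y) := by
  apply IsClosed.measurableSet
  have h1 : IsClosed {z : ℝ × ℝ | 0 ≤ 1 + z.1} :=
    isClosed_le (by fun_prop) (by fun_prop)
  have h2 : IsClosed {z : ℝ × ℝ | 1 + z.1 ≤ Y} :=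
    isClosed_le (by fun_prop) (by fun_prop)
  have h3 : IsClosed {z : ℝ × ℝ | u * (1 + z.1) ≤ z.2} :=
    isClosed_le (by fun_prop) (by fun_prop)
  have h4 : IsClosed {z : ℝ × ℝ | z.2 ≤ (u + h) * (1 + z.1)} :=
    isClosed_le (by fun_prop) (by fun_prop)
  exact (h1.inter h2).inter (h3.inter h4)

theorem volume_wedge (u h Y : ℝ) (hh : 0 ≤ h) (hY : 0 ≤ Y) :
    volume (wedge u h Y) = ENNReal.ofReal (h * Y ^ 2 / 2) := by
  have h1 : volume (wedge u h Y)
      = ∫⁻ x : ℝ, volume (Prod.mk x ⁻¹' (wedge u h Y)) := by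
    rw [Measure.volume_eq_prod]
    exact Measure.prod_apply (measurableSet_wedge u h Y)
  have h2 : ∀ x : ℝ, volume (Prod.mk x ⁻¹' (wedge u h Y))
      = (Icc (-1) (Y - 1)).indicator (fun x => ENNReal.ofReal (h * (1 + x))) x := by
    intro x
    by_cases hx : x ∈ Icc (-1) (Y - 1)
    · rw [indicator_of_mem hx]
      have : Prod.mk x ⁻¹' (wedge u h Y) = Icc (u * (1 + x)) ((u + h) * (1 + x)) := by
        ext z
        rw [mem_Icc]
        constructor
        · rintro ⟨_, h3⟩; exact h3
        · intro h3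
          exact ⟨⟨by linarith [hx.1], by linarith [hx.2]⟩, h3⟩
      rw [this, Real.volume_Icc]
      congr 1; ring
    · rw [indicator_of_notMem hx]
      have : Prod.mk x ⁻¹' (wedge u h Y) = ∅ := by
        ext z
        refine iff_of_false ?_ (notMem_empty z)
        rintro ⟨⟨h3, h4⟩, _⟩
        exact hx ⟨by linarith, by linarith⟩
      rw [this, measure_empty]
  rw [h1]
  simp_rw [h2]
  rw [lintegral_indicator measurableSet_Icc]
  rw [← ofReal_integral_eq_lintegral_ofReal]
  · congr 1
    rw [integral_Icc_eq_integral_Ioc, ← intervalIntegral.integral_of_le (by linarith)]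
    rw [intervalIntegral.integral_const_mul]
    rw [intervalIntegral.integral_add (by simp) (by simp)]
    rw [integral_id]
    simp
    ring
  · exact (by fun_prop : Continuous fun x : ℝ => h * (1 + x)).integrableOn_Icc
  · refine (ae_restrict_iff' measurableSet_Icc).2 (Filter.Eventually.of_forall ?_)
    intro x hx
    have : 0 ≤ 1 + x := by linarith [hx.1]
    exact mul_nonneg hh this

/-- A planar rectangle. -/
def rect (a b c d : ℝ) : Set (ℝ × ℝ) := Icc a b ×ˢ Icc c d

theorem measurableSet_rect (a b c d : ℝ) : MeasurableSet (rect a b c d) :=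
  measurableSet_Icc.prod measurableSet_Icc

theorem volume_rect (a b c d : ℝ) (hab : a ≤ b) :
    volume (rect a b c d) = ENNReal.ofReal ((b - a) * (d - c)) := by
  unfold rect
  rw [Measure.volume_eq_prod, Measure.prod_prod, Real.volume_Icc, Real.volume_Icc,
    ENNReal.ofReal_mul (by linarith)]

end Half

end P243
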