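import Mathlib

namespace P243

namespace Half

theorem exists_sign_change (g : ℕ → ℝ) (n : ℕ) (hpos : 0 < n) (h0 : 0 ≤ g 0) (hn : g n ≤ 0) :
    ∃ i < n, 0 ≤ g i ∧ g (i + 1) ≤ 0 := by
  by_contra hcon
  push Not at hcon
  have key : ∀ i ≤ n, 0 ≤ g i := by
    intro i
    induction i with
    | zero => intro _; exact h0
    | succ k ih =>
      intro hk
      exact (hcon k (by omega) (ih (by omega))).le
  obtain ⟨k, rfl⟩ : ∃ k, n = k + 1 := ⟨n - 1, by omega⟩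
  exact absurd hn (not_le.2 (hcon k (by omega) (key k (by omega))))

theorem abs_mul_le_mul {a b A B : ℝ} (ha : |a| ≤ A) (hb : |b| ≤ B) : |a * b| ≤ A * B := by
  rw [abs_mul]
  exact mul_le_mul ha hb (abs_nonneg _) ((abs_nonneg _).trans ha)

theorem abs_pow_le_pow {a A : ℝ} (n : ℕ) (ha : |a| ≤ A) : |a ^ n| ≤ A ^ n := by
  rw [abs_pow]
  exact pow_le_pow_left₀ (abs_nonneg _) ha n

/-- The function `w` of the fan. -/
noncomputable def wf (e u : ℝ) : ℝ := 3 * e * (1 - u ^ 2) + 12 * e ^ 2 * (1 - u ^ 4)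

/-- Truncation height. -/
noncomputable def Yf (e u : ℝ) : ℝ := 1 - 6 * e * (1 - u ^ 2) - e ^ 2 * (48 * u ^ 2 - 66 * u ^ 4)

noncomputable def Rf (e u : ℝ) : ℝ := 6 * e * u + 48 * e ^ 2 * u ^ 3

noncomputable def Qf (e u : ℝ) : ℝ := 3 * e * (1 + u ^ 2) + 12 * e ^ 2 + 36 * e ^ 2 * u ^ 4

/-- Discrete slope. -/
noncomputable def Rd (e u h : ℝ) : ℝ :=
  3 * e * (2 * u + h) + 12 * e ^ 2 * (4 * u ^ 3 + 6 * u ^ 2 * h + 4 * u * h ^ 2 + h ^ 3)

noncomputable def Qd (e u h : ℝ) : ℝ := wf e u + u * Rd e u h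

noncomputable def F2 (p q : ℝ) : ℝ :=
  21 * (p ^ 2 - q ^ 2) - 3 / 2 * (p + q) ^ 2 + (p + q) ^ 3 * (15 * q - 3 * p) / 2

noncomputable def Ff (e p q : ℝ) : ℝ :=
  6 * e * (1 - q ^ 2 - p * q) + e ^ 2 * F2 p q + 20000 * e ^ 3

/-- The half thickness of the inner slabs, as a function of `ξ = √2 X`. -/
noncomputable def ef (e u : ℝ) : ℝ :=
  6 * e * (1 - u ^ 2) + e ^ 2 * (-3 * u ^ 2 + 12 * u ^ 4) + 20000 * e ^ 3

/-- `√2` times the slope of the inner slabs, as a function of `ξ = √2 X`. -/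
noncomputable def mf (e u : ℝ) : ℝ := 12 * e * u + e ^ 2 * (84 * u - 36 * u ^ 3)

theorem wf_sub (e u h : ℝ) : wf e (u + h) = wf e u - h * Rd e u h := by
  unfold wf Rd; ring

/-- The divided difference of `F2 p` in the second variable. -/
noncomputable def DD (p u v : ℝ) : ℝ :=
  -21 * (u + v) - 3 / 2 * ((p + u) + (p + v))
    + 15 / 2 * ((p + u) ^ 3 + (p + u) ^ 2 * (p + v) + (p + u) * (p + v) ^ 2 + (p + v) ^ 3)
    - 9 * p * ((p + u) ^ 2 + (p + u) * (p + v) + (p + v) ^ 2)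

theorem F2_sub (p u v : ℝ) : F2 p v - F2 p u = (v - u) * DD p u v := by
  unfold F2 DD; ring

theorem Ff_sub (e p u v : ℝ) :
    Ff e p v - Ff e p u = (v - u) * (-6 * e * (u + v + p) + e ^ 2 * DD p u v) := by
  have h := F2_sub p u v
  unfold Ff
  linear_combination e ^ 2 * h

theorem core_identity (e u p : ℝ) :
    Yf e u + p * Rf e u - 1 + Ff e p (u * Yf e u + p * Qf e u)
      = e ^ 2 * (3 / 2 * (p - u) ^ 2 * (1 - p ^ 2 + u ^ 2))
        + e ^ 3 * (20000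
          - 6 * (2 * u + p) * (-48 * u ^ 3 + 66 * u ^ 5 + 12 * p + 36 * p * u ^ 4)
          - 6 * ((-6 * u * (1 - u ^ 2) + 3 * p * (1 + u ^ 2))
              + e * (-48 * u ^ 3 + 66 * u ^ 5 + 12 * p + 36 * p * u ^ 4)) ^ 2
          + ((-6 * u * (1 - u ^ 2) + 3 * p * (1 + u ^ 2))
              + e * (-48 * u ^ 3 + 66 * u ^ 5 + 12 * p + 36 * p * u ^ 4))
            * DD p u (u * Yf e u + p * Qf e u)) := by
  set r := (-6 * u * (1 - u ^ 2) + 3 * p * (1 + u ^ 2))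
              + e * (-48 * u ^ 3 + 66 * u ^ 5 + 12 * p + 36 * p * u ^ 4) with hr
  have hv : u * Yf e u + p * Qf e u = u + e * r := by
    rw [hr]; unfold Yf Qf; ring
  have hF := Ff_sub e p u (u * Yf e u + p * Qf e u)
  rw [hv] at hF ⊢
  have h0 : Ff e p (u + e * r) = Ff e p u
      + (u + e * r - u) * (-6 * e * (u + (u + e * r) + p) + e ^ 2 * DD p u (u + e * r)) := by
    linarith
  rw [h0]
  generalize DD p u (u + e * r) = D
  have h1 : Yf e u + p * Rf e u - 1 + Ff e p u + e * ((r - e * (-48 * u ^ 3 + 66 * u ^ 5 + 12 * p + 36 * p * u ^ 4)) * (-6 * e * (2 * u + p)))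
      = e ^ 2 * (3 / 2 * (p - u) ^ 2 * (1 - p ^ 2 + u ^ 2)) + 20000 * e ^ 3 := by
    rw [hr]; unfold Yf Rf Ff F2; ring
  linear_combination h1

theorem DD_bound {p u v : ℝ} (hp : |p| ≤ 2) (hu : |u| ≤ 2) (hv : |v| ≤ 2) :
    |DD p u v| ≤ 3000 := by
  have hs : |p + u| ≤ 4 := (abs_add_le _ _).trans (by linarith)
  have ht : |p + v| ≤ 4 := (abs_add_le _ _).trans (by linarith)
  unfold DD
  generalize p + u = s at *
  generalize p + v = t at *
  have h1 := abs_le.1 (abs_pow_le_pow 3 hs)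
  have h2 := abs_le.1 (abs_mul_le_mul (abs_pow_le_pow 2 hs) ht)
  have h3 := abs_le.1 (abs_mul_le_mul hs (abs_pow_le_pow 2 ht))
  have h4 := abs_le.1 (abs_pow_le_pow 3 ht)
  have h5 : |s ^ 2 + s * t + t ^ 2| ≤ 48 := by
    have h51 := abs_le.1 (abs_pow_le_pow 2 hs)
    have h52 := abs_le.1 (abs_mul_le_mul hs ht)
    have h53 := abs_le.1 (abs_pow_le_pow 2 ht)
    rw [abs_le]; constructor <;> nlinarith [h51.1, h51.2, h52.1, h52.2, h53.1, h53.2]
  have h6 := abs_le.1 (abs_mul_le_mul hp h5)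
  have h7 := abs_le.1 hs
  have h8 := abs_le.1 ht
  have h9 := abs_le.1 hu
  have h10 := abs_le.1 hv
  rw [abs_le]
  constructor <;> linarith [h1.1, h1.2, h2.1, h2.2, h3.1, h3.2, h4.1, h4.2, h6.1, h6.2, h7.1, h7.2,
    h8.1, h8.2, h9.1, h9.2, h10.1, h10.2]

theorem DD_bound' {p u v : ℝ} (hp : |p| ≤ 11 / 10) (hu : |u| ≤ 1) (hv : |v| ≤ 11 / 10) :
    |DD p u v| ≤ 600 := by
  have hs : |p + u| ≤ 11 / 5 := (abs_add_le _ _).trans (by linarith)
  have ht : |p + v| ≤ 11 / 5 := (abs_add_le _ _).trans (by linarith)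
  unfold DD
  generalize p + u = s at *
  generalize p + v = t at *
  have h1 := abs_le.1 (abs_pow_le_pow 3 hs)
  have h2 := abs_le.1 (abs_mul_le_mul (abs_pow_le_pow 2 hs) ht)
  have h3 := abs_le.1 (abs_mul_le_mul hs (abs_pow_le_pow 2 ht))
  have h4 := abs_le.1 (abs_pow_le_pow 3 ht)
  have h5 : |s ^ 2 + s * t + t ^ 2| ≤ 3 * (11 / 5) ^ 2 := by
    have h51 := abs_le.1 (abs_pow_le_pow 2 hs)
    have h52 := abs_le.1 (abs_mul_le_mul hs ht)
    have h53 := abs_le.1 (abs_pow_le_pow 2 ht)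
    rw [abs_le]; constructor <;> nlinarith [h51.1, h51.2, h52.1, h52.2, h53.1, h53.2]
  have h6 := abs_le.1 (abs_mul_le_mul hp h5)
  have h7 := abs_le.1 hs
  have h8 := abs_le.1 ht
  have h9 := abs_le.1 hu
  have h10 := abs_le.1 hv
  rw [abs_le]
  constructor <;> nlinarith [h1.1, h1.2, h2.1, h2.2, h3.1, h3.2, h4.1, h4.2, h6.1, h6.2, h7.1, h7.2,
    h8.1, h8.2, h9.1, h9.2, h10.1, h10.2]

theorem q2_bound {p u : ℝ} (hp : |p| ≤ 11 / 10) (hu : |u| ≤ 1) :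
    |-48 * u ^ 3 + 66 * u ^ 5 + 12 * p + 36 * p * u ^ 4| ≤ 170 := by
  have h3 := abs_le.1 (abs_pow_le_pow 3 hu)
  have h5 := abs_le.1 (abs_pow_le_pow 5 hu)
  have h4 := abs_le.1 (abs_mul_le_mul hp (abs_pow_le_pow 4 hu))
  have hp' := abs_le.1 hp
  rw [abs_le]
  constructor <;> linarith [h3.1, h3.2, h5.1, h5.2, h4.1, h4.2, hp'.1, hp'.2]

theorem q1_bound {p u : ℝ} (hp : |p| ≤ 11 / 10) (hu : |u| ≤ 1) :
    |-6 * u * (1 - u ^ 2) + 3 * p * (1 + u ^ 2)| ≤ 19 := by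
  have h3 := abs_le.1 (abs_pow_le_pow 3 hu)
  have h1 := abs_le.1 hu
  have h4 := abs_le.1 (abs_mul_le_mul hp (abs_pow_le_pow 2 hu))
  have hp' := abs_le.1 hp
  rw [abs_le]
  constructor <;> nlinarith [h3.1, h3.2, h1.1, h1.2, h4.1, h4.2, hp'.1, hp'.2]

/-- The continuous core inequality. -/
theorem core {e u p : ℝ} (he : 0 < e) (he' : e ≤ 1 / 100000) (hu : |u| ≤ 1)
    (hp : p ^ 2 ≤ 1 + 43 * e) :
    1000 * e ^ 3 ≤ Yf e u + p * Rf e u - 1 + Ff e p (u * Yf e u + p * Qf e u) := by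
  have hp1 : |p| ≤ 11 / 10 := by
    apply abs_le_of_sq_le_sq' _ (by norm_num) |> abs_le.2
    nlinarith
  rw [core_identity]
  have hq2 := q2_bound hp1 hu
  have hq1 := q1_bound hp1 hu
  have hv : u * Yf e u + p * Qf e u = u + e * ((-6 * u * (1 - u ^ 2) + 3 * p * (1 + u ^ 2))
              + e * (-48 * u ^ 3 + 66 * u ^ 5 + 12 * p + 36 * p * u ^ 4)) := by
    unfold Yf Qf; ring
  have hr : |(-6 * u * (1 - u ^ 2) + 3 * p * (1 + u ^ 2))
              + e * (-48 * u ^ 3 + 66 * u ^ 5 + 12 * p + 36 * p * u ^ 4)| ≤ 20 := by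
    have h1 : |e * (-48 * u ^ 3 + 66 * u ^ 5 + 12 * p + 36 * p * u ^ 4)| ≤ 1 / 100000 * 170 :=
      abs_mul_le_mul (by rw [abs_of_pos he]; exact he') hq2
    exact (abs_add_le _ _).trans (by linarith)
  have hv' : |u * Yf e u + p * Qf e u| ≤ 11 / 10 := by
    rw [hv]
    have h1 := abs_mul_le_mul (show |e| ≤ 1 / 100000 by rw [abs_of_pos he]; exact he') hr
    exact (abs_add_le _ _).trans (by linarith)
  have hD := DD_bound' hp1 hu hv'
  generalize DD p u (u * Yf e u + p * Qf e u) = D at *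
  generalize (-6 * u * (1 - u ^ 2) + 3 * p * (1 + u ^ 2))
              + e * (-48 * u ^ 3 + 66 * u ^ 5 + 12 * p + 36 * p * u ^ 4) = r at *
  generalize -48 * u ^ 3 + 66 * u ^ 5 + 12 * p + 36 * p * u ^ 4 = q2 at *
  have h2up : |2 * u + p| ≤ 31 / 10 := by
    have := abs_le.1 hu
    have := abs_le.1 hp1
    rw [abs_le]; constructor <;> linarith [this.1, this.2]
  have t1 := abs_le.1 (abs_mul_le_mul h2up hq2)
  have t2 := abs_le.1 (abs_pow_le_pow 2 hr)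
  have t3 := abs_le.1 (abs_mul_le_mul hr hD)
  have hpu : (p - u) ^ 2 ≤ 5 := by
    have h1 := abs_le.1 hu
    have h2 := abs_le.1 hp1
    nlinarith [h1.1, h1.2, h2.1, h2.2]
  have hfirst : -(330 * e) ≤ 3 / 2 * (p - u) ^ 2 * (1 - p ^ 2 + u ^ 2) := by
    have h1 : -(43 * e) ≤ 1 - p ^ 2 + u ^ 2 := by nlinarith [sq_nonneg u]
    nlinarith [mul_nonneg (sq_nonneg (p - u)) (by linarith : (0:ℝ) ≤ 1 - p ^ 2 + u ^ 2 + 43 * e)]
  have hbr : 1400 ≤ 20000 - 6 * (2 * u + p) * q2 - 6 * r ^ 2 + r * D := by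
    nlinarith [t1.1, t1.2, t2.1, t2.2, t3.1, t3.2]
  have he2 : 0 < e ^ 2 := by positivity
  have he3 : 0 < e ^ 3 := by positivity
  have h1 := mul_le_mul_of_nonneg_left hfirst he2.le
  have h2 := mul_le_mul_of_nonneg_left hbr he3.le
  nlinarith

theorem Qf_eq (e u : ℝ) : Qf e u = wf e u + u * Rf e u := by
  unfold Qf wf Rf; ring

theorem Rd_sub_bound {e u₀ u h : ℝ} (he : 0 < e) (he' : e ≤ 1 / 100000) (hh : 0 < h)
    (hh1 : h ≤ 1) (hu₀ : |u₀| ≤ 1) (hu : |u| ≤ 1) (h1 : u₀ ≤ u) (h2 : u ≤ u₀ + h) :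
    |Rd e u₀ h - Rf e u| ≤ h / 10 := by
  have key : Rd e u₀ h - Rf e u = 3 * e * (h - 2 * (u - u₀))
      + e ^ 2 * (-(48 * ((u - u₀) * (u ^ 2 + u * u₀ + u₀ ^ 2)))
        + h * (12 * (6 * u₀ ^ 2 + 4 * u₀ * h + h ^ 2))) := by
    unfold Rd Rf; ring
  have b1 : |h - 2 * (u - u₀)| ≤ h := by rw [abs_le]; constructor <;> linarith
  have b2 : |u - u₀| ≤ h := by rw [abs_le]; constructor <;> linarith
  have b3 : |u ^ 2 + u * u₀ + u₀ ^ 2| ≤ 3 := by
    have := abs_le.1 (abs_mul_le_mul hu hu₀)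
    have := abs_le.1 (abs_pow_le_pow 2 hu)
    have := abs_le.1 (abs_pow_le_pow 2 hu₀)
    rw [abs_le]; constructor <;> linarith
  have b4 : |48 * ((u - u₀) * (u ^ 2 + u * u₀ + u₀ ^ 2))| ≤ 48 * (h * 3) := by
    rw [abs_mul, abs_of_pos (by norm_num : (0:ℝ) < 48)]
    exact mul_le_mul_of_nonneg_left (abs_mul_le_mul b2 b3) (by norm_num)
  have b5 : |h * (12 * (6 * u₀ ^ 2 + 4 * u₀ * h + h ^ 2))| ≤ h * 132 := by
    apply abs_mul_le_mul (by rw [abs_of_pos hh])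
    have c1 := abs_le.1 (abs_pow_le_pow 2 hu₀)
    have c2 := abs_le.1 (abs_mul_le_mul hu₀ (show |h| ≤ 1 by rw [abs_of_pos hh]; exact hh1))
    have c3 : h ^ 2 ≤ 1 := by nlinarith
    rw [abs_le]; constructor <;> nlinarith [c1.1, c1.2, c2.1, c2.2]
  rw [key]
  have b6 : |-(48 * ((u - u₀) * (u ^ 2 + u * u₀ + u₀ ^ 2)))
        + h * (12 * (6 * u₀ ^ 2 + 4 * u₀ * h + h ^ 2))| ≤ 276 * h := by
    refine (abs_add_le _ _).trans ?_
    rw [abs_neg]; linarith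
  have b7 : |3 * e * (h - 2 * (u - u₀))| ≤ 3 * e * h :=
    abs_mul_le_mul (by rw [abs_of_pos (by positivity)]) b1
  have b8 : |e ^ 2 * (-(48 * ((u - u₀) * (u ^ 2 + u * u₀ + u₀ ^ 2)))
        + h * (12 * (6 * u₀ ^ 2 + 4 * u₀ * h + h ^ 2)))| ≤ e ^ 2 * (276 * h) :=
    abs_mul_le_mul (by rw [abs_of_pos (by positivity)]) b6
  refine (abs_add_le _ _).trans ?_
  have : e ^ 2 ≤ 1 / 100000 * e := by nlinarith
  nlinarith

theorem Rf_bound {e u : ℝ} (he : 0 < e) (he' : e ≤ 1 / 100000) (hu : |u| ≤ 1) :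
    |Rf e u| ≤ 61 / 10 * e := by
  have key : Rf e u = e * (6 * u + e * (48 * u ^ 3)) := by unfold Rf; ring
  rw [key, abs_mul, abs_of_pos he, mul_comm (61 / 10) e]
  apply mul_le_mul_of_nonneg_left _ he.le
  have c1 : |e * (48 * u ^ 3)| ≤ 1 / 100000 * 48 := by
    apply abs_mul_le_mul (by rw [abs_of_pos he]; exact he')
    have := abs_le.1 (abs_pow_le_pow 3 hu)
    rw [abs_le]; constructor <;> linarith [this.1, this.2]
  have c2 := abs_le.1 hu
  have c3 := abs_le.1 c1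
  rw [abs_le]; constructor <;> linarith [c2.1, c2.2, c3.1, c3.2]

theorem wf_sub_bound {e u₀ u h : ℝ} (he : 0 < e) (he' : e ≤ 1 / 100000)
    (hu₀ : |u₀| ≤ 1) (hu : |u| ≤ 1) (h1 : u₀ ≤ u) (h2 : u ≤ u₀ + h) :
    |wf e u₀ - wf e u| ≤ h / 10 := by
  have hh : 0 ≤ h := by linarith
  have key : wf e u₀ - wf e u = (u - u₀) * (e * (3 * (u + u₀) + e * (12 * ((u + u₀) * (u ^ 2 + u₀ ^ 2))))) := by
    unfold wf; ring
  rw [key]
  have b2 : |u - u₀| ≤ h := by rw [abs_le]; constructor <;> linarith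
  have b3 : |u + u₀| ≤ 2 := (abs_add_le _ _).trans (by linarith)
  have b4 : |u ^ 2 + u₀ ^ 2| ≤ 2 := by
    have := abs_le.1 (abs_pow_le_pow 2 hu)
    have := abs_le.1 (abs_pow_le_pow 2 hu₀)
    rw [abs_le]; constructor <;> linarith
  have b5 : |e * (12 * ((u + u₀) * (u ^ 2 + u₀ ^ 2)))| ≤ 1 / 100000 * (12 * (2 * 2)) := by
    apply abs_mul_le_mul (by rw [abs_of_pos he]; exact he')
    rw [abs_mul, abs_of_pos (by norm_num : (0:ℝ) < 12)]
    exact mul_le_mul_of_nonneg_left (abs_mul_le_mul b3 b4) (by norm_num)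
  have b6 : |3 * (u + u₀) + e * (12 * ((u + u₀) * (u ^ 2 + u₀ ^ 2)))| ≤ 7 := by
    have c1 := abs_le.1 b3
    have c2 := abs_le.1 b5
    rw [abs_le]; constructor <;> linarith [c1.1, c1.2, c2.1, c2.2]
  have b7 := abs_mul_le_mul b2 (abs_mul_le_mul (show |e| ≤ 1 / 100000 by
    rw [abs_of_pos he]; exact he') b6)
  linarith

theorem Yf_sub_bound {e u₀ u h : ℝ} (he : 0 < e) (he' : e ≤ 1 / 100000)
    (hu₀ : |u₀| ≤ 1) (hu : |u| ≤ 1) (h1 : u₀ ≤ u) (h2 : u ≤ u₀ + h) :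
    |Yf e u₀ - Yf e u| ≤ h / 10 := by
  have key : Yf e u₀ - Yf e u = (u - u₀) * (e * (-6 * (u + u₀)
      + e * ((u + u₀) * (48 - 66 * (u ^ 2 + u₀ ^ 2))))) := by
    unfold Yf; ring
  rw [key]
  have b2 : |u - u₀| ≤ h := by rw [abs_le]; constructor <;> linarith
  have b3 : |u + u₀| ≤ 2 := (abs_add_le _ _).trans (by linarith)
  have b4 : |48 - 66 * (u ^ 2 + u₀ ^ 2)| ≤ 180 := by
    have := abs_le.1 (abs_pow_le_pow 2 hu)
    have := abs_le.1 (abs_pow_le_pow 2 hu₀)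
    rw [abs_le]; constructor <;> linarith
  have b5 : |e * ((u + u₀) * (48 - 66 * (u ^ 2 + u₀ ^ 2)))| ≤ 1 / 100000 * (2 * 180) :=
    abs_mul_le_mul (by rw [abs_of_pos he]; exact he') (abs_mul_le_mul b3 b4)
  have b6 : |-6 * (u + u₀) + e * ((u + u₀) * (48 - 66 * (u ^ 2 + u₀ ^ 2)))| ≤ 13 := by
    have c1 := abs_le.1 b3
    have c2 := abs_le.1 b5
    rw [abs_le]; constructor <;> linarith [c1.1, c1.2, c2.1, c2.2]
  have b7 := abs_mul_le_mul b2 (abs_mul_le_mul (show |e| ≤ 1 / 100000 by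
    rw [abs_of_pos he]; exact he') b6)
  linarith

theorem Qd_sub_bound {e u₀ u h : ℝ} (he : 0 < e) (he' : e ≤ 1 / 100000) (hh : 0 < h)
    (hh1 : h ≤ 1) (hu₀ : |u₀| ≤ 1) (hu : |u| ≤ 1) (h1 : u₀ ≤ u) (h2 : u ≤ u₀ + h) :
    |Qd e u₀ h - Qf e u| ≤ h := by
  have key : Qd e u₀ h - Qf e u = (wf e u₀ - wf e u) + u₀ * (Rd e u₀ h - Rf e u)
      + (u₀ - u) * Rf e u := by
    rw [Qf_eq]; unfold Qd; ring
  have b1 := wf_sub_bound he he' hu₀ hu h1 h2
  have b2 := abs_mul_le_mul hu₀ (Rd_sub_bound he he' hh hh1 hu₀ hu h1 h2)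
  have b3 : |(u₀ - u) * Rf e u| ≤ h * (61 / 10 * e) :=
    abs_mul_le_mul (by rw [abs_le]; constructor <;> linarith) (Rf_bound he he' hu)
  rw [key]
  refine (abs_add_le _ _).trans ?_
  have b4 := abs_add_le (wf e u₀ - wf e u) (u₀ * (Rd e u₀ h - Rf e u))
  nlinarith

theorem Yf_lower {e u : ℝ} (he : 0 < e) (he' : e ≤ 1 / 100000) (hu : |u| ≤ 1) :
    1 - 61 / 10 * e ≤ Yf e u := by
  have h1 := abs_le.1 (abs_pow_le_pow 2 hu)
  have h2 := abs_le.1 (abs_pow_le_pow 4 hu)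
  have h3 : 48 * u ^ 2 - 66 * u ^ 4 ≤ 48 := by nlinarith [sq_nonneg (u ^ 2)]
  have h4 : (0:ℝ) ≤ u ^ 2 := sq_nonneg u
  unfold Yf
  nlinarith [mul_le_mul_of_nonneg_left h3 (sq_nonneg e), mul_nonneg he.le h4]

/-- Points of the tetrahedron which lie in the untruncated wedge `u₀` but above the truncation
level are below the surface `Z = F`. -/
theorem fan_region {e h p q y u₀ : ℝ} (he : 0 < e) (he' : e ≤ 1 / 100000) (hh : 0 < h)
    (hh1 : h ≤ e ^ 3) (hq : |q| ≤ y) (hp : |p| ≤ 2 - y) (hu₀ : -1 ≤ u₀) (hu₀' : u₀ + h ≤ 1)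
    (hs1 : u₀ * (y - p * Rd e u₀ h) ≤ q - p * Qd e u₀ h)
    (hs2 : q - p * Qd e u₀ h ≤ (u₀ + h) * (y - p * Rd e u₀ h))
    (ht : Yf e u₀ < y - p * Rd e u₀ h) :
    1 - y < Ff e p q := by
  have he2 : e ^ 2 ≤ 1 / 100000 * e := by nlinarith
  have he32 : e ^ 3 ≤ 1 / 100000 * e := by
    have : e ^ 3 = e * e ^ 2 := by ring
    nlinarith [sq_nonneg e]
  have he3 : e ^ 3 ≤ 1 / 100000 := by linarith
  have hhle : h ≤ 1 := by linarith
  have habs₀ : |u₀| ≤ 1 := abs_le.2 ⟨hu₀, by linarith⟩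
  have hY₀ := Yf_lower he he' habs₀
  set t := y - p * Rd e u₀ h with htdef
  have ht0 : 0 < t := by nlinarith
  set u := (q - p * Qd e u₀ h) / t with hudef
  have hut : u * t = q - p * Qd e u₀ h := by rw [hudef]; field_simp
  have hu1 : u₀ ≤ u := by rw [hudef, le_div_iff₀ ht0]; exact hs1
  have hu2 : u ≤ u₀ + h := by rw [hudef, div_le_iff₀ ht0]; exact hs2
  have habs : |u| ≤ 1 := abs_le.2 ⟨by linarith, by linarith⟩
  have hρ := Rd_sub_bound he he' hh hhle habs₀ habs hu1 hu2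
  have hσ := Qd_sub_bound he he' hh hhle habs₀ habs hu1 hu2
  have hYd := Yf_sub_bound he he' habs₀ habs hu1 hu2
  have hRf := Rf_bound he he' habs
  set ρ := Rd e u₀ h - Rf e u with hρdef
  set σ := Qd e u₀ h - Qf e u with hσdef
  have hy2 : y ≤ 2 := by have := abs_nonneg p; linarith
  have hy0 : 0 ≤ y := by have := abs_nonneg q; linarith
  have hq2 : |q| ≤ 2 := by linarith
  have hp2 : |p| ≤ 2 := by linarith
  -- lower bound for y
  have hyt : y = t + p * (Rf e u + ρ) := by rw [htdef, hρdef]; ring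
  have hRd : |Rf e u + ρ| ≤ 7 * e := by
    refine (abs_add_le _ _).trans ?_
    linarith
  have hpR := abs_le.1 (abs_mul_le_mul hp2 hRd)
  have hy1 : 1 - 21 * e ≤ y := by
    have : t ≤ y + 14 * e := by linarith [hpR.1]
    linarith
  have hp1 : |p| ≤ 1 + 21 * e := by linarith
  have hpsq : p ^ 2 ≤ 1 + 43 * e := by
    have h1 : p ^ 2 ≤ (1 + 21 * e) ^ 2 := by
      rw [← sq_abs p]; exact pow_le_pow_left₀ (abs_nonneg _) hp1 2
    nlinarith
  have hcore := core he he' habs hpsq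
  set qs := u * Yf e u + p * Qf e u with hqs
  set τ := t - Yf e u with hτ
  have hqq : q - qs = u * τ + p * σ := by
    have : q = u * t + p * Qd e u₀ h := by linarith
    rw [hqs, hτ, hσdef, this]; ring
  have hyy : y = Yf e u + p * Rf e u + τ + p * ρ := by
    rw [hyt, hτ]; ring
  have hτ1 : -h / 10 ≤ τ := by
    have := (abs_le.1 hYd).1
    rw [hτ]; linarith
  have hFs := Ff_sub e p qs q
  have hqs2 : |qs| ≤ 2 := by
    have hp1' : |p| ≤ 11 / 10 := by linarith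
    have h1 := q1_bound hp1' habs
    have h2 := q2_bound hp1' habs
    have hv : qs = u + e * ((-6 * u * (1 - u ^ 2) + 3 * p * (1 + u ^ 2))
              + e * (-48 * u ^ 3 + 66 * u ^ 5 + 12 * p + 36 * p * u ^ 4)) := by
      rw [hqs]; unfold Yf Qf; ring
    have heabs : |e| ≤ 1 / 100000 := by rw [abs_of_pos he]; exact he'
    have h3 := abs_mul_le_mul heabs h2
    have h4 := abs_add_le (-6 * u * (1 - u ^ 2) + 3 * p * (1 + u ^ 2))
      (e * (-48 * u ^ 3 + 66 * u ^ 5 + 12 * p + 36 * p * u ^ 4))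
    have h5 : |(-6 * u * (1 - u ^ 2) + 3 * p * (1 + u ^ 2))
              + e * (-48 * u ^ 3 + 66 * u ^ 5 + 12 * p + 36 * p * u ^ 4)| ≤ 20 := by linarith
    have h6 := abs_mul_le_mul heabs h5
    rw [hv]
    exact (abs_add_le _ _).trans (by linarith)
  have hDD := DD_bound hp2 hqs2 hq2
  have hfac : |-6 * e * (qs + q + p) + e ^ 2 * DD p qs q| ≤ 40 * e := by
    have h1 : |qs + q + p| ≤ 6 := (abs_add_le _ _).trans (by
      have := abs_add_le qs q; linarith)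
    have h2 : |-6 * e * (qs + q + p)| ≤ 6 * e * 6 := by
      apply abs_mul_le_mul _ h1
      rw [abs_mul, abs_of_pos he]; norm_num
    have h3 : |e ^ 2 * DD p qs q| ≤ e ^ 2 * 3000 :=
      abs_mul_le_mul (by rw [abs_of_pos (by positivity)]) hDD
    refine (abs_add_le _ _).trans ?_
    linarith
  have hdiff : |q - qs| ≤ |τ| + 2 * h := by
    rw [hqq]
    refine (abs_add_le _ _).trans ?_
    have h1 : |u * τ| ≤ 1 * |τ| := abs_mul_le_mul habs le_rfl
    have h2 := abs_mul_le_mul hp2 hσ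
    linarith
  have hprod := (abs_le.1 (abs_mul_le_mul hdiff hfac)).1
  have hpρ := (abs_le.1 (abs_mul_le_mul hp2 hρ)).1
  have hgoal : 0 < y - 1 + Ff e p q := by
    have h1 : y - 1 + Ff e p q = (Yf e u + p * Rf e u - 1 + Ff e p qs) + τ + p * ρ
        + (q - qs) * (-6 * e * (qs + q + p) + e ^ 2 * DD p qs q) := by
      rw [← hFs, hyy]; ring
    have h2 : -(h / 5) ≤ τ - |τ| * (40 * e) := by
      rcases le_or_gt 0 τ with h0 | h0
      · rw [abs_of_nonneg h0]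
        have : 0 ≤ τ * (1 - 40 * e) := mul_nonneg h0 (by linarith)
        linarith
      · rw [abs_of_neg h0]
        have h6 : -τ * (40 * e) ≤ -τ * 1 :=
          mul_le_mul_of_nonneg_left (by linarith) (by linarith)
        linarith
    have h3 : h * (2 * (40 * e)) ≤ h * 1 :=
      mul_le_mul_of_nonneg_left (by linarith) hh.le
    rw [h1]
    clear_value ρ σ τ qs u t
    generalize (q - qs) * (-6 * e * (qs + q + p) + e ^ 2 * DD p qs q) = G at *
    have h4 : (|τ| + 2 * h) * (40 * e) = |τ| * (40 * e) + h * (2 * (40 * e)) := by ring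
    rw [h4] at hprod
    have h5 := pow_pos he 3
    linarith
  linarith

end Half

end P243
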