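import Vale.Agent.P243.HalfCore

namespace P243

namespace Half

theorem inv_sqrt_bound {s : ℝ} (hs : 0 ≤ s) :
    1 / √(1 + s) ≤ 1 - s / 2 + 3 * s ^ 2 / 8 := by
  have h1 : 0 < √(1 + s) := Real.sqrt_pos.2 (by linarith)
  have h2 : 0 < 1 - s / 2 + 3 * s ^ 2 / 8 := by nlinarith [sq_nonneg (s - 2 / 3)]
  rw [div_le_iff₀ h1]
  have h3 : 1 ≤ (1 + s) * (1 - s / 2 + 3 * s ^ 2 / 8) ^ 2 := by
    have : (1 + s) * (1 - s / 2 + 3 * s ^ 2 / 8) ^ 2 - 1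
        = s ^ 3 * (5 / 8 - 15 / 64 * s + 9 / 64 * s ^ 2) := by ring
    have h4 : 0 ≤ 5 / 8 - 15 / 64 * s + 9 / 64 * s ^ 2 := by nlinarith [sq_nonneg (s - 5 / 6)]
    have h5 : 0 ≤ s ^ 3 * (5 / 8 - 15 / 64 * s + 9 / 64 * s ^ 2) :=
      mul_nonneg (pow_nonneg hs 3) h4
    linarith
  have h6 : ((1 - s / 2 + 3 * s ^ 2 / 8) * √(1 + s)) ^ 2
      = (1 + s) * (1 - s / 2 + 3 * s ^ 2 / 8) ^ 2 := by
    rw [mul_pow, Real.sq_sqrt (by linarith)]; ring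
  have h7 : 0 ≤ (1 - s / 2 + 3 * s ^ 2 / 8) * √(1 + s) := by positivity
  nlinarith

theorem slope_sq_bounds {e u h : ℝ} (he : 0 < e) (he' : e ≤ 1 / 100000) (hh : 0 < h)
    (hh1 : h ≤ e ^ 3) (hu : |u| ≤ 1) :
    e ^ 2 * (9 * (1 + u ^ 2) ^ 2 + 72 * u ^ 2) - e ^ 3 ≤ (Qd e u h) ^ 2 + 2 * (Rd e u h) ^ 2 ∧
    (Qd e u h) ^ 2 + 2 * (Rd e u h) ^ 2 ≤ 120 * e ^ 2 := by
  have he2 : 0 < e ^ 2 := by positivity
  have he3 : 0 < e ^ 3 := by positivity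
  have he32 : e ^ 3 ≤ 1 / 100000 * e ^ 2 := by
    have : e ^ 3 = e * e ^ 2 := by ring
    rw [this]; exact mul_le_mul_of_nonneg_right he' he2.le
  have he21 : e ^ 2 ≤ 1 / 100000 * e := by nlinarith
  have hhe : h ≤ 1 / 100000 * e := by linarith
  have hh1' : h ≤ 1 := by linarith
  have hR := Rd_sub_bound he he' hh hh1' hu hu le_rfl (by linarith)
  have hQ := Qd_sub_bound he he' hh hh1' hu hu le_rfl (by linarith)
  have hRf := Rf_bound he he' hu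
  have hu2 := abs_le.1 (abs_pow_le_pow 2 hu)
  have hu4 := abs_le.1 (abs_pow_le_pow 4 hu)
  have hQf0 : 3 * e * (1 + u ^ 2) ≤ Qf e u := by
    unfold Qf
    have : 0 ≤ 12 * e ^ 2 + 36 * e ^ 2 * u ^ 4 := by positivity
    linarith
  have hQf1 : Qf e u ≤ 61 / 10 * e := by
    unfold Qf
    have h1 : 3 * e * (1 + u ^ 2) ≤ 3 * e * 2 :=
      mul_le_mul_of_nonneg_left (by linarith [hu2.2]) (by positivity)
    have h2 : 36 * e ^ 2 * u ^ 4 ≤ 36 * e ^ 2 * 1 :=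
      mul_le_mul_of_nonneg_left (by linarith [hu4.2]) (by positivity)
    linarith
  have hRf2 : 36 * e ^ 2 * u ^ 2 ≤ (Rf e u) ^ 2 := by
    have : (Rf e u) ^ 2 = 36 * e ^ 2 * u ^ 2 + (576 * e ^ 3 * u ^ 4 + (48 * e ^ 2 * u ^ 3) ^ 2) := by
      unfold Rf; ring
    rw [this]
    have : 0 ≤ 576 * e ^ 3 * u ^ 4 + (48 * e ^ 2 * u ^ 3) ^ 2 := by positivity
    linarith
  have hQf2 : (3 * e * (1 + u ^ 2)) ^ 2 ≤ (Qf e u) ^ 2 := by
    apply pow_le_pow_left₀ _ hQf0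
    have := sq_nonneg u
    positivity
  have hQf00 : 0 ≤ Qf e u := by
    have : 0 ≤ 3 * e * (1 + u ^ 2) := by
      have := sq_nonneg u
      positivity
    linarith
  have hQd : |Qd e u h| ≤ 62 / 10 * e := by
    have h1 : Qd e u h = Qf e u + (Qd e u h - Qf e u) := by ring
    rw [h1]
    refine (abs_add_le _ _).trans ?_
    rw [abs_of_nonneg hQf00]; linarith
  have hRd : |Rd e u h| ≤ 62 / 10 * e := by
    have h1 : Rd e u h = Rf e u + (Rd e u h - Rf e u) := by ring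
    rw [h1]
    exact (abs_add_le _ _).trans (by linarith)
  have b1 := abs_mul_le_mul (show |Qf e u| ≤ 61 / 10 * e by rwa [abs_of_nonneg hQf00]) hQ
  have b2 := abs_mul_le_mul hRf hR
  have b1' := abs_le.1 b1
  have b2' := abs_le.1 b2
  have heh : e * h ≤ 1 / 100000 * e ^ 3 :=
    mul_le_mul he' hh1 hh.le (by norm_num)
  constructor
  · have e1 : (Qd e u h) ^ 2 = (Qf e u) ^ 2 + 2 * (Qf e u * (Qd e u h - Qf e u))
        + (Qd e u h - Qf e u) ^ 2 := by ring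
    have e2 : (Rd e u h) ^ 2 = (Rf e u) ^ 2 + 2 * (Rf e u * (Rd e u h - Rf e u))
        + (Rd e u h - Rf e u) ^ 2 := by ring
    have e3 : e ^ 2 * (9 * (1 + u ^ 2) ^ 2 + 72 * u ^ 2)
        = (3 * e * (1 + u ^ 2)) ^ 2 + 2 * (36 * e ^ 2 * u ^ 2) := by ring
    rw [e1, e2, e3]
    linarith [sq_nonneg (Qd e u h - Qf e u), sq_nonneg (Rd e u h - Rf e u), b1'.1, b2'.1]
  · have c1 := abs_le.1 (abs_pow_le_pow 2 hQd)
    have c2 := abs_le.1 (abs_pow_le_pow 2 hRd)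
    have : (62 / 10 * e) ^ 2 = 3844 / 100 * e ^ 2 := by ring
    rw [this] at c1 c2
    linarith [c1.2, c2.2]

/-- One term of the cost. -/
theorem term_bound {e u h : ℝ} (he : 0 < e) (he' : e ≤ 1 / 100000) (hh : 0 < h)
    (hh1 : h ≤ e ^ 3) (hu : |u| ≤ 1) :
    (Yf e u) ^ 2 / √(1 + ((Qd e u h) ^ 2 + 2 * (Rd e u h) ^ 2)) + 2 * (ef e u + e ^ 3)
      ≤ 1 + e ^ 2 * (63 / 2 - 219 * u ^ 2 + 375 / 2 * u ^ 4) + 50000 * e ^ 3 := by
  obtain ⟨hs1, hs2⟩ := slope_sq_bounds he he' hh hh1 hu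
  have hs0 : 0 ≤ (Qd e u h) ^ 2 + 2 * (Rd e u h) ^ 2 := by positivity
  set s := (Qd e u h) ^ 2 + 2 * (Rd e u h) ^ 2 with hs
  have he2 : 0 < e ^ 2 := by positivity
  have he3 : 0 < e ^ 3 := by positivity
  have he32 : e ^ 3 ≤ 1 / 100000 * e ^ 2 := by
    have : e ^ 3 = e * e ^ 2 := by ring
    rw [this]; exact mul_le_mul_of_nonneg_right he' he2.le
  have he21 : e ^ 2 ≤ 1 / 100000 * e := by nlinarith
  have he43 : e ^ 4 ≤ 1 / 100000 * e ^ 3 := by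
    have : e ^ 4 = e * e ^ 3 := by ring
    rw [this]; exact mul_le_mul_of_nonneg_right he' he3.le
  have hu2 := abs_le.1 (abs_pow_le_pow 2 hu)
  have hu4 := abs_le.1 (abs_pow_le_pow 4 hu)
  set b := 48 * u ^ 2 - 66 * u ^ 4 with hb
  have hbabs : |b| ≤ 120 := by
    rw [hb, abs_le]; constructor <;> linarith [hu2.1, hu2.2, hu4.1, hu4.2]
  set a := 6 * e * (1 - u ^ 2) + e ^ 2 * b with ha
  have hY : Yf e u = 1 - a := by rw [ha, hb]; unfold Yf; ring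
  have hw0 : 0 ≤ 1 - u ^ 2 := by linarith [hu2.2]
  have hw1 : 1 - u ^ 2 ≤ 1 := by linarith [sq_nonneg u]
  have hwabs : |6 * e * (1 - u ^ 2)| ≤ 6 * e * 1 :=
    abs_mul_le_mul (by rw [abs_of_pos (by positivity)]) (by rw [abs_of_nonneg hw0]; exact hw1)
  have heb : |e ^ 2 * b| ≤ e ^ 2 * 120 :=
    abs_mul_le_mul (by rw [abs_of_pos he2]) hbabs
  have haabs : |a| ≤ 61 / 10 * e := by
    rw [ha]; exact (abs_add_le _ _).trans (by linarith)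
  have ha2 : a ^ 2 ≤ 36 * e ^ 2 * (1 - u ^ 2) ^ 2 + 2000 * e ^ 3 := by
    have h1 : a ^ 2 = 36 * e ^ 2 * (1 - u ^ 2) ^ 2 + 2 * (6 * e * (1 - u ^ 2) * (e ^ 2 * b))
        + (e ^ 2 * b) ^ 2 := by rw [ha]; ring
    have h2 := abs_le.1 (abs_mul_le_mul hwabs heb)
    have h3 := abs_le.1 (abs_pow_le_pow 2 heb)
    have h4 : 6 * e * 1 * (e ^ 2 * 120) = 720 * e ^ 3 := by ring
    have h5 : (e ^ 2 * 120) ^ 2 = 14400 * e ^ 4 := by ring
    rw [h4] at h2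
    rw [h5] at h3
    rw [h1]
    linarith [h2.2, h3.2]
  -- the product
  have hinv := inv_sqrt_bound hs0
  have hY2 : (Yf e u) ^ 2 = 1 - 2 * a + a ^ 2 := by rw [hY]; ring
  have hY20 : 0 ≤ (Yf e u) ^ 2 := sq_nonneg _
  have hprod : (Yf e u) ^ 2 / √(1 + s) ≤ (Yf e u) ^ 2 * (1 - s / 2 + 3 * s ^ 2 / 8) := by
    rw [div_eq_mul_one_div]
    exact mul_le_mul_of_nonneg_left hinv hY20
  have ha2' : a ^ 2 ≤ 1 * e := by
    have h1 := abs_le.1 (abs_pow_le_pow 2 haabs)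
    have h2 : (61 / 10 * e) ^ 2 = 3721 / 100 * e ^ 2 := by ring
    rw [h2] at h1
    linarith [h1.2]
  have hYabs : |1 - (Yf e u) ^ 2| ≤ 14 * e := by
    rw [hY2]
    have h1 := abs_le.1 haabs
    have h2 := sq_nonneg a
    rw [abs_le]; constructor <;> linarith [h1.1, h1.2]
  have hsabs : |s / 2| ≤ 60 * e ^ 2 := by
    rw [abs_of_nonneg (by linarith)]; linarith
  have h1 := abs_le.1 (abs_mul_le_mul hYabs hsabs)
  have hY2le : (Yf e u) ^ 2 ≤ 2 := by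
    have := abs_le.1 hYabs
    linarith [this.1]
  have hs2sq : s ^ 2 ≤ 14400 * e ^ 4 := by
    have := pow_le_pow_left₀ hs0 hs2 2
    have h3 : (120 * e ^ 2) ^ 2 = 14400 * e ^ 4 := by ring
    rwa [h3] at this
  have h2 : (Yf e u) ^ 2 * (3 * s ^ 2 / 8) ≤ 2 * (3 * (14400 * e ^ 4) / 8) := by
    apply mul_le_mul hY2le _ (by positivity) (by norm_num)
    linarith
  have h3 : (Yf e u) ^ 2 * (1 - s / 2 + 3 * s ^ 2 / 8)
      = (Yf e u) ^ 2 - s / 2 + (1 - (Yf e u) ^ 2) * (s / 2) + (Yf e u) ^ 2 * (3 * s ^ 2 / 8) := by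
    ring
  have h4 : 14 * e * (60 * e ^ 2) = 840 * e ^ 3 := by ring
  rw [h4] at h1
  have hfin : (Yf e u) ^ 2 / √(1 + s) ≤ 1 - 12 * e * (1 - u ^ 2) - 2 * e ^ 2 * b
      + 36 * e ^ 2 * (1 - u ^ 2) ^ 2
      - e ^ 2 * (9 * (1 + u ^ 2) ^ 2 + 72 * u ^ 2) / 2 + 3000 * e ^ 3 := by
    have h5 : (Yf e u) ^ 2 ≤ 1 - 12 * e * (1 - u ^ 2) - 2 * e ^ 2 * b
        + 36 * e ^ 2 * (1 - u ^ 2) ^ 2 + 2000 * e ^ 3 := by
      rw [hY2]
      have : 2 * a = 12 * e * (1 - u ^ 2) + 2 * e ^ 2 * b := by rw [ha]; ring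
      linarith
    linarith [h1.2]
  have h6 : 1 + e ^ 2 * (63 / 2 - 219 * u ^ 2 + 375 / 2 * u ^ 4) + 50000 * e ^ 3
      = (1 - 12 * e * (1 - u ^ 2) - 2 * e ^ 2 * b + 36 * e ^ 2 * (1 - u ^ 2) ^ 2
      - e ^ 2 * (9 * (1 + u ^ 2) ^ 2 + 72 * u ^ 2) / 2 + 3000 * e ^ 3)
      + 2 * (ef e u + e ^ 3) + 6998 * e ^ 3 := by
    rw [hb]; unfold ef; ring
  rw [h6]
  linarith

theorem riemann_bound {u h : ℝ} (hh : 0 < h) (hh1 : h ≤ 1) (hu : |u| ≤ 1) :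
    h * (63 / 2 - 219 * u ^ 2 + 375 / 2 * u ^ 4)
      ≤ ((63 / 2 * (u + h) - 73 * (u + h) ^ 3 + 75 / 2 * (u + h) ^ 5)
        - (63 / 2 * u - 73 * u ^ 3 + 75 / 2 * u ^ 5)) + 1500 * h ^ 2 := by
  have key : ((63 / 2 * (u + h) - 73 * (u + h) ^ 3 + 75 / 2 * (u + h) ^ 5)
        - (63 / 2 * u - 73 * u ^ 3 + 75 / 2 * u ^ 5))
      - h * (63 / 2 - 219 * u ^ 2 + 375 / 2 * u ^ 4)
      = h ^ 2 * (-219 * u - 73 * h + 75 / 2 * (10 * u ^ 3 + 10 * (u ^ 2 * h) + 5 * (u * h ^ 2)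
        + h ^ 3)) := by ring
  have hhabs : |h| ≤ 1 := by rwa [abs_of_pos hh]
  have h1 := abs_le.1 hu
  have h2 := abs_le.1 (abs_pow_le_pow 3 hu)
  have h3 := abs_le.1 (abs_mul_le_mul (abs_pow_le_pow 2 hu) hhabs)
  have h4 := abs_le.1 (abs_mul_le_mul hu (abs_pow_le_pow 2 hhabs))
  have h5 := abs_le.1 (abs_pow_le_pow 3 hhabs)
  have h6 : -1500 ≤ -219 * u - 73 * h + 75 / 2 * (10 * u ^ 3 + 10 * (u ^ 2 * h)
      + 5 * (u * h ^ 2) + h ^ 3) := by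
    linarith [h1.2, h2.1, h3.1, h4.1, h5.1]
  have h7 := mul_le_mul_of_nonneg_left h6 (sq_nonneg h)
  linarith

theorem cost_estimateB {e h : ℝ} (N : ℕ) (hNh : (N : ℝ) * h = 2)
    (he : 0 < e) (he' : e ≤ 1 / 100000) (hh : 0 < h) (hh1 : h ≤ e ^ 3) :
    ∑ i ∈ Finset.range N,
      (h * (Yf e (-1 + (i : ℝ) * h)) ^ 2 / √(2 * (1 + (Qd e (-1 + (i : ℝ) * h) h) ^ 2
          + 2 * (Rd e (-1 + (i : ℝ) * h) h) ^ 2))
        + h * (2 * (ef e (-1 + (i : ℝ) * h) + e ^ 3)) / √2) + 120 * e ^ 3 / √2 < √2 := by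
  have hs2 : √2 * √2 = 2 := Real.mul_self_sqrt (by norm_num)
  have hs0 : 0 < √2 := by positivity
  have he2 : 0 < e ^ 2 := by positivity
  have he3 : 0 < e ^ 3 := by positivity
  have he32 : e ^ 3 ≤ 1 / 100000 * e ^ 2 := by
    have : e ^ 3 = e * e ^ 2 := by ring
    rw [this]; exact mul_le_mul_of_nonneg_right he' he2.le
  have he21 : e ^ 2 ≤ 1 / 100000 * e := by nlinarith
  have hh1' : h ≤ 1 := by linarith
  set G : ℝ → ℝ := fun u => 63 / 2 * u - 73 * u ^ 3 + 75 / 2 * u ^ 5 with hG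
  have hterm : ∀ i ∈ Finset.range N,
      (h * (Yf e (-1 + (i : ℝ) * h)) ^ 2 / √(2 * (1 + (Qd e (-1 + (i : ℝ) * h) h) ^ 2
          + 2 * (Rd e (-1 + (i : ℝ) * h) h) ^ 2))
        + h * (2 * (ef e (-1 + (i : ℝ) * h) + e ^ 3)) / √2)
      ≤ (e ^ 2 * (G (-1 + ((i + 1 : ℕ) : ℝ) * h) - G (-1 + (i : ℝ) * h))
          + (h + 50000 * e ^ 3 * h + 1500 * e ^ 2 * h ^ 2)) / √2 := by
    intro i hi
    have hi' : (i : ℝ) ≤ N := by exact_mod_cast (Finset.mem_range.1 hi).le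
    have h1 : (i : ℝ) * h ≤ 2 := by rw [← hNh]; exact mul_le_mul_of_nonneg_right hi' hh.le
    have h0 : 0 ≤ (i : ℝ) * h := by positivity
    rw [show -1 + ((i + 1 : ℕ) : ℝ) * h = (-1 + (i : ℝ) * h) + h by push_cast; ring]
    set u := -1 + (i : ℝ) * h with hu
    have hu1 : |u| ≤ 1 := by rw [abs_le]; constructor <;> linarith
    have ht := term_bound he he' hh hh1 hu1
    have hr := riemann_bound hh hh1' hu1
    have e1 : √(2 * (1 + (Qd e u h) ^ 2 + 2 * (Rd e u h) ^ 2))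
        = √2 * √(1 + ((Qd e u h) ^ 2 + 2 * (Rd e u h) ^ 2)) := by
      rw [← Real.sqrt_mul (by norm_num)]; congr 1; ring
    have hs1 : 0 < √(1 + ((Qd e u h) ^ 2 + 2 * (Rd e u h) ^ 2)) :=
      Real.sqrt_pos.2 (by positivity)
    have e2 : h * (Yf e u) ^ 2 / √(2 * (1 + (Qd e u h) ^ 2 + 2 * (Rd e u h) ^ 2))
        + h * (2 * (ef e u + e ^ 3)) / √2
        = (h * ((Yf e u) ^ 2 / √(1 + ((Qd e u h) ^ 2 + 2 * (Rd e u h) ^ 2))
          + 2 * (ef e u + e ^ 3))) / √2 := by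
      rw [e1]
      field_simp
    rw [e2]
    apply div_le_div_of_nonneg_right _ hs0.le
    have h2 := mul_le_mul_of_nonneg_left ht hh.le
    have h3 := mul_le_mul_of_nonneg_left hr he2.le
    have h4 : e ^ 2 * (G (u + h) - G u) = e ^ 2 * ((63 / 2 * (u + h) - 73 * (u + h) ^ 3
        + 75 / 2 * (u + h) ^ 5) - (63 / 2 * u - 73 * u ^ 3 + 75 / 2 * u ^ 5)) := rfl
    rw [h4]
    linarith
  have hsum := Finset.sum_le_sum hterm
  have htot : ∑ i ∈ Finset.range N, (e ^ 2 * (G (-1 + ((i + 1 : ℕ) : ℝ) * h) - G (-1 + (i : ℝ) * h))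
          + (h + 50000 * e ^ 3 * h + 1500 * e ^ 2 * h ^ 2)) / √2
      = (e ^ 2 * (G 1 - G (-1)) + (2 + 50000 * e ^ 3 * 2 + 1500 * e ^ 2 * (h * 2))) / √2 := by
    rw [← Finset.sum_div, Finset.sum_add_distrib, ← Finset.mul_sum,
      Finset.sum_range_sub (fun i : ℕ => G (-1 + (i : ℝ) * h)), Finset.sum_const,
      Finset.card_range, nsmul_eq_mul]
    have e1 : G (-1 + (N : ℝ) * h) = G 1 := by rw [hNh]; norm_num
    have e2 : G (-1 + ((0 : ℕ) : ℝ) * h) = G (-1) := by simp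
    rw [e1, e2]
    congr 2
    linear_combination (1 + 50000 * e ^ 3 + 1500 * e ^ 2 * h) * hNh
  have hG1 : G 1 - G (-1) = -8 := by simp only [hG]; norm_num
  rw [htot, hG1] at hsum
  have hfin : (e ^ 2 * (-8) + (2 + 50000 * e ^ 3 * 2 + 1500 * e ^ 2 * (h * 2))) / √2
      + 120 * e ^ 3 / √2 < √2 := by
    rw [← add_div, div_lt_iff₀ hs0, hs2]
    have h5 : 1500 * e ^ 2 * (h * 2) ≤ 1500 * e ^ 2 * (1 / 100000 * 2) :=
      mul_le_mul_of_nonneg_left (by linarith) (by positivity)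
    linarith
  linarith

end Half

end P243
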