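import Vale.Agent.P243.HalfSlab
import Vale.Agent.P243.HalfArea
import Vale.Agent.P243.CovA
import Vale.Agent.P243.TetraBody

open MeasureTheory Set

namespace P243

namespace Half

/-- A point of the tetrahedron is covered by a fan cylinder or lies below the surface. -/
theorem fan_cover {e h x y z : ℝ} (N : ℕ) (hN : 0 < N) (hNh : (N : ℝ) * h = 2)
    (he : 0 < e) (he' : e ≤ 1 / 100000) (hh : 0 < h) (hh1 : h ≤ e ^ 3)
    (h1 : x + y - z ≤ 1) (h2 : -x - y - z ≤ 1) (h3 : x - y + z ≤ 1) (h4 : -x + y + z ≤ 1) :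
    (∃ i < N, (-Rd e (-1 + (i : ℝ) * h) h * x + -Rd e (-1 + (i : ℝ) * h) h * y + (-1) * z,
        (1 - Qd e (-1 + (i : ℝ) * h) h) * x + -(1 + Qd e (-1 + (i : ℝ) * h) h) * y + 0 * z)
        ∈ wedge (-1 + (i : ℝ) * h) h (Yf e (-1 + (i : ℝ) * h)))
      ∨ z < Ff e (x + y) (x - y) := by
  obtain ⟨i, hi, hg1, hg2⟩ := exists_sign_change
    (fun i : ℕ => (x - y) - (-1 + (i : ℝ) * h) * (1 - z) - (x + y) * wf e (-1 + (i : ℝ) * h)) N hN
    (by
      have : wf e (-1) = 0 := by unfold wf; ring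
      simp [this]; linarith)
    (by
      have h5 : (-1 + (N : ℝ) * h) = 1 := by rw [hNh]; norm_num
      have : wf e 1 = 0 := by unfold wf; ring
      show (x - y) - (-1 + (N : ℝ) * h) * (1 - z) - (x + y) * wf e (-1 + (N : ℝ) * h) ≤ 0
      rw [h5, this]; linarith)
  simp only [Nat.cast_add, Nat.cast_one] at hg1 hg2
  have hi1 : ((i : ℝ) + 1) * h ≤ 2 := by
    rw [← hNh]
    exact mul_le_mul_of_nonneg_right (by exact_mod_cast hi) hh.le
  have hi0 : 0 ≤ (i : ℝ) * h := by positivity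
  rw [show (-1 : ℝ) + ((i : ℝ) + 1) * h = (-1 + (i : ℝ) * h) + h by ring] at hg2
  set u := -1 + (i : ℝ) * h with hu
  rw [wf_sub] at hg2
  have hs1 : u * ((1 - z) - (x + y) * Rd e u h) ≤ (x - y) - (x + y) * Qd e u h := by
    have : (x - y) - (x + y) * Qd e u h - u * ((1 - z) - (x + y) * Rd e u h)
        = (x - y) - u * (1 - z) - (x + y) * wf e u := by unfold Qd; ring
    linarith
  have hs2 : (x - y) - (x + y) * Qd e u h ≤ (u + h) * ((1 - z) - (x + y) * Rd e u h) := by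
    have : (x - y) - (x + y) * Qd e u h - (u + h) * ((1 - z) - (x + y) * Rd e u h)
        = (x - y) - (u + h) * (1 - z) - (x + y) * (wf e u - h * Rd e u h) := by unfold Qd; ring
    linarith
  rcases le_or_gt ((1 - z) - (x + y) * Rd e u h) (Yf e u) with hle | hgt
  · left
    refine ⟨i, hi, ⟨?_, ?_⟩, ?_, ?_⟩
    · show 0 ≤ 1 + (-Rd e u h * x + -Rd e u h * y + (-1) * z)
      have h5 : 0 ≤ h * ((1 - z) - (x + y) * Rd e u h) := by linarith
      have h6 := nonneg_of_mul_nonneg_right h5 hh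
      linarith
    · show 1 + (-Rd e u h * x + -Rd e u h * y + (-1) * z) ≤ Yf e u
      linarith
    · show u * (1 + (-Rd e u h * x + -Rd e u h * y + (-1) * z))
        ≤ (1 - Qd e u h) * x + -(1 + Qd e u h) * y + 0 * z
      linarith
    · show (1 - Qd e u h) * x + -(1 + Qd e u h) * y + 0 * z
        ≤ (u + h) * (1 + (-Rd e u h * x + -Rd e u h * y + (-1) * z))
      linarith
  · right
    have := fan_region he he' hh hh1 (p := x + y) (q := x - y) (y := 1 - z) (u₀ := u)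
      (by rw [abs_le]; constructor <;> linarith)
      (by rw [abs_le]; constructor <;> linarith)
      (by linarith) (by linarith) hs1 hs2 hgt
    linarith

/-- The cost of one fan cylinder. -/
theorem covA_fan (R Q u h Y : ℝ) (hh : 0 ≤ h) (hY : 0 ≤ Y) :
    CovA {x : E3 | (-R * x 0 + -R * x 1 + (-1) * x 2,
      (1 - Q) * x 0 + -(1 + Q) * x 1 + 0 * x 2) ∈ wedge u h Y}
      ((h * Y ^ 2 / 2) / √(2 * (1 + Q ^ 2 + 2 * R ^ 2))) := by
  have hG : ((-R) ^ 2 + (-R) ^ 2 + (-1) ^ 2) * ((1 - Q) ^ 2 + (-(1 + Q)) ^ 2 + 0 ^ 2)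
      - (-R * (1 - Q) + -R * (-(1 + Q)) + (-1) * 0) ^ 2 = 2 * (1 + Q ^ 2 + 2 * R ^ 2) := by ring
  have h := CovA.of_functionals (-R) (-R) (-1) (1 - Q) (-(1 + Q)) 0 (by rw [hG]; positivity)
    (wedge u h Y) (measurableSet_wedge u h Y) (s := h * Y ^ 2 / 2) (by positivity)
    (volume_wedge u h Y hh hY).le
  rwa [hG] at h

theorem covA_fan' (R Q u h Y : ℝ) (hh : 0 ≤ h) (hY : 0 ≤ Y) :
    CovA {x : E3 | (-R * x 0 + R * x 1 + 1 * x 2,
      (1 - Q) * x 0 + (1 + Q) * x 1 + 0 * x 2) ∈ wedge u h Y}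
      ((h * Y ^ 2 / 2) / √(2 * (1 + Q ^ 2 + 2 * R ^ 2))) := by
  have hG : ((-R) ^ 2 + R ^ 2 + 1 ^ 2) * ((1 - Q) ^ 2 + (1 + Q) ^ 2 + 0 ^ 2)
      - (-R * (1 - Q) + R * (1 + Q) + 1 * 0) ^ 2 = 2 * (1 + Q ^ 2 + 2 * R ^ 2) := by ring
  have h := CovA.of_functionals (-R) R 1 (1 - Q) (1 + Q) 0 (by rw [hG]; positivity)
    (wedge u h Y) (measurableSet_wedge u h Y) (s := h * Y ^ 2 / 2) (by positivity)
    (volume_wedge u h Y hh hY).le
  rwa [hG] at h

/-- The cost of one slab cylinder. -/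
theorem covA_slab (m a b c : ℝ) (hab : a ≤ b) (hc : 0 ≤ c) :
    CovA {x : E3 | (a ≤ √2 * x 0 ∧ √2 * x 0 ≤ b) ∧ |x 2 - m / √2 * x 1| ≤ c}
      ((b - a) * (2 * c) / √2) := by
  have hs2 : √2 ^ 2 = 2 := Real.sq_sqrt (by norm_num)
  have hG : ((√2) ^ 2 + 0 ^ 2 + 0 ^ 2) * (0 ^ 2 + (-(m / √2)) ^ 2 + 1 ^ 2)
      - (√2 * 0 + 0 * (-(m / √2)) + 0 * 1) ^ 2 = 2 + m ^ 2 := by
    rw [neg_sq, div_pow, hs2]; ring
  have h := CovA.of_functionals √2 0 0 0 (-(m / √2)) 1 (by rw [hG]; positivity)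
    (rect a b (-c) c) (measurableSet_rect _ _ _ _) (s := (b - a) * (2 * c))
    (mul_nonneg (by linarith) (by linarith)) (by
      rw [volume_rect _ _ _ _ hab]
      apply le_of_eq; congr 1; ring)
  rw [hG] at h
  refine h.mono ?_ ?_
  · rintro x ⟨⟨h1, h2⟩, h3⟩
    have h3' := abs_le.1 h3
    refine ⟨⟨?_, ?_⟩, ?_, ?_⟩
    · show a ≤ √2 * x 0 + 0 * x 1 + 0 * x 2
      linarith
    · show √2 * x 0 + 0 * x 1 + 0 * x 2 ≤ b
      linarith
    · show -c ≤ 0 * x 0 + -(m / √2) * x 1 + 1 * x 2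
      linarith
    · show 0 * x 0 + -(m / √2) * x 1 + 1 * x 2 ≤ c
      linarith
  · apply div_le_div_of_nonneg_left
    · exact mul_nonneg (by linarith) (by linarith)
    · positivity
    · exact Real.sqrt_le_sqrt (by nlinarith [sq_nonneg m])

theorem ef_nonneg {e u : ℝ} (he : 0 < e) (he' : e ≤ 1 / 100000) (hu : |u| ≤ 1) : 0 ≤ ef e u := by
  have h1 := abs_le.1 (abs_pow_le_pow 2 hu)
  have h2 : 0 ≤ 1 - u ^ 2 := by linarith [h1.2]
  unfold ef
  have h3 : 0 ≤ 6 * e * (1 - u ^ 2) - 3 * e ^ 2 * (1 - u ^ 2) := by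
    have : 0 ≤ (6 * e - 3 * e ^ 2) * (1 - u ^ 2) := mul_nonneg (by nlinarith) h2
    linarith
  have h4 : 0 ≤ e ^ 2 * (12 * u ^ 4) := by positivity
  have h5 : 0 < e ^ 3 := by positivity
  -- e^2 * (-3 u^2) = -3 e^2 + 3 e^2 (1 - u^2)
  nlinarith [mul_nonneg (sq_nonneg e) h2, sq_nonneg (e * u), sq_nonneg (u ^ 2 - 1)]

/-- The explicit covering of the tetrahedron. -/
theorem covA_tetra {e h : ℝ} (N : ℕ) (hN : 0 < N) (hNh : (N : ℝ) * h = 2)
    (he : 0 < e) (he' : e ≤ 1 / 100000) (hh : 0 < h) (hh1 : h ≤ e ^ 3) :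
    CovA tetra (∑ i ∈ Finset.range N,
      (h * (Yf e (-1 + (i : ℝ) * h)) ^ 2 / √(2 * (1 + (Qd e (-1 + (i : ℝ) * h) h) ^ 2
          + 2 * (Rd e (-1 + (i : ℝ) * h) h) ^ 2))
        + h * (2 * (ef e (-1 + (i : ℝ) * h) + e ^ 3)) / √2) + 120 * e ^ 3 / √2) := by
  set u : ℕ → ℝ := fun i => -1 + (i : ℝ) * h with hu
  have hu1 : ∀ i ∈ Finset.range N, |u i| ≤ 1 := by
    intro i hi
    have hi' : (i : ℝ) ≤ N := by exact_mod_cast (Finset.mem_range.1 hi).le
    have h1 : (i : ℝ) * h ≤ 2 := by rw [← hNh]; exact mul_le_mul_of_nonneg_right hi' hh.le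
    have h0 : 0 ≤ (i : ℝ) * h := by positivity
    rw [abs_le]
    constructor
    · show -1 ≤ -1 + (i : ℝ) * h
      linarith
    · show -1 + (i : ℝ) * h ≤ 1
      linarith
  have hY : ∀ i ∈ Finset.range N, 0 ≤ Yf e (u i) := by
    intro i hi
    have := Yf_lower he he' (hu1 i hi)
    linarith
  have c1 := CovA.finset_union (Finset.range N)
    (fun i => {x : E3 | (-Rd e (u i) h * x 0 + -Rd e (u i) h * x 1 + (-1) * x 2,
      (1 - Qd e (u i) h) * x 0 + -(1 + Qd e (u i) h) * x 1 + 0 * x 2)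
        ∈ wedge (u i) h (Yf e (u i))}) _
    (fun i hi => covA_fan (Rd e (u i) h) (Qd e (u i) h) (u i) h (Yf e (u i)) hh.le (hY i hi))
  have c2 := CovA.finset_union (Finset.range N)
    (fun i => {x : E3 | (-Rd e (u i) h * x 0 + Rd e (u i) h * x 1 + 1 * x 2,
      (1 - Qd e (u i) h) * x 0 + (1 + Qd e (u i) h) * x 1 + 0 * x 2)
        ∈ wedge (u i) h (Yf e (u i))}) _
    (fun i hi => covA_fan' (Rd e (u i) h) (Qd e (u i) h) (u i) h (Yf e (u i)) hh.le (hY i hi))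
  have he3 : 0 < e ^ 3 := by positivity
  have c3 := CovA.finset_union (Finset.range N)
    (fun i => {x : E3 | (u i ≤ √2 * x 0 ∧ √2 * x 0 ≤ u i + h) ∧
      |x 2 - mf e (u i) / √2 * x 1| ≤ ef e (u i) + e ^ 3}) _
    (fun i hi => covA_slab (mf e (u i)) (u i) (u i + h) (ef e (u i) + e ^ 3) (by linarith)
      (by linarith [ef_nonneg he he' (hu1 i hi)]))
  have c4 := covA_slab (mf e 1) 1 (1 + e) (30 * e ^ 2) (by linarith) (by positivity)
  have c5 := covA_slab (mf e (-1)) (-(1 + e)) (-1) (30 * e ^ 2) (by linarith) (by positivity)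
  refine ((((c1.union c2).union c3).union c4).union c5).mono ?_ ?_
  · intro x hx
    obtain ⟨h1, h2, h3, h4⟩ := (mem_tetra_iff x).1 hx
    rcases fan_cover N hN hNh he he' hh hh1 h1 h2 h3 h4 with ⟨i, hi, hmem⟩ | hz1
    · exact Or.inl (Or.inl (Or.inl (Or.inl
        (Set.mem_iUnion₂.2 ⟨i, Finset.mem_range.2 hi, hmem⟩))))
    rcases fan_cover (x := x 0) (y := -x 1) (z := -x 2) N hN hNh he he' hh hh1
      (by linarith) (by linarith) (by linarith) (by linarith) with ⟨i, hi, hmem⟩ | hz2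
    · refine Or.inl (Or.inl (Or.inl (Or.inr
        (Set.mem_iUnion₂.2 ⟨i, Finset.mem_range.2 hi, ?_⟩))))
      have e1 : -Rd e (-1 + (i : ℝ) * h) h * x 0 + -Rd e (-1 + (i : ℝ) * h) h * -x 1
          + (-1) * -x 2 = -Rd e (u i) h * x 0 + Rd e (u i) h * x 1 + 1 * x 2 := by
        simp only [hu]; ring
      have e2 : (1 - Qd e (-1 + (i : ℝ) * h) h) * x 0 + -(1 + Qd e (-1 + (i : ℝ) * h) h) * -x 1
          + 0 * -x 2 = (1 - Qd e (u i) h) * x 0 + (1 + Qd e (u i) h) * x 1 + 0 * x 2 := by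
        simp only [hu]; ring
      rw [e1, e2] at hmem
      exact hmem
    have hz2' : -x 2 < Ff e (x 0 - x 1) (x 0 + x 1) := by
      have : x 0 + -x 1 = x 0 - x 1 := by ring
      rw [this, show x 0 - -x 1 = x 0 + x 1 by ring] at hz2
      exact hz2
    rcases slab_cover N hN hNh he he' hh hh1 (x := x 0) (y := x 1) (z := x 2)
      (by rw [abs_le]; constructor <;> linarith) (by rw [abs_le]; constructor <;> linarith)
      hz1 hz2' with ⟨i, hi, hmem⟩ | hmem | hmem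
    · exact Or.inl (Or.inl (Or.inr
        (Set.mem_iUnion₂.2 ⟨i, Finset.mem_range.2 hi, hmem⟩)))
    · exact Or.inl (Or.inr hmem)
    · exact Or.inr hmem
  · apply le_of_eq
    rw [Finset.sum_add_distrib]
    have e1 : ∀ i, (h * Yf e (u i) ^ 2 / 2) / √(2 * (1 + Qd e (u i) h ^ 2 + 2 * Rd e (u i) h ^ 2))
        = (h * Yf e (u i) ^ 2 / √(2 * (1 + Qd e (u i) h ^ 2 + 2 * Rd e (u i) h ^ 2))) / 2 := by
      intro i; ring
    have e2 : ∀ i, (u i + h - u i) * (2 * (ef e (u i) + e ^ 3)) / √2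
        = h * (2 * (ef e (u i) + e ^ 3)) / √2 := by
      intro i; ring
    simp_rw [e1, e2]
    rw [← Finset.sum_div]
    simp only [hu]
    ring

end Half

end P243
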