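import Vale.Agent.P243.HalfCore

namespace P243

namespace Half

theorem ef_sqrt (e x : ℝ) : ef e (√2 * x)
    = 6 * e * (1 - 2 * x ^ 2) + e ^ 2 * (-6 * x ^ 2 + 48 * x ^ 4) + 20000 * e ^ 3 := by
  have h2 : √2 ^ 2 = 2 := Real.sq_sqrt (by norm_num)
  have h4 : √2 ^ 4 = 4 := by
    rw [show √2 ^ 4 = (√2 ^ 2) ^ 2 by ring, h2]; norm_num
  unfold ef
  rw [mul_pow, mul_pow, h2, h4]
  ring

theorem mf_sqrt (e x : ℝ) : mf e (√2 * x)
    = √2 * (12 * e * x + e ^ 2 * (84 * x - 72 * x ^ 3)) := by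
  have h2 : √2 ^ 2 = 2 := Real.sq_sqrt (by norm_num)
  have h3 : √2 ^ 3 = 2 * √2 := by
    rw [show √2 ^ 3 = √2 ^ 2 * √2 by ring, h2]
  unfold mf
  rw [mul_pow, h3]
  ring

theorem Ff_sum (e x y : ℝ) : Ff e (x + y) (x - y)
    = (12 * e * x + e ^ 2 * (84 * x - 72 * x ^ 3)) * y
      + (6 * e * (1 - 2 * x ^ 2) + e ^ 2 * (-6 * x ^ 2 + 48 * x ^ 4) + 20000 * e ^ 3) := by
  unfold Ff F2; ring

theorem Ff_sum' (e x y : ℝ) : Ff e (x - y) (x + y)
    = -(12 * e * x + e ^ 2 * (84 * x - 72 * x ^ 3)) * y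
      + (6 * e * (1 - 2 * x ^ 2) + e ^ 2 * (-6 * x ^ 2 + 48 * x ^ 4) + 20000 * e ^ 3) := by
  unfold Ff F2; ring

theorem sq_le_of_ef_pos {e ξ : ℝ} (he : 0 < e) (he' : e ≤ 1 / 100000) (h2 : ξ ^ 2 ≤ 2)
    (hpos : 0 < ef e ξ) : ξ ^ 2 ≤ (1 + e) ^ 2 := by
  by_contra hcon
  push Not at hcon
  set v := ξ ^ 2 - 1 with hv
  have hv1 : 2 * e ≤ v := by nlinarith
  have hv2 : v ≤ 1 := by linarith
  have h4 : ξ ^ 4 = (v + 1) ^ 2 := by rw [hv]; ring
  have h2' : ξ ^ 2 = v + 1 := by rw [hv]; ring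
  have key : ef e ξ = -(6 * e - 33 * e ^ 2) * v + 9 * e ^ 2 - 12 * e ^ 2 * (v * (1 - v))
      + 20000 * e ^ 3 := by
    unfold ef; rw [h4, h2']; ring
  have h5 : 0 ≤ 12 * e ^ 2 * (v * (1 - v)) := by
    have : 0 ≤ v * (1 - v) := mul_nonneg (by linarith) (by linarith)
    positivity
  have h6 : 0 ≤ 6 * e - 33 * e ^ 2 := by nlinarith
  have h7 := mul_le_mul_of_nonneg_left hv1 h6
  have h8 : ef e ξ ≤ -3 * e ^ 2 + 20066 * e ^ 3 := by
    rw [key]
    nlinarith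
  have h9 : -3 * e ^ 2 + 20066 * e ^ 3 < 0 := by
    have : 0 < e ^ 2 := by positivity
    nlinarith
  linarith

theorem ef_sub_bound {e u v h : ℝ} (he : 0 < e) (he' : e ≤ 1 / 100000)
    (hu : |u| ≤ 1) (hv : |v| ≤ 1) (h1 : |u - v| ≤ h) : |ef e u - ef e v| ≤ h / 4 := by
  have key : ef e u - ef e v = (u - v) * (e * ((u + v) * (-6
      + e * (-3 + 12 * (u ^ 2 + v ^ 2))))) := by
    unfold ef; ring
  rw [key]
  have heabs : |e| ≤ 1 / 100000 := by rw [abs_of_pos he]; exact he'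
  have b3 : |u + v| ≤ 2 := (abs_add_le _ _).trans (by linarith)
  have b4 : |-3 + 12 * (u ^ 2 + v ^ 2)| ≤ 27 := by
    have c1 := abs_le.1 (abs_pow_le_pow 2 hu)
    have c2 := abs_le.1 (abs_pow_le_pow 2 hv)
    rw [abs_le]; constructor <;> linarith [c1.1, c1.2, c2.1, c2.2]
  have b5 := abs_mul_le_mul heabs b4
  have b6 : |-6 + e * (-3 + 12 * (u ^ 2 + v ^ 2))| ≤ 7 := by
    have c1 := abs_le.1 b5
    rw [abs_le]; constructor <;> linarith [c1.1, c1.2]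
  have b7 := abs_mul_le_mul h1 (abs_mul_le_mul heabs (abs_mul_le_mul b3 b6))
  have : 0 ≤ h := (abs_nonneg _).trans h1
  linarith

theorem mf_sub_bound {e u v h : ℝ} (he : 0 < e) (he' : e ≤ 1 / 100000)
    (hu : |u| ≤ 11 / 10) (hv : |v| ≤ 11 / 10) (h1 : |u - v| ≤ h) :
    |mf e u - mf e v| ≤ 13 * e * h := by
  have key : mf e u - mf e v = (u - v) * (e * (12
      + e * (84 - 36 * (u ^ 2 + u * v + v ^ 2)))) := by
    unfold mf; ring
  rw [key]
  have heabs : |e| ≤ 1 / 100000 := by rw [abs_of_pos he]; exact he'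
  have b4 : |84 - 36 * (u ^ 2 + u * v + v ^ 2)| ≤ 300 := by
    have c1 := abs_le.1 (abs_pow_le_pow 2 hu)
    have c2 := abs_le.1 (abs_pow_le_pow 2 hv)
    have c3 := abs_le.1 (abs_mul_le_mul hu hv)
    rw [abs_le]; constructor <;> linarith [c1.1, c1.2, c2.1, c2.2, c3.1, c3.2]
  have b5 := abs_mul_le_mul heabs b4
  have b6 : |12 + e * (84 - 36 * (u ^ 2 + u * v + v ^ 2))| ≤ 13 := by
    have c1 := abs_le.1 b5
    rw [abs_le]; constructor <;> linarith [c1.1, c1.2]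
  have b7 := abs_mul_le_mul h1 (abs_mul_le_mul (show |e| ≤ e by rw [abs_of_pos he]) b6)
  linarith

theorem sqrt_two_inv_bound : |1 / √2| ≤ 1 := by
  rw [abs_of_pos (by positivity)]
  rw [div_le_one (by positivity)]
  exact Real.one_le_sqrt.2 (by norm_num)

theorem slab_bound {e x y z ξ v c : ℝ} (hξ : ξ = √2 * x)
    (h1 : z < Ff e (x + y) (x - y)) (h2 : -z < Ff e (x - y) (x + y)) (hy : |y| ≤ 1)
    (hc : |mf e ξ - mf e v| ≤ c) :
    |z - mf e v / √2 * y| ≤ ef e ξ + c := by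
  have hs : √2 ≠ 0 := by positivity
  rw [Ff_sum, ← ef_sqrt, ← hξ] at h1
  rw [Ff_sum', ← ef_sqrt, ← hξ] at h2
  have hm : 12 * e * x + e ^ 2 * (84 * x - 72 * x ^ 3) = mf e ξ * (1 / √2) := by
    rw [hξ, mf_sqrt]; field_simp
  rw [hm] at h1 h2
  have h3 := abs_le.1 (abs_mul_le_mul (abs_mul_le_mul hc sqrt_two_inv_bound) hy)
  have h4 : z - mf e v / √2 * y = (z - mf e ξ * (1 / √2) * y)
      + (mf e ξ - mf e v) * (1 / √2) * y := by ring
  rw [h4, abs_le]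
  constructor <;> linarith [h3.1, h3.2]

/-- Points not covered by the fans are covered by the slabs. -/
theorem slab_cover {e h x y z : ℝ} (N : ℕ) (hN : 0 < N) (hNh : (N : ℝ) * h = 2)
    (he : 0 < e) (he' : e ≤ 1 / 100000) (hh : 0 < h) (hh1 : h ≤ e ^ 3)
    (hx : |x| ≤ 1) (hy : |y| ≤ 1)
    (h1 : z < Ff e (x + y) (x - y)) (h2 : -z < Ff e (x - y) (x + y)) :
    (∃ i < N, (-1 + (i : ℝ) * h ≤ √2 * x ∧ √2 * x ≤ -1 + (i : ℝ) * h + h) ∧
      |z - mf e (-1 + (i : ℝ) * h) / √2 * y| ≤ ef e (-1 + (i : ℝ) * h) + e ^ 3) ∨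
    ((1 ≤ √2 * x ∧ √2 * x ≤ 1 + e) ∧ |z - mf e 1 / √2 * y| ≤ 30 * e ^ 2) ∨
    ((-(1 + e) ≤ √2 * x ∧ √2 * x ≤ -1) ∧ |z - mf e (-1) / √2 * y| ≤ 30 * e ^ 2) := by
  set ξ := √2 * x with hξ
  have hs2 : √2 ^ 2 = 2 := Real.sq_sqrt (by norm_num)
  have hξ2 : ξ ^ 2 ≤ 2 := by
    rw [hξ, mul_pow, hs2]
    have := abs_pow_le_pow 2 hx
    rw [abs_of_nonneg (sq_nonneg x)] at this
    linarith
  have hpos : 0 < ef e ξ := by
    rw [Ff_sum, ← ef_sqrt] at h1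
    rw [Ff_sum', ← ef_sqrt] at h2
    linarith
  have hsq := sq_le_of_ef_pos he he' hξ2 hpos
  have habs : |ξ| ≤ 1 + e := abs_le_of_sq_le_sq hsq (by linarith)
  have he2 : 0 < e ^ 2 := by positivity
  have he3 : 0 < e ^ 3 := by positivity
  have he32 : e ^ 3 ≤ 1 / 100000 * e ^ 2 := by
    have : e ^ 3 = e * e ^ 2 := by ring
    rw [this]; exact mul_le_mul_of_nonneg_right he' he2.le
  have he31 : e ^ 3 ≤ 1 := by nlinarith
  have hξ11 : |ξ| ≤ 11 / 10 := by linarith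
  rcases le_or_gt |ξ| 1 with hle | hgt
  · left
    have hξb := abs_le.1 hle
    obtain ⟨i, hi, hg1, hg2⟩ := exists_sign_change (fun i : ℕ => ξ - (-1 + (i : ℝ) * h)) N hN
      (by simp; linarith) (by show ξ - (-1 + (N : ℝ) * h) ≤ 0; linarith)
    simp only [Nat.cast_add, Nat.cast_one] at hg1 hg2
    refine ⟨i, hi, ⟨by linarith, by linarith⟩, ?_⟩
    set v := -1 + (i : ℝ) * h with hvdef
    have hv1 : |v| ≤ 1 := by
      rw [abs_le]
      refine ⟨?_, by linarith⟩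
      rw [hvdef]
      have : 0 ≤ (i : ℝ) * h := by positivity
      linarith
    have hd : |ξ - v| ≤ h := by rw [abs_le]; constructor <;> linarith
    have hm := mf_sub_bound he he' hξ11 (hv1.trans (by norm_num)) hd
    have hefs := abs_le.1 (ef_sub_bound he he' hle hv1 hd)
    have hb := slab_bound hξ h1 h2 hy hm
    have h13 : 13 * e * h ≤ h / 4 := by nlinarith
    refine hb.trans ?_
    linarith [hefs.1, hefs.2]
  · right
    have hefu : ef e ξ ≤ 10 * e ^ 2 := by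
      have h1' : 1 ≤ ξ ^ 2 := by
        rw [← sq_abs]; nlinarith
      have h4 : ξ ^ 4 = (ξ ^ 2) ^ 2 := by ring
      unfold ef
      rw [h4]
      have h5 : (ξ ^ 2) ^ 2 ≤ ((1 + e) ^ 2) ^ 2 := pow_le_pow_left₀ (sq_nonneg _) hsq 2
      have h6 : ((1 + e) ^ 2) ^ 2 ≤ 1 + 1 / 1000 := by
        have h7 : (1 + e) ^ 2 ≤ 1 + 1 / 10000 := by nlinarith
        nlinarith [sq_nonneg (1 + e)]
      have h8 : -3 * ξ ^ 2 + 12 * (ξ ^ 2) ^ 2 ≤ 9 + 1 / 10 := by linarith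
      have h9 := mul_le_mul_of_nonneg_left h8 he2.le
      have h10 : 6 * e * (1 - ξ ^ 2) ≤ 0 :=
        mul_nonpos_of_nonneg_of_nonpos (by positivity) (by linarith)
      linarith
    rcases le_or_gt 0 ξ with h0 | h0
    · left
      rw [abs_of_nonneg h0] at hgt habs
      refine ⟨⟨hgt.le, habs⟩, ?_⟩
      have hd : |ξ - 1| ≤ e := by rw [abs_le]; constructor <;> linarith
      have hm := mf_sub_bound he he' hξ11 (show |(1:ℝ)| ≤ 11 / 10 by norm_num) hd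
      have hb := slab_bound hξ h1 h2 hy hm
      refine hb.trans ?_
      nlinarith
    · right
      rw [abs_of_neg h0] at hgt habs
      refine ⟨⟨by linarith, by linarith⟩, ?_⟩
      have hd : |ξ - (-1)| ≤ e := by rw [abs_le]; constructor <;> linarith
      have hm := mf_sub_bound he he' hξ11 (show |(-1:ℝ)| ≤ 11 / 10 by norm_num) hd
      have hb := slab_bound hξ h1 h2 hy hm
      refine hb.trans ?_
      nlinarith

end Half

end P243
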