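import Vale.Agent.P243.Cov
import Vale.Agent.P243.CovA
import Vale.Agent.P243.TetraBody

/-! Cylinders in the two families of directions used for the bound `r₃ ≤ 5/12`. -/

open MeasureTheory

namespace P243

/-- The linear map `x ↦ (⟨a, x⟩, ⟨b, x⟩)`. -/
noncomputable def Lmap (a0 a1 a2 b0 b1 b2 : ℝ) : E3 →L[ℝ] ℝ × ℝ :=
  (innerSL ℝ (!₂[a0, a1, a2] : E3)).prod (innerSL ℝ (!₂[b0, b1, b2] : E3))

theorem Lmap_apply (a0 a1 a2 b0 b1 b2 : ℝ) (x : E3) :
    Lmap a0 a1 a2 b0 b1 b2 x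
      = (a0 * x 0 + a1 * x 1 + a2 * x 2, b0 * x 0 + b1 * x 1 + b2 * x 2) := by
  have h : Lmap a0 a1 a2 b0 b1 b2 x
      = (inner ℝ (!₂[a0, a1, a2] : E3) x, inner ℝ (!₂[b0, b1, b2] : E3) x) := rfl
  rw [h, inner_coord, inner_coord]
  simp

/-- Area of the image of the tetrahedron: two crossing images of edges. -/
theorem image_tetra_ge (L : E3 →L[ℝ] ℝ × ℝ) {a b c d : E3} (ha : a ∈ tetra) (hb : b ∈ tetra)
    (hc : c ∈ tetra) (hd : d ∈ tetra) {s t r : ℝ} (hs0 : 0 ≤ s) (hs1 : s ≤ 1) (ht0 : 0 ≤ t)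
    (ht1 : t ≤ 1) (h : L a + s • (L b - L a) = L c + t • (L d - L c))
    (hr : r ≤ |(L b - L a).1 * (L d - L c).2 - (L d - L c).1 * (L b - L a).2| / 2) :
    ENNReal.ofReal r ≤ volume (L '' tetra) := by
  have hconv : Convex ℝ (L '' tetra) := isConvexBody_tetra.convex.linear_image L.toLinearMap
  have hq := quad_area (L a + s • (L b - L a)) (L b - L a) (L d - L c) s t hs0 hs1 ht0 ht1 hconv
    ⟨b, hb, by module⟩ ⟨a, ha, by module⟩ ⟨d, hd, by rw [h]; module⟩ ⟨c, hc, by rw [h]; module⟩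
  exact (ENNReal.ofReal_le_ofReal hr).trans hq

theorem image_tetra_ne_top (L : E3 →L[ℝ] ℝ × ℝ) : volume (L '' tetra) ≠ ⊤ :=
  (isConvexBody_tetra.isCompact.image L.continuous).measure_lt_top.ne

/-- The map for direction `(1, σ c, σ y)`. -/
noncomputable def L1 (σ c y : ℝ) : E3 →L[ℝ] ℝ × ℝ := Lmap (-c) σ 0 (-y) 0 σ

/-- The map for direction `(0, 1, ξ)`. -/
noncomputable def L2 (σ ξ : ℝ) : E3 →L[ℝ] ℝ × ℝ := Lmap 1 0 0 0 (-(σ * ξ)) σ

theorem L1_apply (σ c y : ℝ) (x : E3) :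
    L1 σ c y x = (σ * x 1 - c * x 0, σ * x 2 - y * x 0) := by
  unfold L1; rw [Lmap_apply]; ext <;> simp <;> ring

theorem L2_apply (σ ξ : ℝ) (x : E3) :
    L2 σ ξ x = (x 0, σ * (x 2 - ξ * x 1)) := by
  unfold L2; rw [Lmap_apply]; ext <;> simp; ring

theorem L1_image (σ c y : ℝ) (hσ : σ = 1 ∨ σ = -1) (h1 : |c| + |y| ≤ 1) :
    ENNReal.ofReal 4 ≤ volume (L1 σ c y '' tetra) := by
  have hc := abs_le.1 (le_refl |c|)
  have hy := abs_le.1 (le_refl |y|)
  rcases hσ with rfl | rfl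
  · refine image_tetra_ge (L1 1 c y) vA vB vC vD (s := (1 - y - c) / 2) (t := (1 - y + c) / 2)
      (by linarith) (by linarith) (by linarith) (by linarith) ?_ ?_
    · simp only [L1_apply]
      ext <;> simp <;> ring
    · simp only [L1_apply]
      simp
      rw [le_div_iff₀ (by norm_num)]
      refine le_trans ?_ (neg_le_abs _)
      apply le_of_eq; ring
  · refine image_tetra_ge (L1 (-1) c y) vA vB vC vD (s := (1 + y + c) / 2)
      (t := (1 + y - c) / 2)
      (by linarith) (by linarith) (by linarith) (by linarith) ?_ ?_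
    · simp only [L1_apply]
      ext <;> simp <;> ring
    · simp only [L1_apply]
      simp
      rw [le_div_iff₀ (by norm_num)]
      refine le_trans ?_ (neg_le_abs _)
      apply le_of_eq; ring

theorem L2_image (σ ξ : ℝ) (hσ : σ = 1 ∨ σ = -1) (h1 : |ξ| ≤ 1) :
    ENNReal.ofReal 4 ≤ volume (L2 σ ξ '' tetra) := by
  obtain ⟨h2, h3⟩ := abs_le.1 h1
  rcases hσ with rfl | rfl
  · refine image_tetra_ge (L2 1 ξ) vA vC vB vD (s := (1 - ξ) / 2) (t := (1 - ξ) / 2)
      (by linarith) (by linarith) (by linarith) (by linarith) ?_ ?_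
    · simp only [L2_apply]
      ext <;> simp <;> ring
    · simp only [L2_apply]
      simp
      rw [le_div_iff₀ (by norm_num)]
      refine le_trans ?_ (neg_le_abs _)
      apply le_of_eq; ring
  · refine image_tetra_ge (L2 (-1) ξ) vA vC vB vD (s := (1 - ξ) / 2) (t := (1 - ξ) / 2)
      (by linarith) (by linarith) (by linarith) (by linarith) ?_ ?_
    · simp only [L2_apply]
      ext <;> simp <;> ring
    · simp only [L2_apply]
      simp
      rw [le_div_iff₀ (by norm_num)]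
      refine le_trans ?_ (le_abs_self _)
      apply le_of_eq; ring

/-- Area of a rectangle. -/
theorem volume_rect (a b c d : ℝ) (hab : a ≤ b) :
    volume (Set.Icc a b ×ˢ Set.Icc c d) = ENNReal.ofReal ((b - a) * (d - c)) := by
  rw [Measure.volume_eq_prod, Measure.prod_prod, Real.volume_Icc, Real.volume_Icc,
    ← ENNReal.ofReal_mul (by linarith)]

theorem cov_L1 (σ c y : ℝ) (hσ : σ = 1 ∨ σ = -1) (h1 : |c| + |y| ≤ 1) {a b p q : ℝ}
    (hab : a ≤ b) (hpq : p ≤ q) :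
    Cov tetra {x | L1 σ c y x ∈ Set.Icc a b ×ˢ Set.Icc p q} ((b - a) * (q - p) / 4) := by
  have hσ2 : σ * σ = 1 := by rcases hσ with rfl | rfl <;> norm_num
  refine Cov.of_preimage (K := tetra) (!₂[1, σ * c, σ * y] : E3) ?_ (L1 σ c y) ?_ ?_
    (Set.Icc a b ×ˢ Set.Icc p q) (measurableSet_Icc.prod measurableSet_Icc)
    (volume_rect a b p q hab).le (mul_nonneg (by linarith) (by linarith)) (by norm_num)
    (L1_image σ c y hσ h1) (image_tetra_ne_top _)
  · intro h
    have := congrArg (fun z : E3 => z 0) h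
    simp at this
  · rw [L1_apply]
    ext
    · simp; linear_combination c * hσ2
    · simp; linear_combination y * hσ2
  · intro z
    refine ⟨!₂[0, σ * z.1, σ * z.2], ?_⟩
    rw [L1_apply]
    ext
    · simp; linear_combination z.1 * hσ2
    · simp; linear_combination z.2 * hσ2

theorem cov_L2 (σ ξ : ℝ) (hσ : σ = 1 ∨ σ = -1) (h1 : |ξ| ≤ 1) {a b p q : ℝ}
    (hab : a ≤ b) (hpq : p ≤ q) :
    Cov tetra {x | L2 σ ξ x ∈ Set.Icc a b ×ˢ Set.Icc p q} ((b - a) * (q - p) / 4) := by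
  have hσ2 : σ * σ = 1 := by rcases hσ with rfl | rfl <;> norm_num
  refine Cov.of_preimage (K := tetra) (!₂[0, 1, ξ] : E3) ?_ (L2 σ ξ) ?_ ?_
    (Set.Icc a b ×ˢ Set.Icc p q) (measurableSet_Icc.prod measurableSet_Icc)
    (volume_rect a b p q hab).le (mul_nonneg (by linarith) (by linarith)) (by norm_num)
    (L2_image σ ξ hσ h1) (image_tetra_ne_top _)
  · intro h
    have := congrArg (fun z : E3 => z 1) h
    simp at this
  · rw [L2_apply]
    ext <;> simp
  · intro z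
    refine ⟨!₂[z.1, 0, σ * z.2], ?_⟩
    rw [L2_apply]
    ext
    · simp
    · simp; linear_combination z.2 * hσ2

end P243
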