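import Vale.Agent.P243.LeafArea

/-! The covering of the tetrahedron of relative area tending to `5/12`. -/

open MeasureTheory

namespace P243

theorem grid (a η y : ℝ) (h1 : a ≤ y) (J : ℕ) (hJ : 0 < J)
    (h2 : y ≤ a + (J : ℝ) * η) :
    ∃ j ∈ Finset.range J, a + (j : ℝ) * η ≤ y ∧ y ≤ a + ((j : ℝ) + 1) * η := by
  induction J with
  | zero => omega
  | succ J ih =>
    by_cases hJ' : 0 < J
    · by_cases hy : y ≤ a + (J : ℝ) * η
      · obtain ⟨j, hj, h3⟩ := ih hJ' hy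
        exact ⟨j, Finset.mem_range.2 (by have := Finset.mem_range.1 hj; omega), h3⟩
      · refine ⟨J, Finset.mem_range.2 (by omega), (not_le.1 hy).le, ?_⟩
        push_cast at h2; exact h2
    · have : J = 0 := by omega
      subst this
      exact ⟨0, by simp, by simpa using h1, by simpa using h2⟩

/-- The signed height above the ruled surface `Z = XY`. -/
noncomputable def zeta (σ : ℝ) (x : E3) : ℝ := σ * x 2 - x 0 * (σ * x 1)

/-- The part of the tetrahedron between two leaves. -/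
def Leaf (σ c d : ℝ) : Set E3 :=
  {x | x ∈ tetra ∧ -1 < x 0 ∧ x 0 < 1 ∧ c * (1 - x 0 ^ 2) ≤ zeta σ x ∧
    zeta σ x ≤ (c + d) * (1 - x 0 ^ 2)}

theorem tetra_sign {σ : ℝ} (hσ : σ = 1 ∨ σ = -1) {x : E3} (hx : x ∈ tetra) :
    x 0 + σ * x 1 - σ * x 2 ≤ 1 ∧ -x 0 - σ * x 1 - σ * x 2 ≤ 1 ∧
      x 0 - σ * x 1 + σ * x 2 ≤ 1 ∧ -x 0 + σ * x 1 + σ * x 2 ≤ 1 := by
  obtain ⟨h1, h2, h3, h4⟩ := (mem_tetra_iff x).1 hx
  rcases hσ with rfl | rfl
  · refine ⟨by linarith, by linarith, by linarith, by linarith⟩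
  · refine ⟨by linarith, by linarith, by linarith, by linarith⟩

/-- In the leaf layer the coordinate `y = σ Y - c X` is at most `1 - c` in absolute value. -/
theorem leaf_y {σ c d : ℝ} (hσ : σ = 1 ∨ σ = -1) {x : E3} (hx : x ∈ Leaf σ c d) :
    |σ * x 1 - c * x 0| ≤ 1 - c := by
  obtain ⟨hT, h1, h2, h3, h4⟩ := hx
  obtain ⟨k1, k2, k3, k4⟩ := tetra_sign hσ hT
  unfold zeta at h3
  have p1 : 0 < 1 + x 0 := by linarith
  have p2 : 0 < 1 - x 0 := by linarith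
  rw [abs_le]
  constructor
  · have : (1 - x 0) * (-(1 - c)) ≤ (1 - x 0) * (σ * x 1 - c * x 0) := by nlinarith
    exact le_of_mul_le_mul_left this p2
  · have : (1 + x 0) * (σ * x 1 - c * x 0) ≤ (1 + x 0) * (1 - c) := by nlinarith
    exact le_of_mul_le_mul_left this p1

/-- Sum of the heights of the second family of strips. -/
theorem sum_parab (m : ℝ) (I : ℕ) (hI : 0 < I) :
    ∑ i ∈ Finset.range I, (m ^ 2 - (-m + (i : ℝ) * (2 * m / I)) ^ 2)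
      = 2 / 3 * m ^ 2 * ((I : ℝ) ^ 2 - 1) / I := by
  have hI0 : (I : ℝ) ≠ 0 := by positivity
  have key : ∀ n : ℕ, ∑ i ∈ Finset.range n, (m ^ 2 - (-m + (i : ℝ) * (2 * m / I)) ^ 2)
      = 2 * m * (2 * m / I) * ((n : ℝ) * (n - 1) / 2)
        - (2 * m / I) ^ 2 * ((n : ℝ) * (n - 1) * (2 * n - 1) / 6) := by
    intro n
    induction n with
    | zero => simp
    | succ n ih =>
      rw [Finset.sum_range_succ, ih]; push_cast; ring
  rw [key I]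
  field_simp
  ring

/-- First strip set. -/
noncomputable def strip1 (σ c m κδ η : ℝ) (j : ℕ) : Set E3 :=
  {x | L1 σ c (-m + (j : ℝ) * η) x ∈
    Set.Icc (-m + (j : ℝ) * η) (-m + ((j : ℝ) + 1) * η) ×ˢ Set.Icc (c - η) (c + κδ + η)}

/-- Second strip set. -/
noncomputable def strip2 (σ c m δ κδ η : ℝ) (i : ℕ) : Set E3 :=
  {x | L2 σ (-m + (i : ℝ) * η) x ∈
    Set.Icc (-m + (i : ℝ) * η) (-m + ((i : ℝ) + 1) * η) ×ˢ
      Set.Icc (c * (1 - (-m + (i : ℝ) * η) ^ 2) + κδ - 3 * η)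
        ((c + δ) * (1 - (-m + (i : ℝ) * η) ^ 2) + 3 * η)}

theorem mem_strip1 {σ c m κδ η : ℝ} {J : ℕ} (hJ0 : 0 < J) (hη0 : 0 < η)
    (hJη : (J : ℝ) * η = 2 * m) {x : E3} (hX : |x 0| ≤ 1) (hy : |σ * x 1 - c * x 0| ≤ m)
    (h3 : c * (1 - x 0 ^ 2) ≤ zeta σ x) (ht : zeta σ x - c * (1 - x 0 ^ 2) ≤ κδ) :
    ∃ j ∈ Finset.range J, x ∈ strip1 σ c m κδ η j := by
  obtain ⟨y1, y2⟩ := abs_le.1 hy
  obtain ⟨j, hj, g1, g2⟩ := grid (-m) η (σ * x 1 - c * x 0) (by linarith) J hJ0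
    (by rw [hJη]; linarith)
  refine ⟨j, hj, ?_⟩
  have e : σ * x 2 - (-m + (j : ℝ) * η) * x 0
      = zeta σ x + c * x 0 ^ 2 + (σ * x 1 - c * x 0 - (-m + (j : ℝ) * η)) * x 0 := by
    unfold zeta; ring
  have hd : |(σ * x 1 - c * x 0 - (-m + (j : ℝ) * η)) * x 0| ≤ η := by
    rw [abs_mul]
    have : |σ * x 1 - c * x 0 - (-m + (j : ℝ) * η)| ≤ η := by
      rw [abs_le]; constructor <;> linarith
    calc _ ≤ η * 1 := mul_le_mul this hX (abs_nonneg _) hη0.le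
      _ = η := mul_one _
  obtain ⟨d1, d2⟩ := abs_le.1 hd
  have h5 : L1 σ c (-m + (j : ℝ) * η) x
      = (σ * x 1 - c * x 0, σ * x 2 - (-m + (j : ℝ) * η) * x 0) := L1_apply _ _ _ _
  have h6 : L1 σ c (-m + (j : ℝ) * η) x ∈
      Set.Icc (-m + (j : ℝ) * η) (-m + ((j : ℝ) + 1) * η) ×ˢ Set.Icc (c - η) (c + κδ + η) := by
    rw [h5]
    refine ⟨⟨g1, g2⟩, ?_, ?_⟩
    · show c - η ≤ σ * x 2 - (-m + (j : ℝ) * η) * x 0
      rw [e]; linarith
    · show σ * x 2 - (-m + (j : ℝ) * η) * x 0 ≤ c + κδ + η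
      rw [e]; linarith
  exact h6

theorem mem_strip2 {σ c m δ κδ η : ℝ} {J : ℕ} (hJ0 : 0 < J) (hη0 : 0 < η)
    (hJη : (J : ℝ) * η = 2 * m) (hm1 : m ≤ 1) (hc0 : 0 ≤ c) (hδ : 0 ≤ δ) (hcδ : c + δ ≤ 1)
    {x : E3} (hY : |σ * x 1| ≤ 1) (hx3 : |x 0| ≤ m)
    (h4 : zeta σ x ≤ (c + δ) * (1 - x 0 ^ 2)) (ht : κδ < zeta σ x - c * (1 - x 0 ^ 2)) :
    ∃ i ∈ Finset.range J, x ∈ strip2 σ c m δ κδ η i := by
  obtain ⟨x1, x2⟩ := abs_le.1 hx3
  obtain ⟨i, hi, g1, g2⟩ := grid (-m) η (x 0) x1 J hJ0 (by rw [hJη]; linarith)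
  refine ⟨i, hi, ?_⟩
  have hi' : (i : ℝ) + 1 ≤ J := by exact_mod_cast Finset.mem_range.1 hi
  have hiη : (i : ℝ) * η ≤ 2 * m := by
    rw [← hJη]; exact mul_le_mul_of_nonneg_right (by linarith) hη0.le
  have hiη0 : 0 ≤ (i : ℝ) * η := by positivity
  have h5 : L2 σ (-m + (i : ℝ) * η) x = (x 0, σ * (x 2 - (-m + (i : ℝ) * η) * x 1)) :=
    L2_apply _ _ _
  have h6 : L2 σ (-m + (i : ℝ) * η) x ∈
      Set.Icc (-m + (i : ℝ) * η) (-m + ((i : ℝ) + 1) * η) ×ˢ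
      Set.Icc (c * (1 - (-m + (i : ℝ) * η) ^ 2) + κδ - 3 * η)
        ((c + δ) * (1 - (-m + (i : ℝ) * η) ^ 2) + 3 * η) := by
    rw [h5]
    have g2' : x 0 ≤ -m + (i : ℝ) * η + η := by linarith
    have hξ1 : |-m + (i : ℝ) * η| ≤ 1 := by rw [abs_le]; constructor <;> linarith
    refine ⟨⟨g1, g2⟩, ?_⟩
    clear g2 h5 hi hi' hiη hiη0
    generalize -m + (i : ℝ) * η = ξ at *
    obtain ⟨ξ1, ξ2⟩ := abs_le.1 hξ1
    have g3 : x 0 - ξ ≤ η := by linarith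
    have g4 : 0 ≤ x 0 - ξ := by linarith
    have e : σ * (x 2 - ξ * x 1) = zeta σ x + (x 0 - ξ) * (σ * x 1) := by
      unfold zeta; ring
    have hd : |(x 0 - ξ) * (σ * x 1)| ≤ η := by
      rw [abs_mul, abs_of_nonneg g4]
      calc _ ≤ η * 1 := mul_le_mul g3 hY (abs_nonneg _) hη0.le
        _ = η := mul_one _
    obtain ⟨d1, d2⟩ := abs_le.1 hd
    have hsq : |x 0 ^ 2 - ξ ^ 2| ≤ 2 * η := by
      have : x 0 ^ 2 - ξ ^ 2 = (x 0 - ξ) * (x 0 + ξ) := by ring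
      rw [this, abs_mul, abs_of_nonneg g4]
      have h6 : |x 0 + ξ| ≤ 2 := by rw [abs_le]; constructor <;> linarith
      calc _ ≤ η * 2 := mul_le_mul g3 h6 (abs_nonneg _) hη0.le
        _ = 2 * η := by ring
    have hs1 : |c * (x 0 ^ 2 - ξ ^ 2)| ≤ 2 * η := by
      rw [abs_mul, abs_of_nonneg hc0]
      calc _ ≤ 1 * (2 * η) := mul_le_mul (by linarith) hsq (abs_nonneg _) zero_le_one
        _ = 2 * η := one_mul _
    have hs2 : |(c + δ) * (x 0 ^ 2 - ξ ^ 2)| ≤ 2 * η := by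
      rw [abs_mul, abs_of_nonneg (by linarith : 0 ≤ c + δ)]
      calc _ ≤ 1 * (2 * η) := mul_le_mul hcδ hsq (abs_nonneg _) zero_le_one
        _ = 2 * η := one_mul _
    obtain ⟨s1, s2⟩ := abs_le.1 hs1
    obtain ⟨s3, s4⟩ := abs_le.1 hs2
    constructor
    · show c * (1 - ξ ^ 2) + κδ - 3 * η ≤ σ * (x 2 - ξ * x 1)
      rw [e]; linarith
    · show σ * (x 2 - ξ * x 1) ≤ (c + δ) * (1 - ξ ^ 2) + 3 * η
      rw [e]; linarith
  exact h6

theorem leaf_cov {σ : ℝ} (hσ : σ = 1 ∨ σ = -1) {N : ℕ} (hN : 0 < N) {c : ℝ} (hc0 : 0 ≤ c)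
    (hc1 : c + 1 / N ≤ 1) :
    Cov tetra (Leaf σ c (1 / N))
      (1 / N * ((1 - c) / 2 - (1 - c) ^ 3 / 6) + 8 / N ^ 2) := by
  have hNpos : (0 : ℝ) < N := by positivity
  have hN1 : (1 : ℝ) ≤ N := by exact_mod_cast hN
  set δ : ℝ := 1 / N with hδ
  have hδ0 : 0 < δ := by positivity
  set m : ℝ := 1 - c with hm
  have hmδ : δ ≤ m := by linarith
  have hm0 : 0 < m := by linarith
  have hm1 : m ≤ 1 := by linarith
  set J : ℕ := N ^ 2 with hJ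
  have hJ0 : 0 < J := by positivity
  have hJr : (J : ℝ) = (N : ℝ) ^ 2 := by rw [hJ]; push_cast; ring
  set η : ℝ := 2 * m / J with hη
  have hJpos : (0 : ℝ) < J := by positivity
  have hη0 : 0 < η := by positivity
  have hJη : (J : ℝ) * η = 2 * m := by rw [hη]; field_simp
  have hη2 : η ≤ 2 * δ ^ 2 := by
    rw [hη, hJr, hδ, div_le_iff₀ (by positivity)]
    have : 2 * (1 / (N : ℝ)) ^ 2 * (N : ℝ) ^ 2 = 2 := by field_simp
    rw [this]; linarith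
  set κ : ℝ := 1 - m ^ 2 with hκ
  have hκ0 : 0 ≤ κ := by rw [hκ]; nlinarith
  have hκδ : 0 ≤ κ * δ := by positivity
  -- first family
  have hcov1 : Cov tetra (⋃ j ∈ Finset.range J, strip1 σ c m (κ * δ) η j)
      (∑ _j ∈ Finset.range J, (η * (κ * δ + 2 * η) / 4)) := by
    refine Cov.finset_union _ _ _ fun j hj => ?_
    have hj' : (j : ℝ) + 1 ≤ J := by exact_mod_cast Finset.mem_range.1 hj
    have hjη : (j : ℝ) * η ≤ 2 * m := by
      rw [← hJη]; exact mul_le_mul_of_nonneg_right (by linarith) hη0.le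
    have hjη0 : 0 ≤ (j : ℝ) * η := by positivity
    have hy : |c| + |-m + (j : ℝ) * η| ≤ 1 := by
      have : |-m + (j : ℝ) * η| ≤ m := by rw [abs_le]; constructor <;> linarith
      rw [abs_of_nonneg hc0]; linarith
    have h := cov_L1 σ c (-m + (j : ℝ) * η) hσ hy
      (a := -m + (j : ℝ) * η) (b := -m + ((j : ℝ) + 1) * η) (p := c - η) (q := c + κ * δ + η)
      (by linarith) (by linarith)
    refine h.mono subset_rfl (le_of_eq ?_)
    ring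
  -- second family
  have hcov2 : Cov tetra (⋃ i ∈ Finset.range J, strip2 σ c m δ (κ * δ) η i)
      (∑ i ∈ Finset.range J, (η * (δ * (m ^ 2 - (-m + (i : ℝ) * η) ^ 2) + 6 * η) / 4)) := by
    refine Cov.finset_union _ _ _ fun i hi => ?_
    have hi' : (i : ℝ) + 1 ≤ J := by exact_mod_cast Finset.mem_range.1 hi
    have hiη : (i : ℝ) * η ≤ 2 * m := by
      rw [← hJη]; exact mul_le_mul_of_nonneg_right (by linarith) hη0.le
    have hiη0 : 0 ≤ (i : ℝ) * η := by positivity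
    have hx : |-m + (i : ℝ) * η| ≤ m := by rw [abs_le]; constructor <;> linarith
    have hx2 : (-m + (i : ℝ) * η) ^ 2 ≤ m ^ 2 := sq_le_sq' (abs_le.1 hx).1 (abs_le.1 hx).2
    have hx4 : 0 ≤ δ * (m ^ 2 - (-m + (i : ℝ) * η) ^ 2) :=
      mul_nonneg hδ0.le (by linarith)
    have h := cov_L2 σ (-m + (i : ℝ) * η) hσ (hx.trans hm1)
      (a := -m + (i : ℝ) * η) (b := -m + ((i : ℝ) + 1) * η)
      (p := c * (1 - (-m + (i : ℝ) * η) ^ 2) + κ * δ - 3 * η)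
      (q := (c + δ) * (1 - (-m + (i : ℝ) * η) ^ 2) + 3 * η)
      (by linarith) (by rw [hκ]; linarith)
    refine h.mono subset_rfl (le_of_eq ?_)
    rw [hκ]; ring
  refine (hcov1.union hcov2).mono ?_ ?_
  · intro x hx
    have hy := leaf_y hσ hx
    obtain ⟨hT, h1, h2, h3, h4⟩ := hx
    obtain ⟨k1, k2, k3, k4⟩ := tetra_sign hσ hT
    have hY : |σ * x 1| ≤ 1 := by rw [abs_le]; constructor <;> linarith
    have hX : |x 0| ≤ 1 := by rw [abs_le]; constructor <;> linarith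
    by_cases ht : zeta σ x - c * (1 - x 0 ^ 2) ≤ κ * δ
    · left
      obtain ⟨j, hj, h⟩ := mem_strip1 hJ0 hη0 hJη hX hy h3 ht
      exact Set.mem_iUnion₂.2 ⟨j, hj, h⟩
    · right
      push Not at ht
      have hx2 : x 0 ^ 2 ≤ m ^ 2 := by
        have h5 : δ * κ ≤ δ * (1 - x 0 ^ 2) := by linarith
        have h6 : κ ≤ 1 - x 0 ^ 2 := le_of_mul_le_mul_left h5 hδ0
        rw [hκ] at h6; linarith
      have hx3 : |x 0| ≤ m := abs_le_of_sq_le_sq hx2 hm0.le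
      obtain ⟨i, hi, h⟩ := mem_strip2 hJ0 hη0 hJη hm1 hc0 hδ0.le hc1 hY hx3 h4 ht
      exact Set.mem_iUnion₂.2 ⟨i, hi, h⟩
  · have hs1 : ∑ _j ∈ Finset.range J, (η * (κ * δ + 2 * η) / 4) = m * (κ * δ + 2 * η) / 2 := by
      rw [Finset.sum_const, Finset.card_range, nsmul_eq_mul]
      linear_combination (κ * δ + 2 * η) / 4 * hJη
    have hs2 : ∑ i ∈ Finset.range J, (η * (δ * (m ^ 2 - (-m + (i : ℝ) * η) ^ 2) + 6 * η) / 4)
        = η * δ / 4 * (2 / 3 * m ^ 2 * ((J : ℝ) ^ 2 - 1) / J) + 3 * m * η := by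
      rw [← sum_parab m J hJ0, ← hη, Finset.mul_sum]
      have : ∀ i ∈ Finset.range J, η * (δ * (m ^ 2 - (-m + (i : ℝ) * η) ^ 2) + 6 * η) / 4
          = η * δ / 4 * (m ^ 2 - (-m + (i : ℝ) * η) ^ 2) + 6 * η ^ 2 / 4 := fun i _ => by ring
      rw [Finset.sum_congr rfl this, Finset.sum_add_distrib, Finset.sum_const, Finset.card_range,
        nsmul_eq_mul]
      linear_combination 6 * η / 4 * hJη
    rw [hs1, hs2]
    have h7 : η * δ / 4 * (2 / 3 * m ^ 2 * ((J : ℝ) ^ 2 - 1) / J) ≤ δ * m ^ 3 / 3 := by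
      have : η * δ / 4 * (2 / 3 * m ^ 2 * ((J : ℝ) ^ 2 - 1) / J)
          = δ * m ^ 3 / 3 * (1 - 1 / (J : ℝ) ^ 2) := by
        rw [hη]; field_simp; ring
      rw [this]
      have h8 : 0 ≤ 1 / (J : ℝ) ^ 2 := by positivity
      have h9 : 0 ≤ δ * m ^ 3 / 3 := by positivity
      nlinarith
    have h10 : 8 / (N : ℝ) ^ 2 = 8 * δ ^ 2 := by rw [hδ]; field_simp
    rw [h10]
    have h11 : m * η ≤ 2 * δ ^ 2 := by nlinarith
    have h12 : m * (κ * δ + 2 * η) / 2 = δ * m / 2 - δ * m ^ 3 / 2 + m * η := by rw [hκ]; ring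
    rw [h12]
    linarith

end P243
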