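import Vale.Agent.P243.LeafCover

/-! The tetrahedron has cylinder coverings of relative area at most `5/12 + 17/N`. -/

open MeasureTheory

namespace P243

theorem sum_leaf (N : ℕ) (hN : 0 < N) :
    ∑ k ∈ Finset.range N, ((1 - (k : ℝ) * (1 / N)) / 2 - (1 - (k : ℝ) * (1 / N)) ^ 3 / 6)
      = ((N : ℝ) + 1) / 4 - ((N : ℝ) + 1) ^ 2 / (24 * N) := by
  have key : ∀ (a : ℝ) (n : ℕ),
      ∑ k ∈ Finset.range n, ((1 - (k : ℝ) * a) / 2 - (1 - (k : ℝ) * a) ^ 3 / 6)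
      = n / 2 - a * (n * (n - 1)) / 4 - (n - 3 * a * (n * (n - 1)) / 2
        + 3 * a ^ 2 * (n * (n - 1) * (2 * n - 1)) / 6 - a ^ 3 * (n * (n - 1) / 2) ^ 2) / 6 := by
    intro a n
    induction n with
    | zero => simp
    | succ n ih => rw [Finset.sum_range_succ, ih]; push_cast; ring
  rw [key]
  have : (N : ℝ) ≠ 0 := by positivity
  field_simp
  ring

theorem zeta_le {σ : ℝ} (hσ : σ = 1 ∨ σ = -1) {x : E3} (hx : x ∈ tetra) (h1 : -1 < x 0)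
    (h2 : x 0 < 1) : zeta σ x ≤ 1 - x 0 ^ 2 := by
  obtain ⟨k1, k2, k3, k4⟩ := tetra_sign hσ hx
  unfold zeta
  rcases le_total (σ * x 1) (x 0) with h | h
  · nlinarith
  · nlinarith

theorem mem_leaf {σ : ℝ} (hσ : σ = 1 ∨ σ = -1) {N : ℕ} (hN : 0 < N) {x : E3} (hx : x ∈ tetra)
    (h1 : -1 < x 0) (h2 : x 0 < 1) (h3 : 0 ≤ zeta σ x) :
    ∃ k ∈ Finset.range N, x ∈ Leaf σ ((k : ℝ) * (1 / N)) (1 / N) := by
  have hD : 0 < 1 - x 0 ^ 2 := by nlinarith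
  have h4 := zeta_le hσ hx h1 h2
  have hNpos : (0 : ℝ) < N := by positivity
  have h5 : 0 ≤ zeta σ x / (1 - x 0 ^ 2) := by positivity
  have h6 : zeta σ x / (1 - x 0 ^ 2) ≤ 0 + (N : ℝ) * (1 / N) := by
    rw [div_le_iff₀ hD, mul_one_div, div_self hNpos.ne']; linarith
  obtain ⟨k, hk, g1, g2⟩ := grid 0 (1 / N) (zeta σ x / (1 - x 0 ^ 2)) h5 N hN h6
  refine ⟨k, hk, hx, h1, h2, ?_, ?_⟩
  · rw [le_div_iff₀ hD] at g1; linarith
  · rw [div_le_iff₀ hD] at g2; linarith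

theorem cov_half {σ : ℝ} (hσ : σ = 1 ∨ σ = -1) {N : ℕ} (hN : 0 < N) :
    Cov tetra (⋃ k ∈ Finset.range N, Leaf σ ((k : ℝ) * (1 / N)) (1 / N))
      (5 / 24 + 17 / (2 * N)) := by
  have hNpos : (0 : ℝ) < N := by positivity
  have h := Cov.finset_union (K := tetra) (Finset.range N)
    (fun k => Leaf σ ((k : ℝ) * (1 / N)) (1 / N))
    (fun k => 1 / N * ((1 - (k : ℝ) * (1 / N)) / 2 - (1 - (k : ℝ) * (1 / N)) ^ 3 / 6)
      + 8 / N ^ 2) (fun k hk => by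
      refine leaf_cov hσ hN (by positivity) ?_
      have hk' : (k : ℝ) + 1 ≤ N := by exact_mod_cast Finset.mem_range.1 hk
      rw [← add_one_mul, mul_one_div, div_le_one hNpos]
      exact hk')
  refine h.mono subset_rfl ?_
  rw [Finset.sum_add_distrib, ← Finset.mul_sum, sum_leaf N hN, Finset.sum_const,
    Finset.card_range, nsmul_eq_mul]
  have e1 : 1 / (N : ℝ) * (((N : ℝ) + 1) / 4 - ((N : ℝ) + 1) ^ 2 / (24 * N))
      + (N : ℝ) * (8 / (N : ℝ) ^ 2) = 5 / 24 + (1 / 6 + 8) / N - 1 / (24 * (N : ℝ) ^ 2) := by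
    field_simp; ring
  rw [e1]
  have e2 : 0 ≤ 1 / (24 * (N : ℝ) ^ 2) := by positivity
  have e3 : (1 / 6 + 8) / (N : ℝ) ≤ 17 / (2 * N) := by
    rw [div_le_div_iff₀ hNpos (by positivity)]; nlinarith
  linarith

/-- **The covering.** -/
theorem cov_tetra {N : ℕ} (hN : 0 < N) : Cov tetra tetra (5 / 12 + 17 / N) := by
  have hE1 : Cov tetra {x | x ∈ tetra ∧ x 0 = 1} 0 := by
    have h := cov_L2 1 1 (Or.inl rfl) (by norm_num) (le_refl (1 : ℝ)) (le_refl (0 : ℝ))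
    refine h.mono ?_ (by norm_num)
    rintro x ⟨hx, hx0⟩
    obtain ⟨k1, k2, k3, k4⟩ := (mem_tetra_iff x).1 hx
    have e : L2 1 1 x = (x 0, 1 * (x 2 - 1 * x 1)) := L2_apply _ _ _
    have h6 : L2 1 1 x ∈ Set.Icc (1 : ℝ) 1 ×ˢ Set.Icc (0 : ℝ) 0 := by
      rw [e]
      refine ⟨⟨by linarith, by linarith⟩, ?_, ?_⟩
      · show (0 : ℝ) ≤ 1 * (x 2 - 1 * x 1)
        linarith
      · show 1 * (x 2 - 1 * x 1) ≤ 0
        linarith
    exact h6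
  have hE2 : Cov tetra {x | x ∈ tetra ∧ x 0 = -1} 0 := by
    have h := cov_L2 1 (-1) (Or.inl rfl) (by norm_num) (le_refl (-1 : ℝ)) (le_refl (0 : ℝ))
    refine h.mono ?_ (by norm_num)
    rintro x ⟨hx, hx0⟩
    obtain ⟨k1, k2, k3, k4⟩ := (mem_tetra_iff x).1 hx
    have e : L2 1 (-1) x = (x 0, 1 * (x 2 - (-1) * x 1)) := L2_apply _ _ _
    have h6 : L2 1 (-1) x ∈ Set.Icc (-1 : ℝ) (-1) ×ˢ Set.Icc (0 : ℝ) 0 := by
      rw [e]
      refine ⟨⟨by linarith, by linarith⟩, ?_, ?_⟩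
      · show (0 : ℝ) ≤ 1 * (x 2 - (-1) * x 1)
        linarith
      · show 1 * (x 2 - (-1) * x 1) ≤ 0
        linarith
    exact h6
  have h := ((cov_half (σ := 1) (Or.inl rfl) hN).union (cov_half (σ := -1) (Or.inr rfl) hN)).union
    (hE1.union hE2)
  refine h.mono ?_ (le_of_eq ?_)
  · intro x hx
    obtain ⟨k1, k2, k3, k4⟩ := (mem_tetra_iff x).1 hx
    by_cases h1 : x 0 = 1
    · exact Or.inr (Or.inl ⟨hx, h1⟩)
    by_cases h2 : x 0 = -1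
    · exact Or.inr (Or.inr ⟨hx, h2⟩)
    have h3 : x 0 < 1 := lt_of_le_of_ne (by linarith) h1
    have h4 : -1 < x 0 := lt_of_le_of_ne (by linarith) (Ne.symm h2)
    left
    rcases le_total 0 (zeta 1 x) with h5 | h5
    · obtain ⟨k, hk, h6⟩ := mem_leaf (Or.inl rfl) hN hx h4 h3 h5
      exact Or.inl (Set.mem_iUnion₂.2 ⟨k, hk, h6⟩)
    · have h7 : 0 ≤ zeta (-1) x := by unfold zeta at *; linarith
      obtain ⟨k, hk, h6⟩ := mem_leaf (Or.inr rfl) hN hx h4 h3 h7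
      exact Or.inr (Set.mem_iUnion₂.2 ⟨k, hk, h6⟩)
  · have hNpos : (N : ℝ) ≠ 0 := by positivity
    field_simp
    ring

end P243
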