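import Mathlib

open MeasureTheory

namespace P243.Literal

/-- `CheapCovering E c`: there are a convex body `K` in `E` and finitely many cylinders
`B i + ℝ u i` (unit vectors `u i`, Lebesgue measurable bases `B i` of finite area in the
orthogonal plane of `u i`) which cover `K`, such that the sum of the areas of the bases is at
most `c` times the area of every orthogonal projection of `K` along a unit vector `v`. -/
def CheapCovering (E : Type) [NormedAddCommGroup E] [InnerProductSpace ℝ E]
    [FiniteDimensional ℝ E] [MeasurableSpace E] [BorelSpace E] (c : ENNReal) : Prop :=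
  ∃ K : Set E, IsCompact K ∧ Convex ℝ K ∧ (interior K).Nonempty ∧
    ∃ (m : ℕ) (u : Fin m → E) (B : (i : Fin m) → Set ((Submodule.span ℝ {u i})ᗮ : Submodule ℝ E)),
      (∀ i, ‖u i‖ = 1 ∧ NullMeasurableSet (B i) volume ∧ volume (B i) < ⊤) ∧
      (∀ x ∈ K, ∃ i, ∃ b ∈ B i, ∃ t : ℝ, x = (b : E) + t • u i) ∧
      ∀ v : E, ‖v‖ = 1 →
        ∑ i, volume (B i) ≤
          c * volume (((Submodule.span ℝ {v})ᗮ : Submodule ℝ E).orthogonalProjectionOnto '' K)

end P243.Literal
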