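import Vale.Agent.P243.Literal
import Vale.Agent.P243.TetraBody
import Vale.Agent.P243.CovA
import Vale.Agent.P243.HalfCover
import Vale.Agent.P243.HalfCostB

open MeasureTheory

namespace P243.Literal

open _root_.P243

theorem sum_base {m : ℕ} (C : Fin m → Cylinder) :
    ∑ i, volume (C i).base = ENNReal.ofReal (∑ i, (C i).baseArea) := by
  rw [ENNReal.ofReal_sum_of_nonneg (f := fun i => (C i).baseArea)
    (fun i _ => ENNReal.toReal_nonneg)]
  exact Finset.sum_congr rfl fun i _ => (ENNReal.ofReal_toReal (C i).finite_base).symm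

theorem sum_le {m : ℕ} (C : Fin m → Cylinder) {c : ℝ} (hc : ∑ i, (C i).baseArea ≤ c)
    (v : E3) (hv : ‖v‖ = 1) :
    ∑ i, volume (C i).base ≤ ENNReal.ofReal (c / (2 * √2)) * volume (shadow v tetra) := by
  have h2 : (0 : ℝ) < 2 * √2 := by positivity
  calc ∑ i, volume (C i).base = ENNReal.ofReal (∑ i, (C i).baseArea) := sum_base C
    _ ≤ ENNReal.ofReal c := ENNReal.ofReal_le_ofReal hc
    _ = ENNReal.ofReal (c / (2 * √2)) * ENNReal.ofReal (2 * √2) := by
        rw [← ENNReal.ofReal_mul' h2.le, div_mul_cancel₀ _ h2.ne']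
    _ ≤ ENNReal.ofReal (c / (2 * √2)) * volume (shadow v tetra) := by
        gcongr
        exact shadow_tetra_ge v hv

theorem half_lt {c : ℝ} (hc : c < √2) : ENNReal.ofReal (c / (2 * √2)) < 1 / 2 := by
  have h2 : (0 : ℝ) < 2 * √2 := by positivity
  have h3 : (1 / 2 : ENNReal) = ENNReal.ofReal (1 / 2) := by
    rw [ENNReal.ofReal_div_of_pos (by norm_num)]; norm_num
  rw [h3, ENNReal.ofReal_lt_ofReal_iff (by norm_num), div_lt_iff₀ h2]
  linarith

/-- The explicit covering of the tetrahedron. -/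
theorem half_cover : ∃ c : ℝ, c < √2 ∧ CovA tetra c := by
  have hN : 0 < 2 * 10 ^ 20 := by norm_num
  have hNh : ((2 * 10 ^ 20 : ℕ) : ℝ) * (1 / 10 ^ 20 : ℝ) = 2 := by norm_num
  have he : (0 : ℝ) < 1 / 100000 := by norm_num
  have hh : (0 : ℝ) < 1 / 10 ^ 20 := by norm_num
  have hh1 : (1 / 10 ^ 20 : ℝ) ≤ (1 / 100000) ^ 3 := by norm_num
  exact ⟨_, Half.cost_estimateB (2 * 10 ^ 20) hNh he le_rfl hh hh1,
    Half.covA_tetra (2 * 10 ^ 20) hN hNh he le_rfl hh hh1⟩

end P243.Literal
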