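import Vale.Agent.P243.Bridge
import Vale.Agent.P243.LeafFinal

/-! From relative coverings to the constant `r₃` of `Statement.lean`. -/

open MeasureTheory

namespace P243

theorem shadow_tetra_lt_top (u : E3) : volume (shadow u tetra) ≠ ⊤ :=
  (isConvexBody_tetra.isCompact.image
    (perp u).orthogonalProjectionOnto.continuous).measure_lt_top.ne

theorem relArea_toBang {m : ℕ} (C : Fin m → Cylinder) :
    Bang.relArea (fun i => toBang (C i)) tetra = ENNReal.ofReal (relArea C tetra) := by
  unfold Bang.relArea relArea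
  rw [ENNReal.ofReal_sum_of_nonneg (f := fun i => (C i).baseArea / shadowArea (C i).axis tetra)
    (fun i _ => div_nonneg ENNReal.toReal_nonneg ENNReal.toReal_nonneg)]
  refine Finset.sum_congr rfl fun i _ => ?_
  have h2 : (0 : ℝ) < √2 := by positivity
  have hs : 0 < shadowArea (C i).axis tetra := by
    have := shadowArea_tetra_ge (C i).axis (C i).norm_axis
    linarith
  rw [ENNReal.ofReal_div_of_pos hs, area_toBang]
  congr 1
  exact (ENNReal.ofReal_toReal (shadow_tetra_lt_top _)).symm

theorem rConst_le_of_cov {c : ℝ} (h : Cov tetra tetra c) :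
    Bang.rConst E3 ≤ ENNReal.ofReal c := by
  obtain ⟨m, C, hC, hsum⟩ := h
  refine le_trans (sInf_le ⟨tetra, m, fun i => toBang (C i), ⟨isConvexBody_bang, hC⟩, rfl⟩) ?_
  rw [relArea_toBang]
  exact ENNReal.ofReal_le_ofReal hsum

theorem rConst_le_of_forall {c : ℝ} (hc : 0 ≤ c)
    (h : ∀ ε : ℝ, 0 < ε → Bang.rConst E3 ≤ ENNReal.ofReal (c + ε)) :
    Bang.rConst E3 ≤ ENNReal.ofReal c := by
  refine ENNReal.le_of_forall_pos_le_add fun ε hε _ => ?_
  have h1 := h ε (by exact_mod_cast hε)
  rw [ENNReal.ofReal_add hc (by positivity)] at h1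
  simpa using h1

theorem rConst_le : Bang.rConst E3 ≤ ENNReal.ofReal (5 / 12) := by
  refine rConst_le_of_forall (by norm_num) fun ε hε => ?_
  obtain ⟨N, hN⟩ := exists_nat_gt (17 / ε)
  have hN0 : 0 < N := by
    have : (0 : ℝ) < N := lt_trans (by positivity) hN
    exact_mod_cast this
  have hNpos : (0 : ℝ) < N := by exact_mod_cast hN0
  refine (rConst_le_of_cov (cov_tetra hN0)).trans (ENNReal.ofReal_le_ofReal ?_)
  have : 17 / (N : ℝ) ≤ ε := by
    rw [div_le_iff₀ hNpos]
    rw [div_lt_iff₀ hε] at hN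
    linarith
  linarith

end P243
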