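import Vale.Agent.P243.Frame

open MeasureTheory

namespace P243

/-- The area of a shadow computed in an orthonormal frame. -/
theorem volume_shadow (u : E3) (hu : ‖u‖ = 1) :
    ∃ e f : E3, (∀ x y : E3, (inner ℝ x y) = (inner ℝ e x) * (inner ℝ e y) + (inner ℝ f x) * (inner ℝ f y) + (inner ℝ u x) * (inner ℝ u y)) ∧
      ∀ K : Set E3, volume (shadow u K) = volume ((fun x : E3 => ((inner ℝ e x), (inner ℝ f x))) '' K) := by
  obtain ⟨e, f, hpars, Φ, hΦ, -, hΦp⟩ := exists_frame u hu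
  refine ⟨e, f, hpars, fun K => ?_⟩
  have h1 : shadow u K = Φ ⁻¹' ((fun x : E3 => ((inner ℝ e x), (inner ℝ f x))) '' K) := by
    ext y
    constructor
    · rintro ⟨x, hx, rfl⟩
      exact ⟨x, hx, (hΦp x).symm⟩
    · rintro ⟨x, hx, hxy⟩
      refine ⟨x, hx, ?_⟩
      apply Φ.injective
      rw [hΦp]; exact hxy
  rw [h1, hΦ.measure_preimage_equiv]

/-- The Gram identity in `u^⊥`. -/
theorem gram (e f u : E3)
    (hpars : ∀ x y : E3, (inner ℝ x y) = (inner ℝ e x) * (inner ℝ e y) + (inner ℝ f x) * (inner ℝ f y) + (inner ℝ u x) * (inner ℝ u y))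
    (v w : E3) :
    ((inner ℝ e v) * (inner ℝ f w) - (inner ℝ e w) * (inner ℝ f v)) ^ 2
      = ((inner ℝ v v) - (inner ℝ u v) ^ 2) * ((inner ℝ w w) - (inner ℝ u w) ^ 2) - ((inner ℝ v w) - (inner ℝ u v) * (inner ℝ u w)) ^ 2 := by
  rw [hpars v v, hpars w w, hpars v w]
  ring

/-- **Area of the shadow of a tetrahedron, lower bound.**  Let `K` be convex, containing four
points `a, b, c, d` such that a chord in direction `u` joins the segments `[a,b]` and `[c,d]`.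
Then the shadow in direction `u` has area at least half of `|(inner ℝ u ((b - a) × (d - c)))|` (written
with a Gram determinant). -/
theorem shadow_quad (u : E3) (hu : ‖u‖ = 1) {K : Set E3} (hK : Convex ℝ K) {a b c d : E3}
    (ha : a ∈ K) (hb : b ∈ K) (hc : c ∈ K) (hd : d ∈ K) {α β l : ℝ} (hα0 : 0 ≤ α) (hα1 : α ≤ 1)
    (hβ0 : 0 ≤ β) (hβ1 : β ≤ 1)
    (hchord : (a + α • (b - a)) - (c + β • (d - c)) = l • u) {r : ℝ} (hr : 0 ≤ r)
    (hr2 : r ^ 2 ≤ ((inner ℝ (b - a) (b - a)) - (inner ℝ u (b - a)) ^ 2) * ((inner ℝ (d - c) (d - c)) - (inner ℝ u (d - c)) ^ 2)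
      - ((inner ℝ (b - a) (d - c)) - (inner ℝ u (b - a)) * (inner ℝ u (d - c))) ^ 2) :
    ENNReal.ofReal (r / 2) ≤ volume (shadow u K) := by
  obtain ⟨e, f, hpars, hvol⟩ := volume_shadow u hu
  rw [hvol K]
  let φ : E3 →ₗ[ℝ] ℝ × ℝ := (innerₛₗ ℝ e).prod (innerₛₗ ℝ f)
  have hφ : ∀ x : E3, φ x = ((inner ℝ e x), (inner ℝ f x)) := fun x => rfl
  have himg : (fun x : E3 => ((inner ℝ e x), (inner ℝ f x))) '' K = φ '' K := rfl
  rw [himg]
  have hKφ : Convex ℝ (φ '' K) := hK.linear_image φ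
  have huu : (inner ℝ u u) = 1 := by rw [real_inner_self_eq_norm_sq, hu]; norm_num
  have heu : φ u = 0 := by
    have h1 := hpars u u
    rw [huu] at h1
    have h2 : (inner ℝ e u) = 0 ∧ (inner ℝ f u) = 0 := by
      constructor <;> nlinarith [sq_nonneg (inner ℝ e u), sq_nonneg (inner ℝ f u)]
    rw [hφ, h2.1, h2.2]; rfl
  have hch : φ (a + α • (b - a)) = φ (c + β • (d - c)) := by
    have := congrArg φ hchord
    rw [map_sub, map_smul, heu, smul_zero, sub_eq_zero] at this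
    exact this
  have h := quad_area (φ (a + α • (b - a))) (φ (b - a)) (φ (d - c)) α β hα0 hα1 hβ0 hβ1 hKφ
    ⟨b, hb, by rw [← map_smul, ← map_add]; congr 1; module⟩
    ⟨a, ha, by rw [← map_smul, ← map_sub]; congr 1; module⟩
    ⟨d, hd, by rw [hch, ← map_smul, ← map_add]; congr 1; module⟩
    ⟨c, hc, by rw [hch, ← map_smul, ← map_sub]; congr 1; module⟩
  refine le_trans ?_ h
  apply ENNReal.ofReal_le_ofReal
  have hg := gram e f u hpars (b - a) (d - c)
  rw [← hg] at hr2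
  have h3 : r ≤ |(φ (b - a)).1 * (φ (d - c)).2 - (φ (d - c)).1 * (φ (b - a)).2| := by
    rw [hφ, hφ]
    exact (sq_le_sq₀ hr (abs_nonneg _)).1 (by rw [sq_abs]; exact hr2)
  linarith

/-- The regular tetrahedron with vertices `(1,1,1)`, `(1,-1,-1)`, `(-1,1,-1)`, `(-1,-1,1)`. -/
noncomputable def tetra : Set E3 :=
  convexHull ℝ {!₂[1, 1, 1], !₂[1, -1, -1], !₂[-1, 1, -1], !₂[-1, -1, 1]}

theorem inner_vec (u : E3) (x y z : ℝ) :
    (inner ℝ u ((!₂[x, y, z] : E3))) = u 0 * x + u 1 * y + u 2 * z := by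
  simp [PiLp.inner_apply, Fin.sum_univ_three]
  ring

end P243
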