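import Mathlib

open MeasureTheory

namespace P243.Bang

noncomputable def orthoPlane {E : Type} [NormedAddCommGroup E] [InnerProductSpace ℝ E] (u : E) :
    Submodule ℝ E :=
  (Submodule.span ℝ {u})ᗮ

noncomputable def area {E : Type} [NormedAddCommGroup E] [InnerProductSpace ℝ E]
    [FiniteDimensional ℝ E] [MeasurableSpace E] [BorelSpace E] (u : E)
    (B : Set (orthoPlane u)) : ENNReal :=
  volume B

structure Cylinder (E : Type) [NormedAddCommGroup E] [InnerProductSpace ℝ E]
    [FiniteDimensional ℝ E] [MeasurableSpace E] [BorelSpace E] where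
  axis : E
  norm_axis : ‖axis‖ = 1
  base : Set (orthoPlane axis)
  measurable_base : NullMeasurableSet base volume
  finite_base : area axis base < ⊤

def Cylinder.body {E : Type} [NormedAddCommGroup E] [InnerProductSpace ℝ E]
    [FiniteDimensional ℝ E] [MeasurableSpace E] [BorelSpace E] (C : Cylinder E) : Set E :=
  {x | ∃ b ∈ C.base, ∃ t : ℝ, x = (b : E) + t • C.axis}

noncomputable def shadow {E : Type} [NormedAddCommGroup E] [InnerProductSpace ℝ E]
    [FiniteDimensional ℝ E] (u : E) (K : Set E) : Set (orthoPlane u) :=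
  (orthoPlane u).orthogonalProjectionOnto '' K

noncomputable def minShadow {E : Type} [NormedAddCommGroup E] [InnerProductSpace ℝ E]
    [FiniteDimensional ℝ E] [MeasurableSpace E] [BorelSpace E] (K : Set E) : ENNReal :=
  ⨅ u : {u : E // ‖u‖ = 1}, area u.1 (shadow u.1 K)

def IsConvexBody {E : Type} [NormedAddCommGroup E] [InnerProductSpace ℝ E] (K : Set E) : Prop :=
  IsCompact K ∧ Convex ℝ K ∧ (interior K).Nonempty

noncomputable def totalArea {E : Type} [NormedAddCommGroup E] [InnerProductSpace ℝ E]
    [FiniteDimensional ℝ E] [MeasurableSpace E] [BorelSpace E] {m : ℕ}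
    (C : Fin m → Cylinder E) : ENNReal :=
  ∑ i, area (C i).axis (C i).base

noncomputable def relArea {E : Type} [NormedAddCommGroup E] [InnerProductSpace ℝ E]
    [FiniteDimensional ℝ E] [MeasurableSpace E] [BorelSpace E] {m : ℕ}
    (C : Fin m → Cylinder E) (K : Set E) : ENNReal :=
  ∑ i, area (C i).axis (C i).base / area (C i).axis (shadow (C i).axis K)

def IsCovering {E : Type} [NormedAddCommGroup E] [InnerProductSpace ℝ E]
    [FiniteDimensional ℝ E] [MeasurableSpace E] [BorelSpace E] {m : ℕ}
    (C : Fin m → Cylinder E) (K : Set E) : Prop :=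
  IsConvexBody K ∧ K ⊆ ⋃ i, (C i).body

def HalfAreaConjecture (E : Type) [NormedAddCommGroup E] [InnerProductSpace ℝ E]
    [FiniteDimensional ℝ E] [MeasurableSpace E] [BorelSpace E] : Prop :=
  ∀ (K : Set E) (m : ℕ) (C : Fin m → Cylinder E), IsCovering C K →
    1 / 2 * minShadow K ≤ totalArea C

def CylinderCoveringConjecture (E : Type) [NormedAddCommGroup E] [InnerProductSpace ℝ E]
    [FiniteDimensional ℝ E] [MeasurableSpace E] [BorelSpace E] : Prop :=
  ∀ (K : Set E) (m : ℕ) (C : Fin m → Cylinder E), IsCovering C K → 1 / 2 ≤ relArea C K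

noncomputable def cConst (E : Type) [NormedAddCommGroup E] [InnerProductSpace ℝ E]
    [FiniteDimensional ℝ E] [MeasurableSpace E] [BorelSpace E] : ENNReal :=
  sInf {c | ∃ (K : Set E) (m : ℕ) (C : Fin m → Cylinder E), IsCovering C K ∧
    c = totalArea C / minShadow K}

noncomputable def rConst (E : Type) [NormedAddCommGroup E] [InnerProductSpace ℝ E]
    [FiniteDimensional ℝ E] [MeasurableSpace E] [BorelSpace E] : ENNReal :=
  sInf {c | ∃ (K : Set E) (m : ℕ) (C : Fin m → Cylinder E), IsCovering C K ∧ c = relArea C K}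

end P243.Bang
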