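import Vale.Agent.P243.ShadowArea

open MeasureTheory

namespace P243

theorem sum_sq_eq_one {u : E3} (hu : ‖u‖ = 1) : u 0 ^ 2 + u 1 ^ 2 + u 2 ^ 2 = 1 := by
  have h := EuclideanSpace.real_norm_sq_eq u
  rw [hu, Fin.sum_univ_three] at h
  linarith

theorem vec_sub (a b c a' b' c' : ℝ) :
    (!₂[a, b, c] : E3) - !₂[a', b', c'] = !₂[a - a', b - b', c - c'] := by
  ext i; fin_cases i <;> simp

theorem inner_vec_vec (a b c a' b' c' : ℝ) :
    (inner ℝ ((!₂[a, b, c] : E3)) (!₂[a', b', c'])) = a * a' + b * b' + c * c' := by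
  rw [inner_vec]; simp

theorem vA : (!₂[1, 1, 1] : E3) ∈ tetra := subset_convexHull ℝ _ (by simp)
theorem vB : (!₂[1, -1, -1] : E3) ∈ tetra := subset_convexHull ℝ _ (by simp)
theorem vC : (!₂[-1, 1, -1] : E3) ∈ tetra := subset_convexHull ℝ _ (by simp)
theorem vD : (!₂[-1, -1, 1] : E3) ∈ tetra := subset_convexHull ℝ _ (by simp)

/-- Lagrange's identity in the form needed here. -/
theorem lagrange (x y z v1 v2 v3 w1 w2 w3 : ℝ) (h : x ^ 2 + y ^ 2 + z ^ 2 = 1) :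
    (x * (v2 * w3 - v3 * w2) + y * (v3 * w1 - v1 * w3) + z * (v1 * w2 - v2 * w1)) ^ 2
      = ((v1 * v1 + v2 * v2 + v3 * v3) - (x * v1 + y * v2 + z * v3) ^ 2)
        * ((w1 * w1 + w2 * w2 + w3 * w3) - (x * w1 + y * w2 + z * w3) ^ 2)
        - ((v1 * w1 + v2 * w2 + v3 * w3)
          - (x * v1 + y * v2 + z * v3) * (x * w1 + y * w2 + z * w3)) ^ 2 := by
  have key : (x * (v2 * w3 - v3 * w2) + y * (v3 * w1 - v1 * w3) + z * (v1 * w2 - v2 * w1)) ^ 2
      = (x ^ 2 + y ^ 2 + z ^ 2) * ((v1 * v1 + v2 * v2 + v3 * v3) * (w1 * w1 + w2 * w2 + w3 * w3)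
          - (v1 * w1 + v2 * w2 + v3 * w3) ^ 2)
        - ((x * v1 + y * v2 + z * v3) ^ 2 * (w1 * w1 + w2 * w2 + w3 * w3)
          + (x * w1 + y * w2 + z * w3) ^ 2 * (v1 * v1 + v2 * v2 + v3 * v3)
          - 2 * (x * v1 + y * v2 + z * v3) * (x * w1 + y * w2 + z * w3)
            * (v1 * w1 + v2 * w2 + v3 * w3)) := by ring
  rw [key, h]; ring

/-- Triangle case of the shadow bound. -/
theorem shadow_tri (u : E3) (hu : ‖u‖ = 1) {a1 a2 a3 b1 b2 b3 c1 c2 c3 : ℝ}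
    (ha : (!₂[a1, a2, a3] : E3) ∈ tetra) (hb : (!₂[b1, b2, b3] : E3) ∈ tetra)
    (hc : (!₂[c1, c2, c3] : E3) ∈ tetra) {r : ℝ} (hr : 0 ≤ r)
    (hr2 : r ^ 2 ≤ (u 0 * ((b2 - a2) * (c3 - a3) - (b3 - a3) * (c2 - a2))
      + u 1 * ((b3 - a3) * (c1 - a1) - (b1 - a1) * (c3 - a3))
      + u 2 * ((b1 - a1) * (c2 - a2) - (b2 - a2) * (c1 - a1))) ^ 2) :
    ENNReal.ofReal (r / 2) ≤ volume (shadow u tetra) := by
  have h1 := sum_sq_eq_one hu
  refine shadow_quad u hu (convex_convexHull ℝ _) ha hb ha hc (α := 0) (β := 0) (l := 0)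
    le_rfl zero_le_one le_rfl zero_le_one (by simp) hr (hr2.trans (le_of_eq ?_))
  rw [vec_sub, vec_sub, inner_vec_vec, inner_vec_vec, inner_vec_vec, inner_vec, inner_vec]
  exact lagrange _ _ _ _ _ _ _ _ _ h1

/-- Crossing case of the shadow bound. -/
theorem shadow_cross (u : E3) (hu : ‖u‖ = 1) {a1 a2 a3 b1 b2 b3 c1 c2 c3 d1 d2 d3 : ℝ}
    (ha : (!₂[a1, a2, a3] : E3) ∈ tetra) (hb : (!₂[b1, b2, b3] : E3) ∈ tetra)
    (hc : (!₂[c1, c2, c3] : E3) ∈ tetra) (hd : (!₂[d1, d2, d3] : E3) ∈ tetra) {α β l : ℝ}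
    (hα0 : 0 ≤ α) (hα1 : α ≤ 1) (hβ0 : 0 ≤ β) (hβ1 : β ≤ 1)
    (h1 : a1 + α * (b1 - a1) - (c1 + β * (d1 - c1)) = l * u 0)
    (h2 : a2 + α * (b2 - a2) - (c2 + β * (d2 - c2)) = l * u 1)
    (h3 : a3 + α * (b3 - a3) - (c3 + β * (d3 - c3)) = l * u 2) {r : ℝ} (hr : 0 ≤ r)
    (hr2 : r ^ 2 ≤ (u 0 * ((b2 - a2) * (d3 - c3) - (b3 - a3) * (d2 - c2))
      + u 1 * ((b3 - a3) * (d1 - c1) - (b1 - a1) * (d3 - c3))
      + u 2 * ((b1 - a1) * (d2 - c2) - (b2 - a2) * (d1 - c1))) ^ 2) :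
    ENNReal.ofReal (r / 2) ≤ volume (shadow u tetra) := by
  have h0 := sum_sq_eq_one hu
  refine shadow_quad u hu (convex_convexHull ℝ _) ha hb hc hd (α := α) (β := β) (l := l)
    hα0 hα1 hβ0 hβ1 ?_ hr (hr2.trans (le_of_eq ?_))
  · ext i
    fin_cases i
    · simpa using h1
    · simpa using h2
    · simpa using h3
  · rw [vec_sub, vec_sub, inner_vec_vec, inner_vec_vec, inner_vec_vec, inner_vec, inner_vec]
    exact lagrange _ _ _ _ _ _ _ _ _ h0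

theorem dom {x t : ℝ} (hx : 1 / 2 ≤ x ^ 2) (h1 : (x + t) ^ 2 < 2) (h2 : (x - t) ^ 2 < 2) :
    t ^ 2 ≤ x ^ 2 := by
  by_contra h
  push Not at h
  rcases le_total 0 (x * t) with h0 | h0
  · have h3 : x ^ 2 ≤ x * t := by
      rw [← sq_le_sq₀ (by positivity) h0]
      nlinarith [mul_le_mul_of_nonneg_left h.le (sq_nonneg x)]
    nlinarith
  · have h3 : x ^ 2 ≤ -(x * t) := by
      rw [← sq_le_sq₀ (by positivity) (by linarith)]
      nlinarith [mul_le_mul_of_nonneg_left h.le (sq_nonneg x)]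
    nlinarith

theorem frac_bounds {x t : ℝ} (hx : x ≠ 0) (h : t ^ 2 ≤ x ^ 2) : -1 ≤ t / x ∧ t / x ≤ 1 := by
  have h1 : (t / x) ^ 2 ≤ 1 := by
    rw [div_pow, div_le_one (by positivity)]; exact h
  exact abs_le.1 ((sq_le_one_iff_abs_le_one _).1 h1)

theorem no_small {x y z : ℝ} (h : x ^ 2 + y ^ 2 + z ^ 2 = 1) (hx : x ^ 2 < 1 / 2)
    (hy : y ^ 2 < 1 / 2) (hz : z ^ 2 < 1 / 2) (hA : (x + y - z) ^ 2 < 2)
    (hB : (x - y + z) ^ 2 < 2) (hC : (-x + y + z) ^ 2 < 2) (hD : (x + y + z) ^ 2 < 2) :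
    False := by
  have key : ∀ a b c : ℝ, 0 ≤ a → 0 ≤ b → 0 ≤ c → a ^ 2 + b ^ 2 + c ^ 2 = 1 → a ^ 2 < 1 / 2 →
      b ≤ a → c ≤ a → 2 < (a + b + c) ^ 2 := by
    intro a b c ha hb hc h1 h2 h3 h4
    have h5 : 1 ≤ a * (a + b + c) := by nlinarith
    have h6 : 1 ≤ a ^ 2 * (a + b + c) ^ 2 := by
      have := mul_le_mul h5 h5 zero_le_one (by positivity)
      nlinarith
    have h7 : 0 < (a + b + c) ^ 2 := by
      by_contra h8
      push Not at h8
      nlinarith [sq_nonneg a, sq_nonneg (a + b + c)]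
    nlinarith
  have hs : 2 < (|x| + |y| + |z|) ^ 2 := by
    have hx' := sq_abs x
    have hy' := sq_abs y
    have hz' := sq_abs z
    rcases le_total |y| |x| with h1 | h1
    · rcases le_total |z| |x| with h2 | h2
      · exact key _ _ _ (abs_nonneg _) (abs_nonneg _) (abs_nonneg _) (by linarith)
          (by linarith) h1 h2
      · have := key |z| |x| |y| (abs_nonneg _) (abs_nonneg _) (abs_nonneg _) (by linarith)
          (by linarith) h2 (h1.trans h2)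
        have e : |x| + |y| + |z| = |z| + |x| + |y| := by ring
        rw [e]; exact this
    · rcases le_total |z| |y| with h2 | h2
      · have := key |y| |x| |z| (abs_nonneg _) (abs_nonneg _) (abs_nonneg _) (by linarith)
          (by linarith) h1 h2
        have e : |x| + |y| + |z| = |y| + |x| + |z| := by ring
        rw [e]; exact this
      · have := key |z| |x| |y| (abs_nonneg _) (abs_nonneg _) (abs_nonneg _) (by linarith)
          (by linarith) (h1.trans h2) h2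
        have e : |x| + |y| + |z| = |z| + |x| + |y| := by ring
        rw [e]; exact this
  rcases abs_choice x with h1 | h1 <;> rcases abs_choice y with h2 | h2 <;>
    rcases abs_choice z with h3 | h3 <;> rw [h1, h2, h3] at hs <;> linarith

theorem sqrt_facts : (0:ℝ) ≤ 4 * √2 ∧ (4 * √2) ^ 2 = 32 := by
  have h2 : √2 * √2 = 2 := Real.mul_self_sqrt (by norm_num)
  refine ⟨by positivity, ?_⟩
  rw [mul_pow, sq √2, h2]; norm_num

theorem case_x (u : E3) (hu : ‖u‖ = 1) (x y z : ℝ) (hxu : u 0 = x) (hyu : u 1 = y)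
    (hzu : u 2 = z) (hx : 1 / 2 ≤ x ^ 2) (hA : (x + (y - z)) ^ 2 < 2)
    (hB : (x - (y - z)) ^ 2 < 2) (hC : (x - (y + z)) ^ 2 < 2) (hD : (x + (y + z)) ^ 2 < 2) :
    ENNReal.ofReal (4 * √2 / 2) ≤ volume (shadow u tetra) := by
  have hx0 : x ≠ 0 := by intro h; rw [h] at hx; norm_num at hx
  obtain ⟨p1, p2⟩ := frac_bounds hx0 (dom (t := y + z) hx hD hC)
  obtain ⟨q1, q2⟩ := frac_bounds hx0 (dom (t := y - z) hx hA hB)
  refine shadow_cross u hu vA vB vC vD (α := (1 - (y + z) / x) / 2)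
    (β := (1 + (y - z) / x) / 2) (l := 2 / x) (by linarith) (by linarith) (by linarith)
    (by linarith) ?_ ?_ ?_ sqrt_facts.1 ?_
  · rw [hxu]; field_simp; ring
  · rw [hyu]; field_simp; ring
  · rw [hzu]; field_simp; ring
  · rw [sqrt_facts.2, hxu, hyu, hzu]
    have e : (x * ((-1 - 1) * (1 - -1) - (-1 - 1) * (-1 - 1))
      + y * ((-1 - 1) * (-1 - -1) - (1 - 1) * (1 - -1))
      + z * ((1 - 1) * (-1 - 1) - (-1 - 1) * (-1 - -1))) ^ 2 = 64 * x ^ 2 := by ring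
    rw [e]; linarith

theorem case_y (u : E3) (hu : ‖u‖ = 1) (x y z : ℝ) (hxu : u 0 = x) (hyu : u 1 = y)
    (hzu : u 2 = z) (hy : 1 / 2 ≤ y ^ 2) (hA : (y + (x - z)) ^ 2 < 2)
    (hB : (y - (x - z)) ^ 2 < 2) (hC : (y - (x + z)) ^ 2 < 2) (hD : (y + (x + z)) ^ 2 < 2) :
    ENNReal.ofReal (4 * √2 / 2) ≤ volume (shadow u tetra) := by
  have hy0 : y ≠ 0 := by intro h; rw [h] at hy; norm_num at hy
  obtain ⟨p1, p2⟩ := frac_bounds hy0 (dom (t := x + z) hy hD hC)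
  obtain ⟨q1, q2⟩ := frac_bounds hy0 (dom (t := x - z) hy hA hB)
  refine shadow_cross u hu vA vC vB vD (α := (1 - (x + z) / y) / 2)
    (β := (1 + (x - z) / y) / 2) (l := 2 / y) (by linarith) (by linarith) (by linarith)
    (by linarith) ?_ ?_ ?_ sqrt_facts.1 ?_
  · rw [hxu]; field_simp; ring
  · rw [hyu]; field_simp; ring
  · rw [hzu]; field_simp; ring
  · rw [sqrt_facts.2, hxu, hyu, hzu]
    have e : (x * ((1 - 1) * (1 - -1) - (-1 - 1) * (-1 - -1))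
      + y * ((-1 - 1) * (-1 - 1) - (-1 - 1) * (1 - -1))
      + z * ((-1 - 1) * (-1 - -1) - (1 - 1) * (-1 - 1))) ^ 2 = 64 * y ^ 2 := by ring
    rw [e]; linarith

theorem case_z (u : E3) (hu : ‖u‖ = 1) (x y z : ℝ) (hxu : u 0 = x) (hyu : u 1 = y)
    (hzu : u 2 = z) (hz : 1 / 2 ≤ z ^ 2) (hA : (z + (x - y)) ^ 2 < 2)
    (hB : (z - (x - y)) ^ 2 < 2) (hC : (z - (x + y)) ^ 2 < 2) (hD : (z + (x + y)) ^ 2 < 2) :
    ENNReal.ofReal (4 * √2 / 2) ≤ volume (shadow u tetra) := by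
  have hz0 : z ≠ 0 := by intro h; rw [h] at hz; norm_num at hz
  obtain ⟨p1, p2⟩ := frac_bounds hz0 (dom (t := x + y) hz hD hC)
  obtain ⟨q1, q2⟩ := frac_bounds hz0 (dom (t := x - y) hz hA hB)
  refine shadow_cross u hu vA vD vB vC (α := (1 - (x + y) / z) / 2)
    (β := (1 + (x - y) / z) / 2) (l := 2 / z) (by linarith) (by linarith) (by linarith)
    (by linarith) ?_ ?_ ?_ sqrt_facts.1 ?_
  · rw [hxu]; field_simp; ring
  · rw [hyu]; field_simp; ring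
  · rw [hzu]; field_simp; ring
  · rw [sqrt_facts.2, hxu, hyu, hzu]
    have e : (x * ((-1 - 1) * (-1 - -1) - (1 - 1) * (1 - -1))
      + y * ((1 - 1) * (-1 - 1) - (-1 - 1) * (-1 - -1))
      + z * ((-1 - 1) * (1 - -1) - (-1 - 1) * (-1 - 1))) ^ 2 = 64 * z ^ 2 := by ring
    rw [e]; linarith

theorem tri_case (u : E3) (hu : ‖u‖ = 1) {a1 a2 a3 b1 b2 b3 c1 c2 c3 : ℝ}
    (ha : (!₂[a1, a2, a3] : E3) ∈ tetra) (hb : (!₂[b1, b2, b3] : E3) ∈ tetra)
    (hc : (!₂[c1, c2, c3] : E3) ∈ tetra) {s : ℝ} (hs : 2 ≤ s ^ 2)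
    (hr2 : (u 0 * ((b2 - a2) * (c3 - a3) - (b3 - a3) * (c2 - a2))
      + u 1 * ((b3 - a3) * (c1 - a1) - (b1 - a1) * (c3 - a3))
      + u 2 * ((b1 - a1) * (c2 - a2) - (b2 - a2) * (c1 - a1))) = 4 * s) :
    ENNReal.ofReal (4 * √2 / 2) ≤ volume (shadow u tetra) := by
  refine shadow_tri u hu ha hb hc sqrt_facts.1 ?_
  rw [hr2, sqrt_facts.2]
  nlinarith

/-- **The smallest shadow of the regular tetrahedron of edge length `2√2` has area at least
`2√2`.** -/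
theorem shadow_tetra_ge (u : E3) (hu : ‖u‖ = 1) :
    ENNReal.ofReal (2 * √2) ≤ volume (shadow u tetra) := by
  have h1 := sum_sq_eq_one hu
  have e1 : 2 * √2 = (4 * √2) / 2 := by ring
  rw [e1]
  by_cases hA : 2 ≤ (u 0 + u 1 - u 2) ^ 2
  · exact tri_case u hu vA vB vC hA (by ring)
  by_cases hB : 2 ≤ (-(u 0 - u 1 + u 2)) ^ 2
  · exact tri_case u hu vA vB vD hB (by ring)
  by_cases hC : 2 ≤ (-u 0 + u 1 + u 2) ^ 2
  · exact tri_case u hu vA vC vD hC (by ring)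
  by_cases hD : 2 ≤ (u 0 + u 1 + u 2) ^ 2
  · exact tri_case u hu vB vC vD hD (by ring)
  push Not at hA hB hC hD
  generalize hx0 : u 0 = x at *
  generalize hy0 : u 1 = y at *
  generalize hz0 : u 2 = z at *
  by_cases hx : 1 / 2 ≤ x ^ 2
  · exact case_x u hu x y z hx0 hy0 hz0 hx (by linarith) (by linarith) (by linarith) (by linarith)
  by_cases hy : 1 / 2 ≤ y ^ 2
  · exact case_y u hu x y z hx0 hy0 hz0 hy (by linarith) (by linarith) (by linarith) (by linarith)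
  by_cases hz : 1 / 2 ≤ z ^ 2
  · exact case_z u hu x y z hx0 hy0 hz0 hz (by linarith) (by linarith) (by linarith) (by linarith)
  push Not at hx hy hz
  exact (no_small h1 hx hy hz hA (by linarith) hC hD).elim

end P243
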