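import Vale.Agent.P243.Defs

open MeasureTheory

namespace P243

theorem sub_proj_mem_span (u x : E3) :
    x - ((perp u).orthogonalProjectionOnto x : E3) ∈ Submodule.span ℝ {u} := by
  have h := Submodule.sub_starProjection_mem_orthogonal (K := perp u) x
  rw [Submodule.orthogonal_orthogonal] at h
  exact h

theorem mem_body_iff (C : Cylinder) (x : E3) :
    x ∈ C.body ↔ (perp C.axis).orthogonalProjectionOnto x ∈ C.base := by
  constructor
  · rintro ⟨b, hb, t, rfl⟩
    have h1 : (perp C.axis).orthogonalProjectionOnto ((b : E3) + t • C.axis) = b := by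
      rw [map_add, map_smul]
      have h2 : (perp C.axis).orthogonalProjectionOnto (b : E3) = b :=
        Submodule.orthogonalProjectionOnto_mem_subspace_eq_self b
      have h3 : (perp C.axis).orthogonalProjectionOnto C.axis = 0 := by
        apply Submodule.orthogonalProjectionOnto_eq_zero_iff.2
        exact (Submodule.le_orthogonal_orthogonal _) (Submodule.mem_span_singleton_self _)
      rw [h2, h3]; simp
    rw [h1]; exact hb
  · intro hx
    obtain ⟨t, ht⟩ := Submodule.mem_span_singleton.1 (sub_proj_mem_span C.axis x)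
    refine ⟨_, hx, t, ?_⟩
    rw [ht]; abel

/-- If `L` is a continuous linear map killing `u`, it factors through the projection. -/
theorem map_proj (u : E3) (L : E3 →L[ℝ] ℝ × ℝ) (hu : L u = 0) (x : E3) :
    L ((perp u).orthogonalProjectionOnto x : E3) = L x := by
  obtain ⟨t, ht⟩ := Submodule.mem_span_singleton.1 (sub_proj_mem_span u x)
  have : x = ((perp u).orthogonalProjectionOnto x : E3) + t • u := by rw [ht]; abel
  conv_rhs => rw [this]
  rw [map_add, map_smul, hu]; simp

/-- The linear equivalence `u^⊥ ≃ ℝ × ℝ` induced by a surjective `L` with `L u = 0`. -/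
theorem exists_equiv (u : E3) (hu1 : ‖u‖ = 1) (L : E3 →L[ℝ] ℝ × ℝ) (hu : L u = 0)
    (hL : Function.Surjective L) :
    ∃ M : perp u ≃L[ℝ] ℝ × ℝ, ∀ x : perp u, M x = L x := by
  have hu0 : u ≠ 0 := by
    intro h; rw [h] at hu1; simp at hu1
  let M0 : perp u →ₗ[ℝ] ℝ × ℝ := L.toLinearMap ∘ₗ (perp u).subtype
  have hsurj : Function.Surjective M0 := by
    intro y
    obtain ⟨x, hx⟩ := hL y
    exact ⟨(perp u).orthogonalProjectionOnto x, by
      show L ((perp u).orthogonalProjectionOnto x : E3) = y
      rw [map_proj u L hu, hx]⟩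
  have hdim : Module.finrank ℝ (perp u) = Module.finrank ℝ (ℝ × ℝ) := by
    have h1 := Submodule.finrank_add_finrank_orthogonal (Submodule.span ℝ {u})
    rw [finrank_span_singleton hu0] at h1
    have h2 : Module.finrank ℝ E3 = 3 := by simp
    rw [h2] at h1
    have h3 : Module.finrank ℝ (ℝ × ℝ) = 2 := by simp
    rw [h3]; show Module.finrank ℝ (Submodule.span ℝ {u})ᗮ = 2
    omega
  have hinj : Function.Injective M0 :=
    (LinearMap.injective_iff_surjective_of_finrank_eq_finrank hdim).2 hsurj
  refine ⟨(LinearEquiv.ofBijective M0 ⟨hinj, hsurj⟩).toContinuousLinearEquiv, ?_⟩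
  intro x
  rfl

/-- **Transfer lemma.**  Let `L : ℝ³ → ℝ²` be a surjective linear map whose kernel is spanned by
the unit vector `u`.  The preimage of a measurable planar set `S` of finite area is a cylinder
with axis `u`, and all ratios (area of base)/(area of shadow) can be computed in the plane. -/
theorem exists_cylinder (u : E3) (hu1 : ‖u‖ = 1) (L : E3 →L[ℝ] ℝ × ℝ) (hu : L u = 0)
    (hL : Function.Surjective L) (S : Set (ℝ × ℝ)) (hS : MeasurableSet S)
    (hfin : volume S ≠ ⊤) :
    ∃ C : Cylinder, C.axis = u ∧ C.body = L ⁻¹' S ∧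
      ∀ K : Set E3, C.baseArea / shadowArea C.axis K
        = (volume S).toReal / (volume (L '' K)).toReal := by
  obtain ⟨M, hM⟩ := exists_equiv u hu1 L hu hL
  -- the push-forward of the volume is a multiple of the volume
  have hHaar : (Measure.map M (volume : Measure (perp u))).IsAddHaarMeasure :=
    M.isAddHaarMeasure_map volume
  obtain ⟨κ, hκ0, hκtop, hκ⟩ : ∃ κ : ENNReal, κ ≠ 0 ∧ κ ≠ ⊤ ∧
      ∀ s : Set (ℝ × ℝ), volume (M ⁻¹' s) = κ * volume s := by
    have h := Measure.isAddLeftInvariant_eq_smul (Measure.map M (volume : Measure (perp u)))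
      (volume : Measure (ℝ × ℝ))
    refine ⟨(Measure.addHaarScalarFactor (Measure.map M (volume : Measure (perp u)))
      (volume : Measure (ℝ × ℝ)) : NNReal), ?_, ENNReal.coe_ne_top, ?_⟩
    · have := Measure.addHaarScalarFactor_pos_of_isAddHaarMeasure
        (Measure.map M (volume : Measure (perp u))) (volume : Measure (ℝ × ℝ))
      exact ENNReal.coe_ne_zero.2 this.ne'
    · intro s
      have h1 : Measure.map M (volume : Measure (perp u)) s = volume (M ⁻¹' s) :=
        M.toHomeomorph.toMeasurableEquiv.map_apply s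
      rw [← h1]
      conv_lhs => rw [h]
      rfl
  let C : Cylinder :=
    { axis := u
      norm_axis := hu1
      base := M ⁻¹' S
      measurable_base := (M.continuous.measurable hS).nullMeasurableSet
      finite_base := by
        rw [hκ]; exact ENNReal.mul_ne_top hκtop hfin }
  have hproj : ∀ x : E3, M ((perp u).orthogonalProjectionOnto x) = L x := fun x => by
    rw [hM, map_proj u L hu]
  refine ⟨C, rfl, ?_, ?_⟩
  · ext x
    rw [mem_body_iff]
    show M ((perp u).orthogonalProjectionOnto x) ∈ S ↔ L x ∈ S
    rw [hproj]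
  · intro K
    have hsh : shadow u K = M ⁻¹' (L '' K) := by
      ext y
      constructor
      · rintro ⟨x, hx, rfl⟩
        exact ⟨x, hx, (hproj x).symm⟩
      · rintro ⟨x, hx, hxy⟩
        refine ⟨x, hx, ?_⟩
        apply M.injective
        rw [hproj, hxy]
    show (volume (M ⁻¹' S)).toReal / (volume (shadow u K)).toReal = _
    rw [hsh, hκ, hκ, ENNReal.toReal_mul, ENNReal.toReal_mul]
    apply mul_div_mul_left
    exact (ENNReal.toReal_pos hκ0 hκtop).ne'

end P243
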